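import Vale.Agent.H69.Family

/-!
# The cubic family: hyperbolicity and the spectrahedral-shadow description of the cone
-/

namespace Vale.Agent.H69

open MvPolynomial Matrix

/-! ### The extended quadratic form `lam q(y) - r ℓ(y)` in the variables `(y, r)` -/

/-- Matrix of the quadratic form `(y, r) ↦ lam * y^T A y - r * ℓ(y)`. -/
noncomputable def extMat {N : ℕ} (A : Matrix (Fin N) (Fin N) ℝ) (lam : ℝ) (l : Fin N → ℝ) :
    Matrix (Fin N ⊕ Unit) (Fin N ⊕ Unit) ℝ :=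
  fromBlocks (lam • A) (replicateCol Unit (fun i => -(l i) / 2))
    (replicateRow Unit (fun i => -(l i) / 2)) 0

theorem extMat_isSymm {N : ℕ} {A : Matrix (Fin N) (Fin N) ℝ} (hA : A.IsSymm) (lam : ℝ)
    (l : Fin N → ℝ) : (extMat A lam l).IsSymm := by
  apply Matrix.IsSymm.fromBlocks
  · exact hA.smul lam
  · ext i j; simp [replicateCol_apply, replicateRow_apply]
  · simp

theorem bil_extMat {N : ℕ} (A : Matrix (Fin N) (Fin N) ℝ) (lam : ℝ) (l : Fin N → ℝ)
    (y1 y2 : Fin N → ℝ) (r1 r2 : ℝ) :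
    bil (extMat A lam l) (Sum.elim y1 (fun _ => r1)) (Sum.elim y2 (fun _ => r2))
      = lam * bil A y1 y2 - (lf l y1 * r2 + r1 * lf l y2) / 2 := by
  have h1 : y1 ⬝ᵥ ((replicateCol Unit (fun i => -(l i) / 2)) *ᵥ fun _ => r2)
      = -(lf l y1 * r2) / 2 := by
    simp only [dotProduct, mulVec, replicateCol_apply, Finset.univ_unique, Finset.sum_singleton,
      lf, Finset.sum_mul, neg_div, Finset.sum_div, ← Finset.sum_neg_distrib]
    refine Finset.sum_congr rfl fun i _ => ?_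
    ring
  have h2 : (fun _ : Unit => r1) ⬝ᵥ ((replicateRow Unit (fun i => -(l i) / 2)) *ᵥ y2)
      = -(r1 * lf l y2) / 2 := by
    simp only [dotProduct, mulVec, replicateRow_apply, Finset.univ_unique, Finset.sum_singleton,
      lf, Finset.mul_sum, neg_div, Finset.sum_div, ← Finset.sum_neg_distrib]
    refine Finset.sum_congr rfl fun i _ => ?_
    ring
  simp only [bil, extMat, fromBlocks_mulVec, Sum.elim_comp_inl, Sum.elim_comp_inr,
    sumElim_dotProduct_sumElim, smul_mulVec, dotProduct_add, dotProduct_smul, smul_eq_mul]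
  rw [h1, h2]
  simp only [zero_mulVec, dotProduct_zero]
  ring

theorem sum_unit_decomp {N : ℕ} (w : Fin N ⊕ Unit → ℝ) :
    w = Sum.elim (fun i => w (Sum.inl i)) (fun _ => w (Sum.inr ())) := by
  funext i
  cases i with
  | inl i => rfl
  | inr u => rfl

theorem ext_rcs (κ b c lam μ r : ℝ) (hκ : 0 < κ)
    (h4 : κ * μ ^ 2 - 2 * b * lam * μ + c * lam ^ 2 ≤ 0) :
    lam * κ * (lam * c - r * μ) ≤ (lam * b - lam * r / 2) ^ 2 := by
  have e : (lam * b - lam * r / 2) ^ 2 - lam * κ * (lam * c - r * μ)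
      = (lam * r / 2 - (lam * b - κ * μ)) ^ 2
        + κ * (-(κ * μ ^ 2 - 2 * b * lam * μ + c * lam ^ 2)) := by ring
  have h1 : 0 ≤ κ * (-(κ * μ ^ 2 - 2 * b * lam * μ + c * lam ^ 2)) :=
    mul_nonneg hκ.le (by linarith)
  nlinarith [sq_nonneg (lam * r / 2 - (lam * b - κ * μ))]

theorem ext_psd_iff {N : ℕ} {A : Matrix (Fin N) (Fin N) ℝ} (hA : A.IsSymm) {e' : Fin N → ℝ}
    (l : Fin N → ℝ) (hκ : 0 < bil A e' e')
    (h4 : ∀ y, bil A e' e' * lf l y ^ 2 - 2 * bil A e' y * lf l e' * lf l y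
      + bil A y y * lf l e' ^ 2 ≤ 0)
    (hlam : 0 < lf l e') (y : Fin N → ℝ) (r : ℝ) :
    (quadLMI (extMat A (lf l e') l) (Sum.elim e' (fun _ => 0))
        (Sum.elim y (fun _ => r))).PosSemidef
      ↔ r ≤ 2 * bil A e' y ∧ r * lf l y ≤ lf l e' * bil A y y := by
  have hκ' : 0 < bil (extMat A (lf l e') l) (Sum.elim e' (fun _ => (0 : ℝ)))
      (Sum.elim e' (fun _ => (0 : ℝ))) := by
    rw [bil_extMat]
    simp only [mul_zero, zero_mul, add_zero, zero_div, sub_zero]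
    exact mul_pos hlam hκ
  have hR' : ∀ w : Fin N ⊕ Unit → ℝ,
      bil (extMat A (lf l e') l) (Sum.elim e' (fun _ => (0 : ℝ))) (Sum.elim e' (fun _ => (0 : ℝ)))
        * bil (extMat A (lf l e') l) w w
      ≤ bil (extMat A (lf l e') l) (Sum.elim e' (fun _ => (0 : ℝ))) w ^ 2 := by
    intro w
    rw [sum_unit_decomp w]
    simp only [bil_extMat]
    have := ext_rcs (bil A e' e') (bil A e' (fun i => w (Sum.inl i)))
      (bil A (fun i => w (Sum.inl i)) (fun i => w (Sum.inl i))) (lf l e')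
      (lf l (fun i => w (Sum.inl i))) (w (Sum.inr ())) hκ (h4 _)
    have e1 : (lf l e' * bil A e' e' - (lf l e' * 0 + 0 * lf l e') / 2)
        * (lf l e' * bil A (fun i => w (Sum.inl i)) (fun i => w (Sum.inl i))
          - (lf l (fun i => w (Sum.inl i)) * w (Sum.inr ())
            + w (Sum.inr ()) * lf l (fun i => w (Sum.inl i))) / 2)
        = lf l e' * bil A e' e' * (lf l e' * bil A (fun i => w (Sum.inl i))
            (fun i => w (Sum.inl i)) - w (Sum.inr ()) * lf l (fun i => w (Sum.inl i))) := by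
      ring
    have e2 : (lf l e' * bil A e' (fun i => w (Sum.inl i))
          - (lf l e' * w (Sum.inr ()) + 0 * lf l (fun i => w (Sum.inl i))) / 2) ^ 2
        = (lf l e' * bil A e' (fun i => w (Sum.inl i)) - lf l e' * w (Sum.inr ()) / 2) ^ 2 := by
      ring
    rw [e1, e2]
    exact this
  rw [quadLMI_posSemidef_iff (extMat_isSymm hA _ _) _ hκ' hR']
  simp only [bil_extMat]
  constructor
  · rintro ⟨h1, h2⟩
    constructor
    · have e : lf l e' * bil A e' y - (lf l e' * r + 0 * lf l y) / 2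
          = lf l e' * (bil A e' y - r / 2) := by ring
      rw [e] at h1
      have := nonneg_of_mul_nonneg_right h1 hlam
      linarith
    · linarith
  · rintro ⟨h1, h2⟩
    constructor
    · have e : lf l e' * bil A e' y - (lf l e' * r + 0 * lf l y) / 2
          = lf l e' * (bil A e' y - r / 2) := by ring
      rw [e]
      exact mul_nonneg hlam.le (by linarith)
    · linarith

theorem ext_psd_zero {N : ℕ} {A : Matrix (Fin N) (Fin N) ℝ} (hA : A.IsSymm) {e' : Fin N → ℝ}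
    (l : Fin N → ℝ) (hlam : lf l e' = 0) (w : Fin N ⊕ Unit → ℝ) :
    (quadLMI (extMat A (lf l e') l) (Sum.elim e' (fun _ => 0)) w).PosSemidef := by
  have hherm : (quadLMI (extMat A (lf l e') l) (Sum.elim e' (fun _ => 0)) w).IsHermitian := by
    rw [Matrix.IsHermitian, Matrix.conjTranspose_eq_transpose_of_trivial]
    exact quadLMI_isSymm (extMat_isSymm hA _ _) _ _
  refine PosSemidef.of_dotProduct_mulVec_nonneg hherm ?_
  intro z
  rw [star_trivial, quadLMI_quadratic (extMat_isSymm hA _ _)]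
  have hz : ∀ v : Fin N ⊕ Unit → ℝ,
      bil (extMat A (lf l e') l) (Sum.elim e' (fun _ => (0 : ℝ))) v = 0 := by
    intro v
    rw [sum_unit_decomp v, bil_extMat, hlam]
    ring
  rw [hz z, hz w]
  simp

/-! ### The lifted LMI set -/

/-- The ambient space of pairs `(x, u)`: the point `x = (t, y)` and the lifting variables. -/
abbrev LiftSpace (N J : ℕ) : Type := (Fin (N + 1) → ℝ) × (Fin J ⊕ Fin J → ℝ)

/-- `(x, u) ↦ y`, the last `N` coordinates of `x`. -/
def yL (N J : ℕ) : LiftSpace N J →ₗ[ℝ] (Fin N → ℝ) :=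
  (LinearMap.funLeft ℝ ℝ Fin.succ) ∘ₗ (LinearMap.fst ℝ _ _)

/-- `(x, u) ↦ t = x 0`. -/
def tL (N J : ℕ) : LiftSpace N J →ₗ[ℝ] ℝ :=
  (LinearMap.proj 0) ∘ₗ (LinearMap.fst ℝ _ _)

/-- `(x, u) ↦ ρ_j`. -/
def rhoL (N : ℕ) {J : ℕ} (j : Fin J) : LiftSpace N J →ₗ[ℝ] ℝ :=
  (LinearMap.proj (Sum.inl j)) ∘ₗ (LinearMap.snd ℝ _ _)

/-- `(x, u) ↦ τ_j`. -/
def tauL (N : ℕ) {J : ℕ} (j : Fin J) : LiftSpace N J →ₗ[ℝ] ℝ :=
  (LinearMap.proj (Sum.inr j)) ∘ₗ (LinearMap.snd ℝ _ _)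

/-- The linear functional `y ↦ ∑ c_i y_i`. -/
def lfL {N : ℕ} (c : Fin N → ℝ) : (Fin N → ℝ) →ₗ[ℝ] ℝ := ∑ i, c i • LinearMap.proj i

theorem lfL_apply {N : ℕ} (c y : Fin N → ℝ) : lfL c y = lf c y := by
  simp [lfL, lf, LinearMap.sum_apply]

/-- `(x, u) ↦ (y, ρ_j)`. -/
def wL (N : ℕ) {J : ℕ} (j : Fin J) : LiftSpace N J →ₗ[ℝ] (Fin N ⊕ Unit → ℝ) :=
  LinearMap.pi (fun i => Sum.elim (fun i' => (LinearMap.proj i') ∘ₗ yL N J) (fun _ => rhoL N j) i)

theorem wL_apply (N : ℕ) {J : ℕ} (j : Fin J) (v : LiftSpace N J) :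
    wL N j v = Sum.elim (fun i => v.1 i.succ) (fun _ => v.2 (Sum.inl j)) := by
  funext i
  cases i with
  | inl i => rfl
  | inr u => rfl

/-- `(x, u) ↦ t - ∑ τ_j`. -/
def slackL (N J : ℕ) : LiftSpace N J →ₗ[ℝ] ℝ :=
  tL N J - ∑ j : Fin J, tauL N j

theorem slackL_apply (N J : ℕ) (x : Fin (N + 1) → ℝ) (u : Fin J ⊕ Fin J → ℝ) :
    slackL N J (x, u) = x 0 - ∑ j, u (Sum.inr j) := by
  simp only [slackL, LinearMap.sub_apply, LinearMap.sum_apply]
  rfl

/-- The lifted set, an intersection of linear matrix inequalities in `(x, u)`. -/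
def liftSet {N J : ℕ} (A : Matrix (Fin N) (Fin N) ℝ) (e' : Fin N → ℝ)
    (m l : Fin J → Fin N → ℝ) : Set (LiftSpace N J) :=
  (((yL N J) ⁻¹' {y | (quadLMI A e' y).PosSemidef}) ∩ {v | 0 ≤ slackL N J v})
  ∩ ((⋂ j, {v | 0 ≤ tauL N j v ∧ 0 ≤ rhoL N j v ∧
        ((Real.sqrt (lf (l j) e') • (lfL (m j) ∘ₗ yL N J)) v) ^ 2 ≤ tauL N j v * rhoL N j v})
    ∩ (⋂ j, (wL N j) ⁻¹' {w | (quadLMI (extMat A (lf (l j) e') (l j))
        (Sum.elim e' (fun _ => 0)) w).PosSemidef}))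

theorem isLMISet_liftSet {N J : ℕ} {A : Matrix (Fin N) (Fin N) ℝ} (hA : A.IsSymm)
    (e' : Fin N → ℝ) (m l : Fin J → Fin N → ℝ) : IsLMISet (liftSet A e' m l) := by
  apply IsLMISet.inter
  · apply IsLMISet.inter
    · exact (isLMISet_quadCone hA e').preimage _
    · exact IsLMISet.nonneg _
  · apply IsLMISet.inter
    · apply IsLMISet.iInter
      intro j
      exact IsLMISet.psd_two _ _ _
    · apply IsLMISet.iInter
      intro j
      exact (isLMISet_quadCone (extMat_isSymm hA _ _) _).preimage _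

theorem mem_liftSet_iff {N J : ℕ} {A : Matrix (Fin N) (Fin N) ℝ} (hA : A.IsSymm)
    {e' : Fin N → ℝ} (hq : IsHyperbolic (quadPoly A) e') (m l : Fin J → Fin N → ℝ)
    (hl : ∀ j, ∀ y ∈ hypCone (quadPoly A) e', 0 ≤ lf (l j) y)
    (x : Fin (N + 1) → ℝ) (u : Fin J ⊕ Fin J → ℝ) :
    (x, u) ∈ liftSet A e' m l ↔
      ((0 ≤ bil A e' (fun i => x i.succ) ∧ 0 ≤ bil A (fun i => x i.succ) (fun i => x i.succ))
        ∧ ∑ j, u (Sum.inr j) ≤ x 0)
      ∧ ((∀ j, 0 ≤ u (Sum.inr j) ∧ 0 ≤ u (Sum.inl j) ∧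
            lf (l j) e' * lf (m j) (fun i => x i.succ) ^ 2 ≤ u (Sum.inr j) * u (Sum.inl j))
        ∧ (∀ j, lf (l j) e' ≠ 0 → u (Sum.inl j) ≤ 2 * bil A e' (fun i => x i.succ)
            ∧ u (Sum.inl j) * lf (l j) (fun i => x i.succ)
              ≤ lf (l j) e' * bil A (fun i => x i.succ) (fun i => x i.succ))) := by
  have hκ := kappa_pos_of_hyp hq
  have hlam : ∀ j, 0 ≤ lf (l j) e' := fun j => lam_nonneg_of_hyp hA hq (l j) (hl j)
  have hy : yL N J (x, u) = fun i => x i.succ := rfl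
  have hrho : ∀ j, rhoL N j (x, u) = u (Sum.inl j) := fun j => rfl
  have htau : ∀ j, tauL N j (x, u) = u (Sum.inr j) := fun j => rfl
  simp only [liftSet, Set.mem_inter_iff, Set.mem_preimage, Set.mem_ofPred_eq, Set.mem_iInter,
    hy, hrho, htau, wL_apply, slackL_apply, LinearMap.smul_apply,
    LinearMap.comp_apply, lfL_apply, smul_eq_mul]
  rw [quadLMI_posSemidef_iff hA e' hκ (rcs_of_hyp hA hq)]
  have h1 : (0 ≤ x 0 - ∑ j, u (Sum.inr j)) ↔ ∑ j, u (Sum.inr j) ≤ x 0 := sub_nonneg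
  have h2 : ∀ j, (Real.sqrt (lf (l j) e') * lf (m j) (fun i => x i.succ)) ^ 2
      = lf (l j) e' * lf (m j) (fun i => x i.succ) ^ 2 := by
    intro j
    rw [mul_pow, Real.sq_sqrt (hlam j)]
  have h3 : ∀ j, (quadLMI (extMat A (lf (l j) e') (l j)) (Sum.elim e' (fun _ => 0))
        (Sum.elim (fun i => x i.succ) (fun _ => u (Sum.inl j)))).PosSemidef
      ↔ (lf (l j) e' ≠ 0 → u (Sum.inl j) ≤ 2 * bil A e' (fun i => x i.succ)
            ∧ u (Sum.inl j) * lf (l j) (fun i => x i.succ)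
              ≤ lf (l j) e' * bil A (fun i => x i.succ) (fun i => x i.succ)) := by
    intro j
    rcases lt_or_eq_of_le (hlam j) with hpos | hzero
    · rw [ext_psd_iff hA (l j) hκ (h4_of_hyp hA hq (l j) (hl j)) hpos]
      constructor
      · intro h _; exact h
      · intro h; exact h hpos.ne'
    · constructor
      · intro _ hne; exact absurd hzero.symm hne
      · intro _; exact ext_psd_zero hA (l j) hzero.symm _
  simp only [h1, h2, h3]

/-! ### Main theorems for the family -/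

theorem sum_lt_of_dir_pos {N J : ℕ} (A : Matrix (Fin N) (Fin N) ℝ)
    (m l : Fin J → Fin N → ℝ) (s : ℝ) (e' : Fin N → ℝ)
    (hs : 0 < eval (Fin.cons s e' : Fin (N + 1) → ℝ) (schurCubic A m l)) :
    ∑ j, lf (m j) e' ^ 2 * lf (l j) e' < s * bil A e' e' := by
  rw [eval_schurCubic_dir] at hs
  linarith

theorem schurCubic_hyperbolic {N J : ℕ} {A : Matrix (Fin N) (Fin N) ℝ} (hA : A.IsSymm)
    {e' : Fin N → ℝ} (hq : IsHyperbolic (quadPoly A) e') (m l : Fin J → Fin N → ℝ)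
    (hl : ∀ j, ∀ y ∈ hypCone (quadPoly A) e', 0 ≤ lf (l j) y) (s : ℝ)
    (hs : 0 < eval (Fin.cons s e' : Fin (N + 1) → ℝ) (schurCubic A m l)) :
    IsHyperbolic (schurCubic A m l) (Fin.cons s e') := by
  refine ⟨⟨3, schurCubic_isHomogeneous A m l⟩, hs, ?_⟩
  intro x z hz
  rw [lineRestrict_aeval, aeval_line_schurCubic hA] at hz
  exact cubic_root_real s (x 0) (bil A e' e') (bil A e' (fun i => x i.succ))
    (bil A (fun i => x i.succ) (fun i => x i.succ)) (fun j => lf (m j) e')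
    (fun j => lf (m j) (fun i => x i.succ)) (fun j => lf (l j) e')
    (fun j => lf (l j) (fun i => x i.succ)) (kappa_pos_of_hyp hq) (rcs_of_hyp hA hq _)
    (fun j => lam_nonneg_of_hyp hA hq (l j) (hl j))
    (fun j => h4_of_hyp hA hq (l j) (hl j) _) (sum_lt_of_dir_pos A m l s e' hs) z hz

theorem mem_hypCone_schurCubic_iff {N J : ℕ} {A : Matrix (Fin N) (Fin N) ℝ} (hA : A.IsSymm)
    (e' : Fin N → ℝ) (m l : Fin J → Fin N → ℝ) (s : ℝ)
    (hs : 0 < eval (Fin.cons s e' : Fin (N + 1) → ℝ) (schurCubic A m l))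
    (x : Fin (N + 1) → ℝ) :
    x ∈ hypCone (schurCubic A m l) (Fin.cons s e') ↔
      ∀ σ : ℝ, 0 < σ → 0 < Pcub s (x 0) (bil A e' e') (bil A e' (fun i => x i.succ))
        (bil A (fun i => x i.succ) (fun i => x i.succ)) (fun j => lf (m j) e')
        (fun j => lf (m j) (fun i => x i.succ)) (fun j => lf (l j) e')
        (fun j => lf (l j) (fun i => x i.succ)) σ := by
  rw [← no_neg_root_iff _ _ _ _ _ _ _ _ _ (sum_lt_of_dir_pos A m l s e' hs)]
  simp only [hypCone, Set.mem_ofPred_eq, lineRestrict_eval, eval_line_schurCubic hA]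

theorem hypCone_schurCubic_eq {N J : ℕ} {A : Matrix (Fin N) (Fin N) ℝ} (hA : A.IsSymm)
    {e' : Fin N → ℝ} (hq : IsHyperbolic (quadPoly A) e') (m l : Fin J → Fin N → ℝ)
    (hl : ∀ j, ∀ y ∈ hypCone (quadPoly A) e', 0 ≤ lf (l j) y) (s : ℝ)
    (hs : 0 < eval (Fin.cons s e' : Fin (N + 1) → ℝ) (schurCubic A m l)) :
    hypCone (schurCubic A m l) (Fin.cons s e')
      = {x | ∃ u : Fin J ⊕ Fin J → ℝ, (x, u) ∈ liftSet A e' m l} := by
  have hκ := kappa_pos_of_hyp hq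
  have hlam : ∀ j, 0 ≤ lf (l j) e' := fun j => lam_nonneg_of_hyp hA hq (l j) (hl j)
  have hs' := sum_lt_of_dir_pos A m l s e' hs
  ext x
  rw [mem_hypCone_schurCubic_iff hA e' m l s hs x]
  simp only [Set.mem_ofPred_eq, mem_liftSet_iff hA hq m l hl]
  constructor
  · intro hP
    obtain ⟨hb, hc, ρ, τ, hρ, hτ, h2, h3, hsum⟩ := pos_imp_lift s (x 0) (bil A e' e')
      (bil A e' (fun i => x i.succ)) (bil A (fun i => x i.succ) (fun i => x i.succ))
      (fun j => lf (m j) e') (fun j => lf (m j) (fun i => x i.succ)) (fun j => lf (l j) e')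
      (fun j => lf (l j) (fun i => x i.succ)) hκ (rcs_of_hyp hA hq _) hlam
      (fun j => h4_of_hyp hA hq (l j) (hl j) _)
      (fun j σ h1 h2 => h5_of_hyp hA hq (l j) (hl j) _ σ h1 h2) hP
    refine ⟨Sum.elim ρ τ, ⟨⟨hb, hc⟩, ?_⟩, ?_, ?_⟩
    · simpa using hsum
    · intro j
      exact ⟨hτ j, hρ j, h2 j⟩
    · intro j _
      exact h3 j
  · rintro ⟨u, ⟨⟨hb, hc⟩, hsum⟩, h2, h3⟩
    have hμ : ∀ j, 0 ≤ lf (l j) (fun i => x i.succ) := by
      intro j
      have := h5_of_hyp hA hq (l j) (hl j) (fun i => x i.succ) 0 (by simpa using hb)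
        (by simpa using hc)
      simpa using this
    exact lift_imp_pos s (x 0) (bil A e' e') (bil A e' (fun i => x i.succ))
      (bil A (fun i => x i.succ) (fun i => x i.succ)) (fun j => lf (m j) e')
      (fun j => lf (m j) (fun i => x i.succ)) (fun j => lf (l j) e')
      (fun j => lf (l j) (fun i => x i.succ)) hκ hlam
      (fun j => h4_of_hyp hA hq (l j) (hl j) _) hs' hb hc hμ
      (fun j => u (Sum.inl j)) (fun j => u (Sum.inr j)) (fun j => (h2 j).2.1)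
      (fun j => (h2 j).1) (fun j => (h2 j).2.2) h3 hsum

/-- Core theorem: the cubic `t q(y) - ∑ m_j(y)² ℓ_j(y)` is hyperbolic and its hyperbolicity cone
is a spectrahedral shadow. -/
theorem schurCubic_main {N J : ℕ} {A : Matrix (Fin N) (Fin N) ℝ} (hA : A.IsSymm)
    {e' : Fin N → ℝ} (hq : IsHyperbolic (quadPoly A) e') (m l : Fin J → Fin N → ℝ)
    (hl : ∀ j, ∀ y ∈ hypCone (quadPoly A) e', 0 ≤ lf (l j) y) (s : ℝ)
    (hs : 0 < eval (Fin.cons s e' : Fin (N + 1) → ℝ) (schurCubic A m l)) :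
    IsHyperbolic (schurCubic A m l) (Fin.cons s e') ∧
      IsSpectrahedralShadow (hypCone (schurCubic A m l) (Fin.cons s e')) := by
  refine ⟨schurCubic_hyperbolic hA hq m l hl s hs, ?_⟩
  rw [hypCone_schurCubic_eq hA hq m l hl s hs]
  exact IsLMISet.shadow (isLMISet_liftSet hA e' m l)

end Vale.Agent.H69
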