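import Vale.Agent.H69.Defs

/-!
# Evaluation of the line restriction
-/

namespace Vale.Agent.H69

theorem lineRestrict_eval {n : ℕ} (p : MvPolynomial (Fin n) ℝ) (e x : Fin n → ℝ) (t : ℝ) :
    Polynomial.eval t (lineRestrict p e x) = MvPolynomial.eval (fun i => e i * t - x i) p := by
  have h := MvPolynomial.comp_aeval (R := ℝ) (σ := Fin n)
    (f := fun i => Polynomial.C (e i) * Polynomial.X - Polynomial.C (x i))
    (Polynomial.aeval (R := ℝ) t)
  have h2 := congrArg (fun φ => φ p) h
  simp only [AlgHom.comp_apply] at h2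
  rw [← Polynomial.coe_aeval_eq_eval, lineRestrict, h2, ← MvPolynomial.aeval_eq_eval]
  congr 2
  funext i
  simp

theorem lineRestrict_aeval {n : ℕ} (p : MvPolynomial (Fin n) ℝ) (e x : Fin n → ℝ) (z : ℂ) :
    Polynomial.aeval z (lineRestrict p e x)
      = MvPolynomial.aeval (fun i => (e i : ℂ) * z - (x i : ℂ)) p := by
  have h := MvPolynomial.comp_aeval (R := ℝ) (σ := Fin n)
    (f := fun i => Polynomial.C (e i) * Polynomial.X - Polynomial.C (x i))
    (Polynomial.aeval (R := ℝ) z)
  have h2 := congrArg (fun φ => φ p) h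
  simp only [AlgHom.comp_apply] at h2
  rw [lineRestrict, h2]
  simp

end Vale.Agent.H69
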