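import Vale.Agent.H69.Spec3Main

/-!
# A certificate theorem with spectrahedral conclusion

If a cubic `p` in `n` variables can be written as
`p = ℓ * (l1 * l2 - l0^2) - ∑ i, (l1 * a_i^2 + 2 * l0 * a_i * b_i + l2 * b_i^2)`
with linear forms `ℓ, l0, l1, l2, a_i, b_i`, and `e` satisfies `l1 e > 0`,
`l0 e ^ 2 < l1 e * l2 e`, `p e > 0`, then the closed hyperbolicity cone of `p` in direction `e`
is a spectrahedron.  The proof embeds `ℝ^n` linearly into the space of the node cubic.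
-/

namespace Vale.Agent.H69

open MvPolynomial

/-- The coefficient vector of a linear functional on `ℝ^n`. -/
def coefV {n : ℕ} (φ : (Fin n → ℝ) →ₗ[ℝ] ℝ) : Fin n → ℝ :=
  fun j => φ (fun i => if j = i then 1 else 0)

theorem lf_coefV {n : ℕ} (φ : (Fin n → ℝ) →ₗ[ℝ] ℝ) (x : Fin n → ℝ) : lf (coefV φ) x = φ x := by
  rw [LinearMap.pi_apply_eq_sum_univ φ x]
  unfold lf coefV
  refine Finset.sum_congr rfl fun j _ => ?_
  rw [smul_eq_mul, mul_comm]

/-- The rows of the embedding `x ↦ (ℓ x, l0 x, l1 x, l2 x, x)`. -/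
def embRows {n : ℕ} (ℓ l0 l1 l2 : (Fin n → ℝ) →ₗ[ℝ] ℝ) : Fin (n + 4) → Fin n → ℝ :=
  Fin.cons (coefV ℓ) (Fin.cons (coefV l0) (Fin.cons (coefV l1) (Fin.cons (coefV l2)
    (fun j => fun i => if j = i then 1 else 0))))

theorem lf_unit {n : ℕ} (j : Fin n) (x : Fin n → ℝ) :
    lf (fun i => if j = i then (1 : ℝ) else 0) x = x j := by
  simp [lf]

/-- Coefficient vector, in `n + 3` variables, of a linear form in the last `n` variables. -/
def padV {n : ℕ} (c : Fin n → ℝ) : Fin (n + 3) → ℝ := Fin.cons 0 (Fin.cons 0 (Fin.cons 0 c))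

theorem lf_padV {n : ℕ} (c : Fin n → ℝ) (y : Fin (n + 3) → ℝ) :
    lf (padV c) y = lf c (fun j => y j.succ.succ.succ) := by
  unfold lf
  rw [Fin.sum_univ_succ, Fin.sum_univ_succ, Fin.sum_univ_succ]
  have h0 : padV c 0 = 0 := rfl
  have h1 : padV c (Fin.succ 0) = 0 := rfl
  have h2 : padV c (Fin.succ (Fin.succ 0)) = 0 := rfl
  have h3 : ∀ j : Fin n, padV c j.succ.succ.succ = c j := fun j => rfl
  simp only [h0, h1, h2, h3, zero_mul, zero_add]

/-- A closed form of `term3_nonneg`. -/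
theorem term_nonneg_closed (a b y0 y1 y2 : ℝ) (h1 : 0 ≤ y1) (h2 : 0 ≤ y2)
    (hq : y0 ^ 2 ≤ y1 * y2) : 0 ≤ y1 * a ^ 2 + 2 * y0 * a * b + y2 * b ^ 2 := by
  rcases lt_or_eq_of_le h1 with h | h
  · have e : y1 * (y1 * a ^ 2 + 2 * y0 * a * b + y2 * b ^ 2)
        = (y1 * a + y0 * b) ^ 2 + (y1 * y2 - y0 ^ 2) * b ^ 2 := by ring
    have h3 : 0 ≤ y1 * (y1 * a ^ 2 + 2 * y0 * a * b + y2 * b ^ 2) := by
      rw [e]
      have : 0 ≤ (y1 * y2 - y0 ^ 2) * b ^ 2 := mul_nonneg (by linarith) (sq_nonneg _)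
      positivity
    exact (mul_nonneg_iff_of_pos_left h).mp h3
  · rw [← h] at hq ⊢
    have hy0 : y0 = 0 := by
      have : y0 ^ 2 ≤ 0 := by simpa using hq
      exact pow_eq_zero_iff (two_ne_zero) |>.mp (le_antisymm this (sq_nonneg y0))
    rw [hy0]
    have : 0 ≤ y2 * b ^ 2 := mul_nonneg h2 (sq_nonneg _)
    simpa using this

/-- **Certificate theorem.**  A cubic of the form
`ℓ * (l1 * l2 - l0^2) - ∑ i, (l1 * a_i^2 + 2 * l0 * a_i * b_i + l2 * b_i^2)` has a spectrahedral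
hyperbolicity cone in every direction `e` with `l1 e > 0`, `l0 e ^ 2 < l1 e * l2 e`, `p e > 0`. -/
theorem cert_spectrahedron {n : ℕ} (p : MvPolynomial (Fin n) ℝ) (e : Fin n → ℝ)
    (ℓ l0 l1 l2 : (Fin n → ℝ) →ₗ[ℝ] ℝ) {ι : Type} [Fintype ι]
    (w1 w2 : ι → (Fin n → ℝ) →ₗ[ℝ] ℝ)
    (hp : ∀ x : Fin n → ℝ, eval x p = ℓ x * (l1 x * l2 x - l0 x ^ 2)
      - ∑ i, (l1 x * (w1 i x) ^ 2 + 2 * l0 x * w1 i x * w2 i x + l2 x * (w2 i x) ^ 2))
    (he1 : 0 < l1 e) (he : l0 e ^ 2 < l1 e * l2 e) (hpe : 0 < eval e p) :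
    IsSpectrahedron (hypCone p e) := by
  classical
  set L : Fin (n + 4) → Fin n → ℝ := embRows ℓ l0 l1 l2 with hL
  have hL0 : ∀ x, lf (L 0) x = ℓ x := fun x => lf_coefV ℓ x
  have hL1 : ∀ x, lf (L 1) x = l0 x := fun x => lf_coefV l0 x
  have hL2 : ∀ x, lf (L 2) x = l1 x := fun x => lf_coefV l1 x
  have hL3 : ∀ x, lf (L 3) x = l2 x := fun x => lf_coefV l2 x
  have hL4 : ∀ (j : Fin n) x, lf (L j.succ.succ.succ.succ) x = x j := fun j x => lf_unit j x
  -- the cubic in the `n + 3` variables `(y0, y1, y2, z)`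
  set W1 : ι → (Fin (n + 3) → ℝ) →ₗ[ℝ] ℝ := fun i => lfL (padV (coefV (w1 i))) with hW1
  set W2 : ι → (Fin (n + 3) → ℝ) →ₗ[ℝ] ℝ := fun i => lfL (padV (coefV (w2 i))) with hW2
  have hW1app : ∀ i (y : Fin (n + 3) → ℝ), W1 i y = w1 i (fun j => y j.succ.succ.succ) := by
    intro i y
    rw [hW1]
    simp only [lfL_apply, lf_padV, lf_coefV]
  have hW2app : ∀ i (y : Fin (n + 3) → ℝ), W2 i y = w2 i (fun j => y j.succ.succ.succ) := by
    intro i y
    rw [hW2]
    simp only [lfL_apply, lf_padV, lf_coefV]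
  set cc : MvPolynomial (Fin (n + 3)) ℝ :=
    ∑ i, (X 1 * (linPoly (padV (coefV (w1 i)))) ^ 2
      + (C 2 * X 0) * linPoly (padV (coefV (w1 i))) * linPoly (padV (coefV (w2 i)))
      + X 2 * (linPoly (padV (coefV (w2 i)))) ^ 2) with hcc
  have hcchom : cc.IsHomogeneous 3 := by
    rw [hcc]
    refine IsHomogeneous.sum _ _ _ fun i _ => ?_
    have hX : ∀ j : Fin (n + 3), (X j : MvPolynomial (Fin (n + 3)) ℝ).IsHomogeneous 1 :=
      fun j => isHomogeneous_X _ _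
    have hl1 := linPoly_isHomogeneous (padV (coefV (w1 i)))
    have hl2 := linPoly_isHomogeneous (padV (coefV (w2 i)))
    have hCX : (C 2 * X 0 : MvPolynomial (Fin (n + 3)) ℝ).IsHomogeneous 1 :=
      isHomogeneous_C_mul_X _ _
    exact ((hX 1).mul (hl1.pow 2)).add (((hCX.mul hl1).mul hl2)) |>.add ((hX 2).mul (hl2.pow 2))
  have hcceval : ∀ y : Fin (n + 3) → ℝ, eval y cc = certW W1 W2 y := by
    intro y
    rw [hcc, map_sum]
    unfold certW
    refine Finset.sum_congr rfl fun i _ => ?_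
    simp only [map_add, map_mul, map_pow, eval_X, eval_C, eval_linPoly, hW1, hW2, lfL_apply]
  obtain ⟨T, h12, h23, hT⟩ := exists_symm_tensor cc hcchom
  have hTcub : cc = cubPoly T := hT
  have htri : ∀ y : Fin (n + 3) → ℝ, tri T y y y = certW W1 W2 y := by
    intro y
    rw [← eval_cubPoly, ← hTcub, hcceval]
  -- the pullback identity
  have htail : ∀ x : Fin n → ℝ, certW W1 W2 (Fin.tail (fun i => lf (L i) x))
      = ∑ i, (l1 x * (w1 i x) ^ 2 + 2 * l0 x * w1 i x * w2 i x + l2 x * (w2 i x) ^ 2) := by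
    intro x
    unfold certW
    refine Finset.sum_congr rfl fun i _ => ?_
    have e1 : (fun j : Fin n => Fin.tail (fun i => lf (L i) x) j.succ.succ.succ) = x := by
      funext j
      exact hL4 j x
    rw [hW1app, hW2app, e1]
    have e2 : Fin.tail (fun i => lf (L i) x) 1 = l1 x := hL2 x
    have e3 : Fin.tail (fun i => lf (L i) x) 0 = l0 x := hL1 x
    have e4 : Fin.tail (fun i => lf (L i) x) 2 = l2 x := hL3 x
    rw [e2, e3, e4]
  have hp' : ∀ x : Fin n → ℝ, eval x p = eval (fun i => lf (L i) x) (nodeCubic (cubPoly T)) := by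
    intro x
    rw [eval_nodeCubic, htri, htail, hp x]
    have e2 : Fin.tail (fun i => lf (L i) x) 1 = l1 x := hL2 x
    have e3 : Fin.tail (fun i => lf (L i) x) 0 = l0 x := hL1 x
    have e4 : Fin.tail (fun i => lf (L i) x) 2 = l2 x := hL3 x
    rw [hL0 x]
    unfold qf3
    rw [e2, e3, e4]
  have hline := lineRestrict_pullback (nodeCubic (cubPoly T)) p L hp' e
  have hset : hypCone p e
      = {x : Fin n → ℝ | (fun i => lf (L i) x) ∈
          hypCone (nodeCubic (cubPoly T)) (fun i => lf (L i) e)} := by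
    ext x
    simp only [hypCone, Set.mem_ofPred_eq, hline x]
  have he1' : 0 < Fin.tail (fun i => lf (L i) e) 1 := by
    have e2 : Fin.tail (fun i => lf (L i) e) 1 = l1 e := hL2 e
    rw [e2]
    exact he1
  have he' : Fin.tail (fun i => lf (L i) e) 0 ^ 2
      < Fin.tail (fun i => lf (L i) e) 1 * Fin.tail (fun i => lf (L i) e) 2 := by
    have e2 : Fin.tail (fun i => lf (L i) e) 1 = l1 e := hL2 e
    have e3 : Fin.tail (fun i => lf (L i) e) 0 = l0 e := hL1 e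
    have e4 : Fin.tail (fun i => lf (L i) e) 2 = l2 e := hL3 e
    rw [e2, e3, e4]
    exact he
  have hpe' : 0 < eval (fun i => lf (L i) e) (nodeCubic (cubPoly T)) := by
    rw [← hp' e]
    exact hpe
  have hpos : ∀ y : Fin (n + 3) → ℝ, 0 ≤ y 1 → 0 ≤ y 2 → qf3 y = 0 → 0 ≤ tri T y y y := by
    intro y h1 h2 h0
    rw [htri]
    unfold certW
    refine Finset.sum_nonneg fun i _ => ?_
    exact term_nonneg_closed _ _ _ _ _ h1 h2 (by unfold qf3 at h0; linarith)
  have hcert : ∀ y : Fin (n + 3) → ℝ, 0 < y 1 → 0 < y 2 →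
      tri T y y y = certW W1 W2 y + (0 : (Fin (n + 3) → ℝ) →ₗ[ℝ] ℝ) y * qf3 y := by
    intro y _ _
    rw [htri]
    simp
  have heq := hypCone_nodeCubic_eq_spec3 T h12 h23 (fun i => lf (L i) e) he1' he' hpe' hpos
    W1 W2 0 hcert
  rw [hset, heq]
  exact ((isLMISet_spec3 W1 W2 0).spectrahedron).preimage_lf L

end Vale.Agent.H69
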