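import Vale.Agent.H69.CurveSOS

/-!
# The certificate `c = ∑ w^T U w + λ q` on the interior of the Lorentz cone
-/

namespace Vale.Agent.H69

open Polynomial

variable {k : ℕ}

/-- Linear forms on the curve. -/
theorem curve_linear (T : Fin (k + 3) → Fin (k + 3) → Fin (k + 3) → ℝ)
    (h12 : ∀ i j l, T i j l = T j i l) (h23 : ∀ i j l, T i j l = T i l j)
    (hpos : ∀ y : Fin (k + 3) → ℝ, 0 ≤ y 1 → 0 ≤ y 2 → qf3 y = 0 → 0 ≤ tri T y y y) :
    ∃ (ι : Type) (_ : Fintype ι) (w1 w2 : ι → (Fin (k + 3) → ℝ) →ₗ[ℝ] ℝ),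
      ∀ (x : ℝ) (z : Fin k → ℝ),
        tri T (ups k x + zetaL k z) (ups k x + zetaL k z) (ups k x + zetaL k z)
          = ∑ i, (w1 i (ups k x + zetaL k z) + x * w2 i (ups k x + zetaL k z)) ^ 2 := by
  obtain ⟨ι, hι, V, hd0, hd1, hV⟩ := curve_sos T h12 h23 hpos
  refine ⟨ι, hι,
    fun i => (V i 0).coeff 1 • LinearMap.proj 0 + (V i 0).coeff 0 • LinearMap.proj 1
      + ∑ a : Fin k, (V i a.succ).coeff 0 • LinearMap.proj a.succ.succ.succ,
    fun i => (V i 0).coeff 2 • LinearMap.proj 0 + (V i 0).coeff 3 • LinearMap.proj 2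
      + ∑ a : Fin k, (V i a.succ).coeff 1 • LinearMap.proj a.succ.succ.succ, fun x z => ?_⟩
  rw [hV x z]
  refine Finset.sum_congr rfl fun i _ => ?_
  congr 1
  have e0 : (V i 0).eval x = (V i 0).coeff 0 + (V i 0).coeff 1 * x + (V i 0).coeff 2 * x ^ 2
      + (V i 0).coeff 3 * x ^ 3 := by
    rw [Polynomial.eval_eq_sum_range' (lt_of_le_of_lt (hd0 i) (by norm_num : 3 < 4))]
    simp [Finset.sum_range_succ]
  have e1 : ∀ a : Fin k, (V i a.succ).eval x = (V i a.succ).coeff 0 + (V i a.succ).coeff 1 * x := by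
    intro a
    rw [Polynomial.eval_eq_sum_range' (lt_of_le_of_lt (hd1 i a) (by norm_num : 1 < 2))]
    simp [Finset.sum_range_succ]
  simp only [LinearMap.add_apply, LinearMap.smul_apply, LinearMap.sum_apply, LinearMap.proj_apply,
    smul_eq_mul, Pi.add_apply, ups_zero, ups_one, ups_two, ups_succ, zetaL_zero, zetaL_one,
    zetaL_two, zetaL_succ]
  rw [e0]
  simp_rw [e1]
  have hs : ∑ a : Fin k, z a * ((V i a.succ).coeff 0 + (V i a.succ).coeff 1 * x)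
      = ∑ a : Fin k, (V i a.succ).coeff 0 * (0 + z a)
        + x * ∑ a : Fin k, (V i a.succ).coeff 1 * (0 + z a) := by
    rw [Finset.mul_sum, ← Finset.sum_add_distrib]
    exact Finset.sum_congr rfl fun a _ => by ring
  rw [hs]
  ring

/-- The sum `∑ w^T U w`. -/
def certW {ι : Type} [Fintype ι] (w1 w2 : ι → (Fin (k + 3) → ℝ) →ₗ[ℝ] ℝ)
    (y : Fin (k + 3) → ℝ) : ℝ :=
  ∑ i, (y 1 * (w1 i y) ^ 2 + 2 * y 0 * w1 i y * w2 i y + y 2 * (w2 i y) ^ 2)

theorem certW_smul {ι : Type} [Fintype ι] (w1 w2 : ι → (Fin (k + 3) → ℝ) →ₗ[ℝ] ℝ) (s : ℝ)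
    (y : Fin (k + 3) → ℝ) : certW w1 w2 (s • y) = s ^ 3 * certW w1 w2 y := by
  unfold certW
  rw [Finset.mul_sum]
  refine Finset.sum_congr rfl fun i _ => ?_
  simp only [map_smul, Pi.smul_apply, smul_eq_mul]
  ring

theorem certW_curve {ι : Type} [Fintype ι] (w1 w2 : ι → (Fin (k + 3) → ℝ) →ₗ[ℝ] ℝ) (x : ℝ)
    (z : Fin k → ℝ) :
    certW w1 w2 (ups k x + zetaL k z)
      = ∑ i, (w1 i (ups k x + zetaL k z) + x * w2 i (ups k x + zetaL k z)) ^ 2 := by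
  unfold certW
  refine Finset.sum_congr rfl fun i _ => ?_
  simp only [Pi.add_apply, ups_zero, ups_one, ups_two, zetaL_zero, zetaL_one, zetaL_two]
  ring

/-- The unit vector of the coordinate `y 0`. -/
def eps0 (k : ℕ) : Fin (k + 3) → ℝ := Fin.cons 1 (Fin.cons 0 (Fin.cons 0 0))

theorem eps0_zero : eps0 k 0 = 1 := rfl
theorem eps0_one : eps0 k 1 = 0 := rfl
theorem eps0_two : eps0 k 2 = 0 := rfl

theorem certW_shift {ι : Type} [Fintype ι] (w1 w2 : ι → (Fin (k + 3) → ℝ) →ₗ[ℝ] ℝ)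
    (y : Fin (k + 3) → ℝ) (τ : ℝ) :
    certW w1 w2 (y + τ • eps0 k) = certW w1 w2 y
      + τ * (∑ i, (2 * y 1 * w1 i (eps0 k) * w1 i y + 2 * w1 i y * w2 i y
          + 2 * y 0 * (w1 i (eps0 k) * w2 i y + w2 i (eps0 k) * w1 i y)
          + 2 * y 2 * w2 i (eps0 k) * w2 i y))
      + τ ^ 2 * (∑ i, (y 1 * (w1 i (eps0 k)) ^ 2
          + 2 * (w1 i (eps0 k) * w2 i y + w2 i (eps0 k) * w1 i y)
          + 2 * y 0 * (w1 i (eps0 k) * w2 i (eps0 k)) + y 2 * (w2 i (eps0 k)) ^ 2))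
      + τ ^ 3 * (∑ i, 2 * (w1 i (eps0 k) * w2 i (eps0 k))) := by
  unfold certW
  rw [Finset.mul_sum, Finset.mul_sum, Finset.mul_sum, ← Finset.sum_add_distrib,
    ← Finset.sum_add_distrib, ← Finset.sum_add_distrib]
  refine Finset.sum_congr rfl fun i _ => ?_
  simp only [map_add, map_smul, Pi.add_apply, Pi.smul_apply, smul_eq_mul, eps0_zero, eps0_one,
    eps0_two]
  ring

theorem cone_point_eq (y : Fin (k + 3) → ℝ) (h1 : y 1 ≠ 0) (hq : qf3 y = 0) :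
    y = y 1 • (ups k (y 0 / y 1) + zetaL k ((y 1)⁻¹ • fun a : Fin k => y a.succ.succ.succ)) := by
  have hq' : y 1 * y 2 = y 0 ^ 2 := by
    unfold qf3 at hq
    linarith
  funext i
  refine Fin.cases ?_ (fun i => Fin.cases ?_ (fun i => Fin.cases ?_ (fun i => ?_) i) i) i
  · show y 0 = y 1 * (y 0 / y 1 + 0)
    field_simp
    ring
  · show y 1 = y 1 * (1 + 0)
    ring
  · show y 2 = y 1 * ((y 0 / y 1) ^ 2 + 0)
    field_simp
    linarith
  · show y i.succ.succ.succ = y 1 * (0 + (y 1)⁻¹ * y i.succ.succ.succ)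
    field_simp
    ring

/-- The certificate: on the set `y 1 > 0`, `y 2 > 0` the cubic form is
`∑ w^T U w + λ q` with `U = [[y 1, y 0], [y 0, y 2]]`, `q = y 1 * y 2 - y 0 ^ 2`. -/
theorem exists_certificate (T : Fin (k + 3) → Fin (k + 3) → Fin (k + 3) → ℝ)
    (h12 : ∀ i j l, T i j l = T j i l) (h23 : ∀ i j l, T i j l = T i l j)
    (hpos : ∀ y : Fin (k + 3) → ℝ, 0 ≤ y 1 → 0 ≤ y 2 → qf3 y = 0 → 0 ≤ tri T y y y) :
    ∃ (ι : Type) (_ : Fintype ι) (w1 w2 : ι → (Fin (k + 3) → ℝ) →ₗ[ℝ] ℝ)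
      (lam : (Fin (k + 3) → ℝ) →ₗ[ℝ] ℝ),
      ∀ y : Fin (k + 3) → ℝ, 0 < y 1 → 0 < y 2 →
        tri T y y y = certW w1 w2 y + lam y * qf3 y := by
  obtain ⟨ι, hι, w1, w2, hc⟩ := curve_linear T h12 h23 hpos
  -- vanishing on the cone
  have hcone : ∀ y : Fin (k + 3) → ℝ, y 1 ≠ 0 → qf3 y = 0 → tri T y y y = certW w1 w2 y := by
    intro y h1 hq
    rw [cone_point_eq y h1 hq, tri_smul_cube, certW_smul, hc, certW_curve]
  -- the linear functional
  let triL : (Fin (k + 3) → ℝ) →ₗ[ℝ] ℝ :=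
    IsLinearMap.mk' (fun y => tri T y (eps0 k) (eps0 k))
      ⟨fun y y' => tri_add_left T y y' (eps0 k) (eps0 k),
       fun s y => by simp [tri_smul_left]⟩
  have htriL : ∀ y, triL y = tri T y (eps0 k) (eps0 k) := fun y => rfl
  set G3 : ℝ := tri T (eps0 k) (eps0 k) (eps0 k)
    - ∑ i, 2 * (w1 i (eps0 k) * w2 i (eps0 k)) with hG3
  let W2L : (Fin (k + 3) → ℝ) →ₗ[ℝ] ℝ :=
    ∑ i, ((w1 i (eps0 k)) ^ 2 • LinearMap.proj 1
      + (2 * w1 i (eps0 k)) • w2 i + (2 * w2 i (eps0 k)) • w1 i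
      + (2 * (w1 i (eps0 k) * w2 i (eps0 k))) • LinearMap.proj 0
      + (w2 i (eps0 k)) ^ 2 • LinearMap.proj 2)
  have hW2L : ∀ y, W2L y = ∑ i, (y 1 * (w1 i (eps0 k)) ^ 2
          + 2 * (w1 i (eps0 k) * w2 i y + w2 i (eps0 k) * w1 i y)
          + 2 * y 0 * (w1 i (eps0 k) * w2 i (eps0 k)) + y 2 * (w2 i (eps0 k)) ^ 2) := by
    intro y
    simp only [W2L, LinearMap.sum_apply, LinearMap.add_apply, LinearMap.smul_apply,
      LinearMap.proj_apply, smul_eq_mul]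
    refine Finset.sum_congr rfl fun i _ => ?_
    ring
  refine ⟨ι, hι, w1, w2, (2 * G3) • LinearMap.proj 0 - (3 • triL - W2L), ?_⟩
  intro y hy1 hy2
  set r : ℝ := Real.sqrt (y 1 * y 2) with hr
  have hrpos : 0 < r := Real.sqrt_pos.mpr (mul_pos hy1 hy2)
  have hr2 : r ^ 2 = y 1 * y 2 := Real.sq_sqrt (mul_pos hy1 hy2).le
  have hshift : ∀ τ : ℝ, (y 0 + τ) ^ 2 = y 1 * y 2 →
      tri T y y y + τ * (3 * tri T y y (eps0 k)) + τ ^ 2 * (3 * tri T y (eps0 k) (eps0 k))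
        + τ ^ 3 * tri T (eps0 k) (eps0 k) (eps0 k)
      = certW w1 w2 (y + τ • eps0 k) := by
    intro τ hτ
    have h := hcone (y + τ • eps0 k)
      (by simp only [Pi.add_apply, Pi.smul_apply, eps0_one, smul_eq_mul]; linarith)
      (by simp only [qf3, Pi.add_apply, Pi.smul_apply, eps0_zero, eps0_one, eps0_two,
            smul_eq_mul]; linarith)
    rw [tri_add_cube h12 h23] at h
    simp only [tri_smul_left, tri_smul_mid, tri_smul_right] at h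
    rw [← h]
    ring
  have hp := hshift (r - y 0) (by rw [← hr2]; ring)
  have hm := hshift (-r - y 0) (by rw [← hr2]; ring)
  rw [certW_shift] at hp hm
  have hlam : ((2 * G3) • LinearMap.proj 0 - (3 • triL - W2L) : (Fin (k + 3) → ℝ) →ₗ[ℝ] ℝ) y
      = 2 * G3 * y 0 - (3 * tri T y (eps0 k) (eps0 k) - W2L y) := by
    simp only [LinearMap.sub_apply, LinearMap.smul_apply, LinearMap.proj_apply, smul_eq_mul,
      htriL]
    ring
  rw [hlam, hW2L, hG3]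
  have hne : (r - y 0) - (-r - y 0) ≠ 0 := by
    have : (r - y 0) - (-r - y 0) = 2 * r := by ring
    rw [this]
    positivity
  apply mul_left_cancel₀ hne
  unfold qf3
  linear_combination (r - y 0) * hm - (-r - y 0) * hp + (2 * r * (2 * (tri T (eps0 k) (eps0 k) (eps0 k)
    - ∑ i, 2 * (w1 i (eps0 k) * w2 i (eps0 k))) * y 0 - (3 * tri T y (eps0 k) (eps0 k) - ∑ i, (y 1 * (w1 i (eps0 k)) ^ 2
          + 2 * (w1 i (eps0 k) * w2 i y + w2 i (eps0 k) * w1 i y)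
          + 2 * y 0 * (w1 i (eps0 k) * w2 i (eps0 k)) + y 2 * (w2 i (eps0 k)) ^ 2)))) * hr2

end Vale.Agent.H69
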