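import Vale.Agent.H96.FRFull
import Vale.Agent.H57.CubicPencil
import Vale.Agent.H57.SumSqDegree
import Vale.Agent.H79.CubicTensor

/-!
# External lemmas used for the rank-three node theorem

Matrix Fejér–Riesz on the real line (helper96, helper78), the cubic pencil lemma and the degree
bound for sums of squares (helper57), symmetric tensors of cubic forms (helper79).
-/

namespace Vale.Agent.H69

theorem fejer_riesz (m : ℕ) (P : Fin m → Fin m → Polynomial ℝ) (hsymm : ∀ a b, P a b = P b a)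
    (hpsd : ∀ (x : ℝ) (v : Fin m → ℝ), 0 ≤ ∑ a, ∑ b, v a * (P a b).eval x * v b) :
    ∃ (ι : Type) (_ : Fintype ι) (V : ι → Fin m → Polynomial ℝ),
      ∀ a b, P a b = ∑ i, V i a * V i b :=
  Vale.Agent.H96.fejer_riesz m P hsymm hpsd

theorem exists_symm_tensor {N : ℕ} (c : MvPolynomial (Fin N) ℝ) (hc : c.IsHomogeneous 3) :
    ∃ T : Fin N → Fin N → Fin N → ℝ, (∀ i j l, T i j l = T j i l) ∧ (∀ i j l, T i j l = T i l j) ∧
      c = ∑ i, ∑ j, ∑ l,
        MvPolynomial.C (T i j l) * MvPolynomial.X i * MvPolynomial.X j * MvPolynomial.X l :=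
  Vale.Agent.H79.exists_symm_tensor c hc

theorem cubic_pencil_const_nonpos (A B C D κ ρ : ℝ) (hA : 0 < A) (hκ : 0 < κ) (hρ : 0 ≤ ρ)
    (h : ∀ s : ℝ, ∀ z : ℂ,
      (A : ℂ) * z ^ 3 + ((B + s * κ : ℝ) : ℂ) * z ^ 2 + ((C + s * κ * ρ : ℝ) : ℂ) * z + (D : ℂ) = 0
        → z.im = 0) : D ≤ 0 :=
  Vale.Agent.H57.cubic_pencil_const_nonpos A B C D κ ρ hA hκ hρ h

theorem natDegree_le_of_sum_sq {ι : Type} [Fintype ι] (f : ι → Polynomial ℝ) (g : Polynomial ℝ)
    (h : g = ∑ i, f i ^ 2) (i : ι) : 2 * (f i).natDegree ≤ g.natDegree :=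
  Vale.Agent.H57.natDegree_le_of_sum_sq f g h i

end Vale.Agent.H69
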