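import Vale.Agent.H69.NodeCubic
import Vale.Agent.H69.T3Ext

/-!
# The rational normal curve `(x, 1, x^2)` on the boundary of the Lorentz cone
-/

namespace Vale.Agent.H69
open Polynomial

theorem cons3_two {α : Type} {k : ℕ} (a b c : α) (r : Fin k → α) :
    (Fin.cons a (Fin.cons b (Fin.cons c r)) : Fin (k + 3) → α) 2 = c := rfl

/-- The embedding of the `z`-coordinates. -/
def zetaL (k : ℕ) : (Fin k → ℝ) →ₗ[ℝ] (Fin (k + 3) → ℝ) where
  toFun z := Fin.cons 0 (Fin.cons 0 (Fin.cons 0 z))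
  map_add' z z' := by
    funext i
    refine Fin.cases ?_ (fun i => Fin.cases ?_ (fun i => Fin.cases ?_ (fun i => ?_) i) i) i <;>
      simp [cons3_two]
  map_smul' s z := by
    funext i
    refine Fin.cases ?_ (fun i => Fin.cases ?_ (fun i => Fin.cases ?_ (fun i => ?_) i) i) i <;>
      simp [cons3_two]

theorem zetaL_zero {k : ℕ} (z : Fin k → ℝ) : zetaL k z 0 = 0 := rfl
theorem zetaL_one {k : ℕ} (z : Fin k → ℝ) : zetaL k z 1 = 0 := rfl
theorem zetaL_two {k : ℕ} (z : Fin k → ℝ) : zetaL k z 2 = 0 := rfl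
theorem zetaL_succ {k : ℕ} (z : Fin k → ℝ) (a : Fin k) : zetaL k z a.succ.succ.succ = z a := rfl

/-- The point `(x, 1, x^2, 0)` of the rational normal curve. -/
def ups (k : ℕ) (x : ℝ) : Fin (k + 3) → ℝ := Fin.cons x (Fin.cons 1 (Fin.cons (x ^ 2) 0))

theorem ups_zero {k : ℕ} (x : ℝ) : ups k x 0 = x := rfl
theorem ups_one {k : ℕ} (x : ℝ) : ups k x 1 = 1 := rfl
theorem ups_two {k : ℕ} (x : ℝ) : ups k x 2 = x ^ 2 := rfl
theorem ups_succ {k : ℕ} (x : ℝ) (a : Fin k) : ups k x a.succ.succ.succ = 0 := rfl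

/-- The polynomial vector `(X, 1, X^2, 0)`. -/
noncomputable def upsP (k : ℕ) : Fin (k + 3) → ℝ[X] := Fin.cons X (Fin.cons 1 (Fin.cons (X ^ 2) 0))

theorem eval_upsP {k : ℕ} (x : ℝ) : (fun i => (upsP k i).eval x) = ups k x := by
  funext i
  refine Fin.cases ?_ (fun i => Fin.cases ?_ (fun i => Fin.cases ?_ (fun i => ?_) i) i) i <;>
    simp [upsP, ups, cons3_two]

theorem natDegree_upsP_le {k : ℕ} (i : Fin (k + 3)) : (upsP k i).natDegree ≤ 2 := by
  refine Fin.cases ?_ (fun i => Fin.cases ?_ (fun i => Fin.cases ?_ (fun i => ?_) i) i) i <;>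
    simp [upsP, cons3_two]

/-- Every vector splits into its first three coordinates and the rest. -/
theorem vec_decomp {k : ℕ} (y : Fin (k + 3) → ℝ) :
    y = fun i => (Fin.cons (y 0) (Fin.cons (y 1) (Fin.cons (y 2)
      (fun a : Fin k => y a.succ.succ.succ))) : Fin (k + 3) → ℝ) i := by
  funext i
  refine Fin.cases ?_ (fun i => Fin.cases ?_ (fun i => Fin.cases ?_ (fun i => ?_) i) i) i <;> rfl

theorem nonneg_of_quad_pos (a b c0 : ℝ) (h : ∀ s : ℝ, 0 < s → 0 ≤ a * s ^ 2 + b * s + c0) :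
    0 ≤ c0 := by
  by_contra hc
  push Not at hc
  set M : ℝ := |a| + |b| + 1 with hM
  have hMpos : 0 < M := by positivity
  set s : ℝ := min 1 (-c0 / (2 * M)) with hs
  have hs0 : 0 < s := lt_min one_pos (div_pos (neg_pos.mpr hc) (by positivity))
  have hs1 : s ≤ 1 := min_le_left _ _
  have hs2 : s ≤ -c0 / (2 * M) := min_le_right _ _
  have h1 : a * s ^ 2 ≤ |a| * s := by
    have ha := le_abs_self a
    have ha0 := abs_nonneg a
    have : s ^ 2 ≤ s := by nlinarith
    nlinarith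
  have h2 : b * s ≤ |b| * s := by
    have hb := le_abs_self b
    nlinarith
  have h3 : M * s ≤ -c0 / 2 := by
    have h4 : s * (2 * M) ≤ -c0 := by rwa [le_div_iff₀ (by positivity)] at hs2
    linarith
  have h5 := h s hs0
  have h6 : |a| * s + |b| * s ≤ M * s := by
    rw [hM]
    nlinarith
  linarith

end Vale.Agent.H69
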