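import Vale.Agent.H69.Curve

/-!
# A sum-of-squares representation on the rational normal curve

If the cubic form of `T` is nonnegative on the boundary of the Lorentz cone, then
`c(x, 1, x^2, z)` is a sum of squares of polynomials that are affine in `z`.
-/

namespace Vale.Agent.H69

open Polynomial

variable {k : ℕ}

/-- Polynomial columns: `(1/2) (X, 1, X^2, 0)` and the unit vectors of the `z`-coordinates. -/
noncomputable def colP (k : ℕ) : Fin (k + 1) → Fin (k + 3) → ℝ[X] :=
  Fin.cons (fun i => C (1 / 2 : ℝ) * upsP k i) (fun a i => C (zetaL k (Pi.single a 1) i))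

/-- Polynomial columns: `(1/2) (X, 1, X^2, 0)` and zero. -/
noncomputable def col2P (k : ℕ) : Fin (k + 1) → Fin (k + 3) → ℝ[X] :=
  Fin.cons (fun i => C (1 / 2 : ℝ) * upsP k i) (fun _ _ => 0)

/-- The values of `colP`. -/
noncomputable def col (k : ℕ) (x : ℝ) : Fin (k + 1) → Fin (k + 3) → ℝ :=
  Fin.cons ((1 / 2 : ℝ) • ups k x) (fun a => zetaL k (Pi.single a 1))

/-- The values of `col2P`. -/
noncomputable def col2 (k : ℕ) (x : ℝ) : Fin (k + 1) → Fin (k + 3) → ℝ :=
  Fin.cons ((1 / 2 : ℝ) • ups k x) (fun _ => 0)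

theorem eval_colP (x : ℝ) (a : Fin (k + 1)) : (fun i => (colP k a i).eval x) = col k x a := by
  refine Fin.cases ?_ (fun a => ?_) a
  · funext i
    have h := congrFun (eval_upsP (k := k) x) i
    simp only [colP, col, Fin.cons_zero, eval_mul, eval_C, Pi.smul_apply, smul_eq_mul]
    rw [h]
  · funext i
    simp [colP, col]

theorem eval_col2P (x : ℝ) (a : Fin (k + 1)) : (fun i => (col2P k a i).eval x) = col2 k x a := by
  refine Fin.cases ?_ (fun a => ?_) a
  · funext i
    have h := congrFun (eval_upsP (k := k) x) i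
    simp only [col2P, col2, Fin.cons_zero, eval_mul, eval_C, Pi.smul_apply, smul_eq_mul]
    rw [h]
  · funext i
    simp [col2P, col2]

/-- The polynomial matrix of the quadratic form `(s, z) ↦ c(s υ + ζ z) / s`. -/
noncomputable def PP (T : Fin (k + 3) → Fin (k + 3) → Fin (k + 3) → ℝ) :
    Fin (k + 1) → Fin (k + 1) → ℝ[X] :=
  fun a b => 3 * tri (fun i j l => C (T i j l)) (upsP k) (colP k a) (colP k b)
    + tri (fun i j l => C (T i j l)) (upsP k) (col2P k a) (col2P k b)

theorem PP_symm (T : Fin (k + 3) → Fin (k + 3) → Fin (k + 3) → ℝ)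
    (h23 : ∀ i j l, T i j l = T i l j) (a b : Fin (k + 1)) : PP T a b = PP T b a := by
  unfold PP
  have hT : ∀ i j l, (C (T i j l) : ℝ[X]) = C (T i l j) := fun i j l => by rw [h23 i j l]
  rw [tri_swap23 hT (upsP k) (colP k a) (colP k b),
    tri_swap23 hT (upsP k) (col2P k a) (col2P k b)]

theorem eval_PP (T : Fin (k + 3) → Fin (k + 3) → Fin (k + 3) → ℝ) (x : ℝ) (a b : Fin (k + 1)) :
    (PP T a b).eval x = 3 * tri T (ups k x) (col k x a) (col k x b)
      + tri T (ups k x) (col2 k x a) (col2 k x b) := by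
  unfold PP
  rw [eval_add, eval_mul, eval_tri, eval_tri, eval_upsP, eval_colP, eval_colP, eval_col2P,
    eval_col2P]
  simp

theorem sum_col (x : ℝ) (v : Fin (k + 1) → ℝ) :
    ∑ a, v a • col k x a = (v 0 / 2) • ups k x + zetaL k (Fin.tail v) := by
  rw [Fin.sum_univ_succ]
  have h1 : col k x 0 = (1 / 2 : ℝ) • ups k x := rfl
  have h2 : ∀ a : Fin k, col k x a.succ = zetaL k (Pi.single a 1) := fun a => rfl
  simp only [h1, h2]
  have h3 : ∑ a : Fin k, v a.succ • zetaL k (Pi.single a 1) = zetaL k (Fin.tail v) := by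
    simp_rw [← map_smul]
    rw [← map_sum]
    congr 1
    funext b
    simp [Fin.tail, Finset.sum_apply, Pi.single_apply]
  rw [h3, smul_smul]
  congr 2
  ring

theorem sum_col2 (x : ℝ) (v : Fin (k + 1) → ℝ) :
    ∑ a, v a • col2 k x a = (v 0 / 2) • ups k x := by
  rw [Fin.sum_univ_succ]
  have h1 : col2 k x 0 = (1 / 2 : ℝ) • ups k x := rfl
  have h2 : ∀ a : Fin k, col2 k x a.succ = 0 := fun a => rfl
  simp only [h1, h2, smul_zero, Finset.sum_const_zero, add_zero]
  rw [smul_smul]
  congr 1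
  ring

theorem qform_PP (T : Fin (k + 3) → Fin (k + 3) → Fin (k + 3) → ℝ)
    (h23 : ∀ i j l, T i j l = T i l j) (x : ℝ) (v : Fin (k + 1) → ℝ) :
    ∑ a, ∑ b, v a * (PP T a b).eval x * v b
      = v 0 ^ 2 * tri T (ups k x) (ups k x) (ups k x)
        + 3 * v 0 * tri T (ups k x) (ups k x) (zetaL k (Fin.tail v))
        + 3 * tri T (ups k x) (zetaL k (Fin.tail v)) (zetaL k (Fin.tail v)) := by
  have h : ∀ a b, v a * (PP T a b).eval x * v b
      = 3 * (v a * tri T (ups k x) (col k x a) (col k x b) * v b)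
        + v a * tri T (ups k x) (col2 k x a) (col2 k x b) * v b := by
    intro a b
    rw [eval_PP]
    ring
  simp_rw [h, Finset.sum_add_distrib, ← Finset.mul_sum, tri_bilin_sum, sum_col, sum_col2]
  simp only [tri_add_mid, tri_add_right, tri_smul_mid, tri_smul_right]
  rw [tri_swap23 h23 (ups k x) (zetaL k (Fin.tail v)) (ups k x)]
  ring

theorem gram_eval {ι : Type} [Fintype ι] {n : ℕ} (P : Fin n → Fin n → ℝ[X])
    (V : ι → Fin n → ℝ[X]) (hV : ∀ a b, P a b = ∑ i, V i a * V i b) (x : ℝ) (v : Fin n → ℝ) :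
    ∑ a, ∑ b, v a * (P a b).eval x * v b = ∑ i, (∑ a, v a * (V i a).eval x) ^ 2 := by
  have h1 : ∀ a b, v a * (P a b).eval x * v b
      = ∑ i, (v a * (V i a).eval x) * (v b * (V i b).eval x) := by
    intro a b
    rw [hV, eval_finsetSum, Finset.mul_sum, Finset.sum_mul]
    refine Finset.sum_congr rfl fun i _ => ?_
    rw [eval_mul]
    ring
  simp_rw [h1]
  have h2 : ∀ i, (∑ a, v a * (V i a).eval x) ^ 2
      = ∑ a, ∑ b, (v a * (V i a).eval x) * (v b * (V i b).eval x) := by
    intro i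
    rw [sq]
    exact Finset.sum_mul_sum _ _ _ _
  simp_rw [h2]
  calc ∑ a, ∑ b, ∑ i, (v a * (V i a).eval x) * (v b * (V i b).eval x)
      = ∑ a, ∑ i, ∑ b, (v a * (V i a).eval x) * (v b * (V i b).eval x) :=
        Finset.sum_congr rfl fun a _ => Finset.sum_comm
    _ = ∑ i, ∑ a, ∑ b, (v a * (V i a).eval x) * (v b * (V i b).eval x) := Finset.sum_comm

theorem natDegree_PP_zero (T : Fin (k + 3) → Fin (k + 3) → Fin (k + 3) → ℝ) :
    (PP T 0 0).natDegree ≤ 6 := by
  unfold PP
  have hc : ∀ i, (colP k 0 i).natDegree ≤ 2 := fun i =>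
    (natDegree_C_mul_le _ _).trans (natDegree_upsP_le i)
  have hc2 : ∀ i, (col2P k 0 i).natDegree ≤ 2 := fun i =>
    (natDegree_C_mul_le _ _).trans (natDegree_upsP_le i)
  have h1 := natDegree_tri_le T (upsP k) (colP k 0) (colP k 0) 2 2 2 natDegree_upsP_le hc hc
  have h2 := natDegree_tri_le T (upsP k) (col2P k 0) (col2P k 0) 2 2 2 natDegree_upsP_le hc2 hc2
  have h3 : (3 * tri (fun i j l => C (T i j l)) (upsP k) (colP k 0) (colP k 0)).natDegree ≤ 6 := by
    have : (3 : ℝ[X]) = C 3 := (map_ofNat C 3).symm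
    rw [this]
    exact (natDegree_C_mul_le _ _).trans h1
  exact natDegree_add_le_of_degree_le h3 h2

theorem natDegree_PP_succ (T : Fin (k + 3) → Fin (k + 3) → Fin (k + 3) → ℝ) (a : Fin k) :
    (PP T a.succ a.succ).natDegree ≤ 2 := by
  unfold PP
  have hc : ∀ i, (colP k a.succ i).natDegree ≤ 0 := fun i => by
    simp [colP]
  have hc2 : ∀ i, (col2P k a.succ i).natDegree ≤ 0 := fun i => by
    simp [col2P]
  have h1 := natDegree_tri_le T (upsP k) (colP k a.succ) (colP k a.succ) 2 0 0
    natDegree_upsP_le hc hc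
  have h2 := natDegree_tri_le T (upsP k) (col2P k a.succ) (col2P k a.succ) 2 0 0
    natDegree_upsP_le hc2 hc2
  have h3 : (3 * tri (fun i j l => C (T i j l)) (upsP k) (colP k a.succ)
      (colP k a.succ)).natDegree ≤ 2 := by
    have : (3 : ℝ[X]) = C 3 := (map_ofNat C 3).symm
    rw [this]
    exact (natDegree_C_mul_le _ _).trans h1
  exact natDegree_add_le_of_degree_le h3 h2

/-- The sum-of-squares representation on the curve. -/
theorem curve_sos (T : Fin (k + 3) → Fin (k + 3) → Fin (k + 3) → ℝ)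
    (h12 : ∀ i j l, T i j l = T j i l) (h23 : ∀ i j l, T i j l = T i l j)
    (hpos : ∀ y : Fin (k + 3) → ℝ, 0 ≤ y 1 → 0 ≤ y 2 → qf3 y = 0 → 0 ≤ tri T y y y) :
    ∃ (ι : Type) (_ : Fintype ι) (V : ι → Fin (k + 1) → ℝ[X]),
      (∀ i, (V i 0).natDegree ≤ 3) ∧ (∀ i a, (V i (Fin.succ a)).natDegree ≤ 1) ∧
      ∀ (x : ℝ) (z : Fin k → ℝ),
        tri T (ups k x + zetaL k z) (ups k x + zetaL k z) (ups k x + zetaL k z)
          = ∑ i, ((V i 0).eval x + ∑ a, z a * (V i (Fin.succ a)).eval x) ^ 2 := by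
  have czeta : ∀ z : Fin k → ℝ, tri T (zetaL k z) (zetaL k z) (zetaL k z) = 0 := by
    intro z
    have h1 := hpos (zetaL k z) (by rw [zetaL_one]) (by rw [zetaL_two])
      (by simp [qf3, zetaL_zero, zetaL_one, zetaL_two])
    have h2 := hpos (zetaL k (-z)) (by rw [zetaL_one]) (by rw [zetaL_two])
      (by simp only [qf3, zetaL_zero, zetaL_one, zetaL_two]; ring)
    rw [map_neg, tri_neg_cube] at h2
    linarith
  have Fpos : ∀ (x s : ℝ) (z : Fin k → ℝ), 0 < s →
      0 ≤ s ^ 2 * tri T (ups k x) (ups k x) (ups k x)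
        + 3 * s * tri T (ups k x) (ups k x) (zetaL k z)
        + 3 * tri T (ups k x) (zetaL k z) (zetaL k z) := by
    intro x s z hs
    have h1 := hpos (s • ups k x + zetaL k z)
      (by simp only [Pi.add_apply, Pi.smul_apply, ups_one, zetaL_one, smul_eq_mul]; linarith)
      (by simp only [Pi.add_apply, Pi.smul_apply, ups_two, zetaL_two, smul_eq_mul]; positivity)
      (by simp only [qf3, Pi.add_apply, Pi.smul_apply, ups_zero, ups_one, ups_two, zetaL_zero,
            zetaL_one, zetaL_two, smul_eq_mul]; ring)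
    rw [tri_add_cube h12 h23, czeta] at h1
    simp only [tri_smul_left, tri_smul_mid, tri_smul_right] at h1
    have h2 : 0 ≤ s * (s ^ 2 * tri T (ups k x) (ups k x) (ups k x)
        + 3 * s * tri T (ups k x) (ups k x) (zetaL k z)
        + 3 * tri T (ups k x) (zetaL k z) (zetaL k z)) := by
      linarith
    exact (mul_nonneg_iff_of_pos_left hs).mp h2
  have Fall : ∀ (x s : ℝ) (z : Fin k → ℝ),
      0 ≤ s ^ 2 * tri T (ups k x) (ups k x) (ups k x)
        + 3 * s * tri T (ups k x) (ups k x) (zetaL k z)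
        + 3 * tri T (ups k x) (zetaL k z) (zetaL k z) := by
    intro x s z
    rcases lt_trichotomy s 0 with hs | hs | hs
    · have h := Fpos x (-s) (-z) (by linarith)
      have hneg : zetaL k (-z) = (-1 : ℝ) • zetaL k z := by rw [map_neg]; simp
      rw [hneg] at h
      simp only [tri_smul_mid, tri_smul_right] at h
      linarith
    · rw [hs]
      have h := nonneg_of_quad_pos (tri T (ups k x) (ups k x) (ups k x))
        (3 * tri T (ups k x) (ups k x) (zetaL k z))
        (3 * tri T (ups k x) (zetaL k z) (zetaL k z)) (fun s hs => by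
          have := Fpos x s z hs
          linarith)
      linarith
    · exact Fpos x s z hs
  obtain ⟨ι, hι, V, hV⟩ := fejer_riesz (k + 1) (PP T) (PP_symm T h23) (fun x v => by
    rw [qform_PP T h23]
    exact Fall x (v 0) (Fin.tail v))
  refine ⟨ι, hι, V, ?_, ?_, ?_⟩
  · intro i
    have h := natDegree_le_of_sum_sq (fun i => V i 0) (PP T 0 0)
      (by rw [hV 0 0]; exact Finset.sum_congr rfl fun i _ => (sq _).symm) i
    have hd := natDegree_PP_zero T
    omega
  · intro i a
    have h := natDegree_le_of_sum_sq (fun i => V i a.succ) (PP T a.succ a.succ)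
      (by rw [hV a.succ a.succ]; exact Finset.sum_congr rfl fun i _ => (sq _).symm) i
    have hd := natDegree_PP_succ T a
    omega
  · intro x z
    have h1 := gram_eval (PP T) V hV x (Fin.cons 1 z)
    rw [qform_PP T h23] at h1
    rw [tri_add_cube h12 h23, czeta]
    have h2 : ∀ i, ∑ a, (Fin.cons 1 z : Fin (k + 1) → ℝ) a * (V i a).eval x
        = (V i 0).eval x + ∑ a, z a * (V i (Fin.succ a)).eval x := by
      intro i
      rw [Fin.sum_univ_succ]
      simp
    simp_rw [h2] at h1
    rw [← h1]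
    simp only [Fin.cons_zero, Fin.tail_cons]
    ring

end Vale.Agent.H69
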