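import Mathlib

/-!
# Hyperbolic polynomials, hyperbolicity cones, spectrahedral shadows

Definitions for problem P256 (the Projected Lax conjecture), following the problem text.
-/

namespace Vale.Agent.H69

/-- The restriction of `p` to the line `t ↦ t • e - x`, as a real polynomial in one variable `t`. -/
noncomputable def lineRestrict {n : ℕ} (p : MvPolynomial (Fin n) ℝ) (e x : Fin n → ℝ) :
    Polynomial ℝ :=
  MvPolynomial.aeval (fun i => Polynomial.C (e i) * Polynomial.X - Polynomial.C (x i)) p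

/-- `p` is hyperbolic with respect to `e`: it is homogeneous, `p e > 0`, and for every real point
`x` all complex roots of `t ↦ p (t • e - x)` are real. -/
def IsHyperbolic {n : ℕ} (p : MvPolynomial (Fin n) ℝ) (e : Fin n → ℝ) : Prop :=
  (∃ d : ℕ, p.IsHomogeneous d) ∧ 0 < MvPolynomial.eval e p ∧
    ∀ x : Fin n → ℝ, ∀ z : ℂ, Polynomial.aeval z (lineRestrict p e x) = 0 → z.im = 0

/-- The closed hyperbolicity cone: all `x` such that every root of `t ↦ p (t • e - x)` is `≥ 0`. -/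
def hypCone {n : ℕ} (p : MvPolynomial (Fin n) ℝ) (e : Fin n → ℝ) : Set (Fin n → ℝ) :=
  {x | ∀ t : ℝ, Polynomial.eval t (lineRestrict p e x) = 0 → 0 ≤ t}

/-- A spectrahedral shadow in `ℝ^n`: a set of the form
`{x | ∃ u ∈ ℝ^a, A0 + ∑ x_i A_i + ∑ u_j B_j ⪰ 0}` with real symmetric matrices of one finite size. -/
def IsSpectrahedralShadow {n : ℕ} (S : Set (Fin n → ℝ)) : Prop :=
  ∃ (k a : ℕ) (A0 : Matrix (Fin k) (Fin k) ℝ) (A : Fin n → Matrix (Fin k) (Fin k) ℝ)
    (B : Fin a → Matrix (Fin k) (Fin k) ℝ),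
    A0.IsSymm ∧ (∀ i, (A i).IsSymm) ∧ (∀ j, (B j).IsSymm) ∧
    S = {x | ∃ u : Fin a → ℝ, (A0 + ∑ i, x i • A i + ∑ j, u j • B j).PosSemidef}

end Vale.Agent.H69
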