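import Vale.Agent.H69.Family

/-!
# Homogeneous polynomials of degree one and two in coefficient form
-/

namespace Vale.Agent.H69

open MvPolynomial Matrix

theorem linPoly_add {N : ℕ} (c c' : Fin N → ℝ) : linPoly (c + c') = linPoly c + linPoly c' := by
  simp only [linPoly, Pi.add_apply, map_add, add_mul, Finset.sum_add_distrib]

theorem linPoly_zero {N : ℕ} : linPoly (0 : Fin N → ℝ) = 0 := by
  simp [linPoly]

theorem quadPoly_add {N : ℕ} (A B : Matrix (Fin N) (Fin N) ℝ) :
    quadPoly (A + B) = quadPoly A + quadPoly B := by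
  simp only [quadPoly, Matrix.add_apply, map_add, add_mul, Finset.sum_add_distrib]

theorem quadPoly_zero {N : ℕ} : quadPoly (0 : Matrix (Fin N) (Fin N) ℝ) = 0 := by
  simp [quadPoly]

theorem quadPoly_transpose {N : ℕ} (A : Matrix (Fin N) (Fin N) ℝ) :
    quadPoly Aᵀ = quadPoly A := by
  simp only [quadPoly, Matrix.transpose_apply]
  rw [Finset.sum_comm]
  refine Finset.sum_congr rfl fun i _ => Finset.sum_congr rfl fun k _ => ?_
  ring

theorem quadPoly_smul {N : ℕ} (a : ℝ) (A : Matrix (Fin N) (Fin N) ℝ) :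
    quadPoly (a • A) = C a * quadPoly A := by
  simp only [quadPoly, Matrix.smul_apply, smul_eq_mul, map_mul, Finset.mul_sum]
  refine Finset.sum_congr rfl fun i _ => Finset.sum_congr rfl fun k _ => ?_
  ring

/-- Every quadratic form comes from a symmetric matrix. -/
theorem quadPoly_symmetrize {N : ℕ} (A : Matrix (Fin N) (Fin N) ℝ) :
    ∃ B : Matrix (Fin N) (Fin N) ℝ, B.IsSymm ∧ quadPoly B = quadPoly A := by
  refine ⟨(1 / 2 : ℝ) • (A + Aᵀ), ?_, ?_⟩
  · ext i k
    simp only [Matrix.transpose_apply, Matrix.smul_apply, Matrix.add_apply, smul_eq_mul]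
    ring
  · rw [quadPoly_smul, quadPoly_add, quadPoly_transpose, ← two_mul, ← mul_assoc]
    have : (C (1 / 2 : ℝ) * 2 : MvPolynomial (Fin N) ℝ) = 1 := by
      have h2 : (2 : MvPolynomial (Fin N) ℝ) = C (2 : ℝ) := (map_ofNat C 2).symm
      rw [h2, ← C_mul]
      norm_num
    rw [this, one_mul]

theorem exists_linPoly_of_isHomogeneous {N : ℕ} (p : MvPolynomial (Fin N) ℝ)
    (hp : p.IsHomogeneous 1) : ∃ c : Fin N → ℝ, p = linPoly c := by
  have h := p.support_sum_monomial_coeff
  rw [← h]
  apply Finset.sum_induction (p := fun f : MvPolynomial (Fin N) ℝ => ∃ c : Fin N → ℝ, f = linPoly c)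
  · rintro _ _ ⟨c, rfl⟩ ⟨c', rfl⟩
    exact ⟨c + c', (linPoly_add c c').symm⟩
  · exact ⟨0, linPoly_zero.symm⟩
  · intro d hd
    have hdeg : d.degree = 1 := by
      rw [Finsupp.degree_eq_weight_one, ← Pi.one_def]
      exact hp (mem_support_iff.mp hd)
    have hmem : d ∈ {d : Fin N →₀ ℕ | d.degree = 1} := hdeg
    rw [← Finsupp.range_single_one] at hmem
    obtain ⟨i, rfl⟩ := hmem
    refine ⟨Pi.single i (coeff (Finsupp.single i 1) p), ?_⟩
    rw [linPoly, Finset.sum_eq_single i]
    · simp [X, C_mul_monomial]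
    · intro k _ hk
      simp [hk]
    · intro hi
      exact absurd (Finset.mem_univ i) hi

theorem finsupp_degree_two {σ : Type} [DecidableEq σ] (d : σ →₀ ℕ) (h : d.degree = 2) :
    ∃ i k, d = Finsupp.single i 1 + Finsupp.single k 1 := by
  have hne : d ≠ 0 := by
    rintro rfl
    simp at h
  obtain ⟨i, hi⟩ := Finsupp.ne_iff.mp hne
  have hle : Finsupp.single i 1 ≤ d := by
    rw [Finsupp.single_le_iff]
    have : d i ≠ 0 := by simpa using hi
    omega
  have hd : d = (d - Finsupp.single i 1) + Finsupp.single i 1 := (tsub_add_cancel_of_le hle).symm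
  have hdeg : (d - Finsupp.single i 1).degree = 1 := by
    have := congrArg Finsupp.degree hd
    rw [map_add, Finsupp.degree_single, h] at this
    omega
  have hmem : (d - Finsupp.single i 1) ∈ {d : σ →₀ ℕ | d.degree = 1} := hdeg
  rw [← Finsupp.range_single_one] at hmem
  obtain ⟨k, hk⟩ := hmem
  refine ⟨k, i, ?_⟩
  have hk' : Finsupp.single k 1 = d - Finsupp.single i 1 := hk
  rw [hk']
  exact hd

theorem exists_quadPoly_of_isHomogeneous {N : ℕ} (p : MvPolynomial (Fin N) ℝ)
    (hp : p.IsHomogeneous 2) : ∃ A : Matrix (Fin N) (Fin N) ℝ, A.IsSymm ∧ p = quadPoly A := by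
  have key : ∃ A : Matrix (Fin N) (Fin N) ℝ, p = quadPoly A := by
    have h := p.support_sum_monomial_coeff
    rw [← h]
    apply Finset.sum_induction
      (p := fun f : MvPolynomial (Fin N) ℝ => ∃ A : Matrix (Fin N) (Fin N) ℝ, f = quadPoly A)
    · rintro _ _ ⟨A, rfl⟩ ⟨B, rfl⟩
      exact ⟨A + B, (quadPoly_add A B).symm⟩
    · exact ⟨0, quadPoly_zero.symm⟩
    · intro d hd
      have hdeg : d.degree = 2 := by
        rw [Finsupp.degree_eq_weight_one, ← Pi.one_def]
        exact hp (mem_support_iff.mp hd)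
      obtain ⟨i, k, rfl⟩ := finsupp_degree_two d hdeg
      refine ⟨Matrix.single i k (coeff (Finsupp.single i 1 + Finsupp.single k 1) p), ?_⟩
      rw [quadPoly, Finset.sum_eq_single i]
      · rw [Finset.sum_eq_single k]
        · simp [X, C_mul_monomial, monomial_mul]
        · intro k' _ hk'
          simp [hk'.symm]
        · intro hk
          exact absurd (Finset.mem_univ k) hk
      · intro i' _ hi'
        apply Finset.sum_eq_zero
        intro k' _
        simp [hi'.symm]
      · intro hi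
        exact absurd (Finset.mem_univ i) hi
  obtain ⟨A, hA⟩ := key
  obtain ⟨B, hB, hBA⟩ := quadPoly_symmetrize A
  exact ⟨B, hB, by rw [hA, hBA]⟩

end Vale.Agent.H69
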