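import Vale.Agent.H69.LMI

/-!
# The cone of a hyperbolic quadratic form is a spectrahedron (matrix form)
-/

namespace Vale.Agent.H69

open Matrix

variable {ι : Type} [Fintype ι]

/-- The bilinear form `x^T A y`. -/
def bil (A : Matrix ι ι ℝ) (x y : ι → ℝ) : ℝ := x ⬝ᵥ A *ᵥ y

theorem bil_add_left (A : Matrix ι ι ℝ) (x x' y : ι → ℝ) :
    bil A (x + x') y = bil A x y + bil A x' y := by
  simp [bil, add_dotProduct]

theorem bil_add_right (A : Matrix ι ι ℝ) (x y y' : ι → ℝ) :
    bil A x (y + y') = bil A x y + bil A x y' := by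
  simp [bil, mulVec_add, dotProduct_add]

theorem bil_smul_left (A : Matrix ι ι ℝ) (c : ℝ) (x y : ι → ℝ) :
    bil A (c • x) y = c * bil A x y := by
  simp [bil, smul_dotProduct]

theorem bil_smul_right (A : Matrix ι ι ℝ) (c : ℝ) (x y : ι → ℝ) :
    bil A x (c • y) = c * bil A x y := by
  simp [bil, mulVec_smul, dotProduct_smul]

theorem bil_comm {A : Matrix ι ι ℝ} (hA : A.IsSymm) (x y : ι → ℝ) : bil A x y = bil A y x := by
  rw [bil, bil, dotProduct_mulVec, ← mulVec_transpose, hA.eq, dotProduct_comm]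

theorem bil_eq_sum (A : Matrix ι ι ℝ) (x y : ι → ℝ) :
    bil A x y = ∑ i, ∑ k, A i k * x i * y k := by
  simp only [bil, dotProduct, mulVec, Finset.mul_sum]
  refine Finset.sum_congr rfl fun i _ => Finset.sum_congr rfl fun k _ => ?_
  ring

/-- The linear matrix pencil whose positivity describes the cone of the quadratic form `A`
hyperbolic with respect to `e`. -/
def quadLMI (A : Matrix ι ι ℝ) (e : ι → ℝ) : (ι → ℝ) →ₗ[ℝ] Matrix ι ι ℝ where
  toFun y := vecMulVec (A *ᵥ e) (A *ᵥ y) + vecMulVec (A *ᵥ y) (A *ᵥ e) - bil A e y • A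
  map_add' := by
    intro y z
    ext i k
    simp only [bil_add_right, mulVec_add, Matrix.add_apply, Matrix.sub_apply, vecMulVec_apply,
      Pi.add_apply, Matrix.smul_apply, smul_eq_mul]
    ring
  map_smul' := by
    intro c y
    ext i k
    simp only [bil_smul_right, mulVec_smul, Matrix.add_apply, Matrix.sub_apply, vecMulVec_apply,
      Pi.smul_apply, Matrix.smul_apply, smul_eq_mul, RingHom.id_apply]
    ring

theorem quadLMI_isSymm {A : Matrix ι ι ℝ} (hA : A.IsSymm) (e y : ι → ℝ) :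
    (quadLMI A e y).IsSymm := by
  ext i k
  simp only [quadLMI, LinearMap.coe_mk, AddHom.coe_mk, Matrix.transpose_apply, Matrix.add_apply,
    Matrix.sub_apply, vecMulVec_apply, Matrix.smul_apply, smul_eq_mul]
  rw [hA.apply i k]
  ring

theorem dot_vecMulVec_mulVec (u v z : ι → ℝ) :
    z ⬝ᵥ (vecMulVec u v *ᵥ z) = (z ⬝ᵥ u) * (v ⬝ᵥ z) := by
  simp only [dotProduct, mulVec, vecMulVec_apply]
  rw [Finset.sum_mul_sum]
  simp only [Finset.mul_sum]
  refine Finset.sum_congr rfl fun i _ => Finset.sum_congr rfl fun k _ => ?_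
  ring

theorem quadLMI_quadratic {A : Matrix ι ι ℝ} (hA : A.IsSymm) (e y z : ι → ℝ) :
    z ⬝ᵥ (quadLMI A e y *ᵥ z) = 2 * bil A e z * bil A y z - bil A e y * bil A z z := by
  simp only [quadLMI, LinearMap.coe_mk, AddHom.coe_mk, sub_mulVec, add_mulVec, dotProduct_sub,
    dotProduct_add, dot_vecMulVec_mulVec, smul_mulVec, dotProduct_smul, smul_eq_mul]
  have h1 : z ⬝ᵥ A *ᵥ e = bil A e z := by rw [bil_comm hA]; rfl
  have h2 : (A *ᵥ y) ⬝ᵥ z = bil A y z := by rw [dotProduct_comm, bil_comm hA]; rfl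
  have h3 : z ⬝ᵥ A *ᵥ y = bil A y z := by rw [bil_comm hA]; rfl
  have h4 : (A *ᵥ e) ⬝ᵥ z = bil A e z := by rw [dotProduct_comm, bil_comm hA]; rfl
  have h5 : z ⬝ᵥ A *ᵥ z = bil A z z := rfl
  rw [h1, h2, h3, h4, h5]
  ring

/-- Gram-type inequality implied by the reverse Cauchy-Schwarz inequality. -/
theorem gram_of_rcs {A : Matrix ι ι ℝ} (hA : A.IsSymm) (e : ι → ℝ)
    (hR : ∀ y, bil A e e * bil A y y ≤ bil A e y ^ 2) (y z : ι → ℝ) :
    (bil A e y * bil A e z - bil A e e * bil A y z) ^ 2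
      ≤ (bil A e z ^ 2 - bil A e e * bil A z z) * (bil A e y ^ 2 - bil A e e * bil A y y) := by
  have h : ∀ t : ℝ, 0 ≤ (bil A e z ^ 2 - bil A e e * bil A z z) * (t * t)
      + (2 * (bil A e y * bil A e z - bil A e e * bil A y z)) * t
      + (bil A e y ^ 2 - bil A e e * bil A y y) := by
    intro t
    have := hR (y + t • z)
    simp only [bil_add_left, bil_add_right, bil_smul_left, bil_smul_right] at this
    have hc : bil A z y = bil A y z := bil_comm hA z y
    rw [hc] at this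
    nlinarith [this]
  have := discrim_le_zero h
  rw [discrim] at this
  nlinarith [this]

theorem wronski_nonneg (κ η ξ Byy Bzz Byz : ℝ) (hκ : 0 < κ) (hη : 0 ≤ η)
    (hG : (η * ξ - κ * Byz) ^ 2 ≤ (ξ ^ 2 - κ * Bzz) * (η ^ 2 - κ * Byy))
    (hz : κ * Bzz ≤ ξ ^ 2) (hy : κ * Byy ≤ η ^ 2) (hyy : 0 ≤ Byy) :
    0 ≤ 2 * ξ * Byz - η * Bzz := by
  set U := η ^ 2 - κ * Byy with hU
  set V := ξ ^ 2 - κ * Bzz with hV
  set T := η * ξ - κ * Byz with hT
  have hU0 : 0 ≤ U := by linarith
  have hV0 : 0 ≤ V := by linarith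
  have hUle : U ≤ η ^ 2 := by
    have : 0 ≤ κ * Byy := mul_nonneg hκ.le hyy
    linarith
  have key : κ * (2 * ξ * Byz - η * Bzz) = η * ξ ^ 2 - 2 * ξ * T + η * V := by
    rw [hT, hV]; ring
  rcases lt_or_eq_of_le hη with hη' | hη'
  · have h2 : η * (κ * (2 * ξ * Byz - η * Bzz)) = (η * ξ - T) ^ 2 - T ^ 2 + η ^ 2 * V := by
      rw [key]; ring
    have h3 : T ^ 2 ≤ η ^ 2 * V := by
      have : U * V ≤ η ^ 2 * V := mul_le_mul_of_nonneg_right hUle hV0
      linarith [mul_comm U V]
    have h4 : 0 ≤ η * (κ * (2 * ξ * Byz - η * Bzz)) := by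
      rw [h2]; nlinarith [sq_nonneg (η * ξ - T)]
    have h5 : 0 ≤ κ * (2 * ξ * Byz - η * Bzz) := nonneg_of_mul_nonneg_right h4 hη'
    exact nonneg_of_mul_nonneg_right h5 hκ
  · have hU' : U = 0 := by
      have : U ≤ 0 := by rw [← hη'] at hUle; simpa using hUle
      linarith
    have hT' : T = 0 := by
      have : T ^ 2 ≤ 0 := by
        have := hG
        rw [hU'] at this
        simpa using this
      exact pow_eq_zero_iff (two_ne_zero) |>.mp (le_antisymm this (sq_nonneg T))
    have h5 : 0 ≤ κ * (2 * ξ * Byz - η * Bzz) := by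
      rw [key, hT', ← hη']; simp
    exact nonneg_of_mul_nonneg_right h5 hκ

/-- The cone `{y | e^T A y ≥ 0, y^T A y ≥ 0}` of a quadratic form satisfying the reverse
Cauchy-Schwarz inequality with respect to `e` is cut out by the pencil `quadLMI`. -/
theorem quadLMI_posSemidef_iff {A : Matrix ι ι ℝ} (hA : A.IsSymm) (e : ι → ℝ)
    (hκ : 0 < bil A e e) (hR : ∀ y, bil A e e * bil A y y ≤ bil A e y ^ 2) (y : ι → ℝ) :
    (quadLMI A e y).PosSemidef ↔ 0 ≤ bil A e y ∧ 0 ≤ bil A y y := by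
  have hherm : (quadLMI A e y).IsHermitian := by
    rw [Matrix.IsHermitian, Matrix.conjTranspose_eq_transpose_of_trivial]
    exact quadLMI_isSymm hA e y
  constructor
  · intro h
    have hq : ∀ z : ι → ℝ, 0 ≤ 2 * bil A e z * bil A y z - bil A e y * bil A z z := by
      intro z
      have := h.dotProduct_mulVec_nonneg z
      rw [star_trivial, quadLMI_quadratic hA] at this
      exact this
    have h1 : 0 ≤ bil A e y := by
      have := hq e
      rw [bil_comm hA y e] at this
      have h' : 0 ≤ bil A e e * bil A e y := by nlinarith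
      exact nonneg_of_mul_nonneg_right h' hκ
    refine ⟨h1, ?_⟩
    rcases lt_or_eq_of_le h1 with h2 | h2
    · have := hq y
      have h' : 0 ≤ bil A e y * bil A y y := by nlinarith
      exact nonneg_of_mul_nonneg_right h' h2
    · have ha := hq (e + y)
      have hb := hq (e - y)
      have hsub : e - y = e + (-1 : ℝ) • y := by
        rw [neg_one_smul, sub_eq_add_neg]
      rw [hsub] at hb
      simp only [bil_add_left, bil_add_right, bil_smul_left, bil_smul_right] at ha hb
      rw [bil_comm hA y e, ← h2] at ha hb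
      nlinarith
  · rintro ⟨h1, h2⟩
    refine PosSemidef.of_dotProduct_mulVec_nonneg hherm ?_
    intro z
    rw [star_trivial, quadLMI_quadratic hA]
    have hG := gram_of_rcs hA e hR y z
    have := wronski_nonneg (bil A e e) (bil A e y) (bil A e z) (bil A y y) (bil A z z) (bil A y z)
      hκ h1 hG (hR z) (hR y) h2
    linarith

theorem isLMISet_quadCone [DecidableEq ι] {A : Matrix ι ι ℝ} (hA : A.IsSymm) (e : ι → ℝ) :
    IsLMISet {y : ι → ℝ | (quadLMI A e y).PosSemidef} :=
  IsLMISet.of_linearMap (quadLMI A e) (quadLMI_isSymm hA e)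

end Vale.Agent.H69
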