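import Mathlib

/-!
# Scalar lemmas for the cubic family
-/

namespace Vale.Agent.H69

open Complex

theorem herglotz_bound_real (u v r α β γ δ : ℝ) (hr : 0 ≤ r) (hα : 0 ≤ α)
    (hβ : β ^ 2 ≤ α ^ 2 * r ^ 2) :
    v * ((((γ : ℂ) * (⟨u, v⟩ : ℂ) - δ) ^ 2 * ((α : ℂ) * (⟨u, v⟩ : ℂ) + β)
        * (starRingEnd ℂ) ((⟨u, v⟩ : ℂ) ^ 2 - (r : ℂ) ^ 2)).im)
      ≤ α * γ ^ 2 * v ^ 2 * Complex.normSq ((⟨u, v⟩ : ℂ) ^ 2 - (r : ℂ) ^ 2) := by
  have hβ' : -(α * r) ≤ β ∧ β ≤ α * r := by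
    have h0 : 0 ≤ α * r := mul_nonneg hα hr
    have : β ^ 2 ≤ (α * r) ^ 2 := by rw [mul_pow]; exact hβ
    exact abs_le.mp (abs_le_of_sq_le_sq this h0)
  have e1 : (((γ : ℂ) * (⟨u, v⟩ : ℂ) - δ) ^ 2 * ((α : ℂ) * (⟨u, v⟩ : ℂ) + β)
        * (starRingEnd ℂ) ((⟨u, v⟩ : ℂ) ^ 2 - (r : ℂ) ^ 2)).im
      = ((γ * u - δ) ^ 2 - (γ * v) ^ 2) * ((α * v) * (u ^ 2 - v ^ 2 - r ^ 2)
            - (α * u + β) * (2 * u * v))
        + (2 * (γ * u - δ) * (γ * v)) * ((α * u + β) * (u ^ 2 - v ^ 2 - r ^ 2)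
            + (α * v) * (2 * u * v)) := by
    simp [pow_two, Complex.mul_im, Complex.mul_re]
    ring
  have e2 : Complex.normSq ((⟨u, v⟩ : ℂ) ^ 2 - (r : ℂ) ^ 2)
      = (u ^ 2 - v ^ 2 - r ^ 2) ^ 2 + (2 * u * v) ^ 2 := by
    simp [pow_two, Complex.normSq_apply, Complex.mul_im, Complex.mul_re]
    ring
  rw [e1, e2]
  rcases lt_or_eq_of_le hr with hr' | hr'
  · have hP : 0 ≤ (α * r + β) * ((γ * r - δ) ^ 2 * ((u + r) ^ 2 + v ^ 2)) :=
      mul_nonneg (by linarith [hβ'.1]) (by positivity)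
    have hM : 0 ≤ (α * r - β) * ((γ * r + δ) ^ 2 * ((u - r) ^ 2 + v ^ 2)) :=
      mul_nonneg (by linarith [hβ'.2]) (by positivity)
    have key : 2 * r * (α * γ ^ 2 * v ^ 2 * ((u ^ 2 - v ^ 2 - r ^ 2) ^ 2 + (2 * u * v) ^ 2)
        - v * (((γ * u - δ) ^ 2 - (γ * v) ^ 2) * ((α * v) * (u ^ 2 - v ^ 2 - r ^ 2)
            - (α * u + β) * (2 * u * v))
        + (2 * (γ * u - δ) * (γ * v)) * ((α * u + β) * (u ^ 2 - v ^ 2 - r ^ 2)
            + (α * v) * (2 * u * v))))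
        = v ^ 2 * ((α * r + β) * ((γ * r - δ) ^ 2 * ((u + r) ^ 2 + v ^ 2))
          + (α * r - β) * ((γ * r + δ) ^ 2 * ((u - r) ^ 2 + v ^ 2))) := by
      ring
    have h2 : 0 ≤ 2 * r * (α * γ ^ 2 * v ^ 2 * ((u ^ 2 - v ^ 2 - r ^ 2) ^ 2 + (2 * u * v) ^ 2)
        - v * (((γ * u - δ) ^ 2 - (γ * v) ^ 2) * ((α * v) * (u ^ 2 - v ^ 2 - r ^ 2)
            - (α * u + β) * (2 * u * v))
        + (2 * (γ * u - δ) * (γ * v)) * ((α * u + β) * (u ^ 2 - v ^ 2 - r ^ 2)
            + (α * v) * (2 * u * v)))) := by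
      rw [key]
      exact mul_nonneg (sq_nonneg v) (add_nonneg hP hM)
    have h3 := nonneg_of_mul_nonneg_right h2 (by linarith : (0 : ℝ) < 2 * r)
    linarith
  · subst hr'
    have hb : β = 0 := by
      have h1 := hβ'.1
      have h2 := hβ'.2
      simp at h1 h2
      linarith
    subst hb
    have key : α * γ ^ 2 * v ^ 2 * ((u ^ 2 - v ^ 2 - 0 ^ 2) ^ 2 + (2 * u * v) ^ 2)
        - v * (((γ * u - δ) ^ 2 - (γ * v) ^ 2) * ((α * v) * (u ^ 2 - v ^ 2 - 0 ^ 2)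
            - (α * u + 0) * (2 * u * v))
        + (2 * (γ * u - δ) * (γ * v)) * ((α * u + 0) * (u ^ 2 - v ^ 2 - 0 ^ 2)
            + (α * v) * (2 * u * v)))
        = α * δ ^ 2 * v ^ 2 * (u ^ 2 + v ^ 2) := by
      ring
    have : 0 ≤ α * δ ^ 2 * v ^ 2 * (u ^ 2 + v ^ 2) := by positivity
    linarith

/-- All complex roots of the cubic `(s z - t)(κ z² - 2 b z + c) - ∑ (γ_j z - δ_j)² (λ_j z - μ_j)`
are real, under the structural inequalities satisfied by the scalars of the cubic family. -/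
theorem cubic_root_real {J : ℕ} (s t κ b c : ℝ) (γ δ lam μ : Fin J → ℝ)
    (hκ : 0 < κ) (hbc : κ * c ≤ b ^ 2) (hlam : ∀ j, 0 ≤ lam j)
    (h4 : ∀ j, κ * μ j ^ 2 - 2 * b * lam j * μ j + c * lam j ^ 2 ≤ 0)
    (hs : ∑ j, γ j ^ 2 * lam j < s * κ) (z : ℂ)
    (hz : ((s : ℂ) * z - t) * ((κ : ℂ) * z ^ 2 - 2 * b * z + c)
      - ∑ j, ((γ j : ℂ) * z - δ j) ^ 2 * ((lam j : ℂ) * z - μ j) = 0) :
    z.im = 0 := by
  set r : ℝ := Real.sqrt (b ^ 2 - κ * c) / κ with hr_def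
  have hr0 : 0 ≤ r := div_nonneg (Real.sqrt_nonneg _) hκ.le
  have hr2 : r ^ 2 = (b ^ 2 - κ * c) / κ ^ 2 := by
    rw [hr_def, div_pow, Real.sq_sqrt (by linarith)]
  set w : ℂ := z - ((b / κ : ℝ) : ℂ) with hw_def
  have hwim : w.im = z.im := by simp [hw_def]
  have hκc : (κ : ℂ) ≠ 0 := by exact_mod_cast hκ.ne'
  have hzw : z = w + ((b / κ : ℝ) : ℂ) := by rw [hw_def]; ring
  have hq : (κ : ℂ) * z ^ 2 - 2 * b * z + c = κ * (w ^ 2 - (r : ℂ) ^ 2) := by
    have hrc : ((r : ℂ)) ^ 2 = ((b : ℂ) ^ 2 - κ * c) / (κ : ℂ) ^ 2 := by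
      rw [← Complex.ofReal_pow, hr2]; push_cast; ring
    rw [hrc, hzw]; push_cast; field_simp; ring
  set β : Fin J → ℝ := fun j => lam j * b / κ - μ j with hβ_def
  set δ' : Fin J → ℝ := fun j => δ j - γ j * b / κ with hδ'_def
  set t' : ℝ := t - s * b / κ with ht'_def
  have hl : ∀ j, (lam j : ℂ) * z - μ j = (lam j : ℂ) * w + (β j : ℂ) := by
    intro j; rw [hzw, hβ_def]; push_cast; field_simp; ring
  have hm : ∀ j, (γ j : ℂ) * z - δ j = (γ j : ℂ) * w - (δ' j : ℂ) := by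
    intro j; rw [hzw, hδ'_def]; push_cast; field_simp; ring
  have hst : (s : ℂ) * z - t = (s : ℂ) * w - (t' : ℂ) := by
    rw [hzw, ht'_def]; push_cast; field_simp; ring
  have hβ : ∀ j, β j ^ 2 ≤ lam j ^ 2 * r ^ 2 := by
    intro j
    rw [hr2]
    have e1 : β j ^ 2 = (lam j * b - κ * μ j) ^ 2 / κ ^ 2 := by
      simp only [hβ_def]; field_simp
    have e2 : lam j ^ 2 * ((b ^ 2 - κ * c) / κ ^ 2) = lam j ^ 2 * (b ^ 2 - κ * c) / κ ^ 2 := by
      ring
    rw [e1, e2]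
    apply div_le_div_of_nonneg_right _ (by positivity)
    have := h4 j
    nlinarith [mul_nonneg hκ.le (neg_nonneg.mpr this)]
  -- the equation in terms of w
  have hz' : ((s : ℂ) * w - (t' : ℂ)) * (κ * (w ^ 2 - (r : ℂ) ^ 2))
      = ∑ j, ((γ j : ℂ) * w - (δ' j : ℂ)) ^ 2 * ((lam j : ℂ) * w + (β j : ℂ)) := by
    have := hz
    rw [hq, hst] at this
    simp only [hl, hm] at this
    exact sub_eq_zero.mp this
  set N : ℝ := Complex.normSq (w ^ 2 - (r : ℂ) ^ 2) with hN_def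
  have hN0 : 0 ≤ N := Complex.normSq_nonneg _
  have h1 : ((s : ℂ) * w - (t' : ℂ)) * κ * (N : ℂ)
      = ∑ j, ((γ j : ℂ) * w - (δ' j : ℂ)) ^ 2 * ((lam j : ℂ) * w + (β j : ℂ))
          * (starRingEnd ℂ) (w ^ 2 - (r : ℂ) ^ 2) := by
    rw [← Finset.sum_mul, ← hz', hN_def, ← Complex.mul_conj]
    ring
  have h2 : (((s : ℂ) * w - (t' : ℂ)) * κ * (N : ℂ)).im = s * w.im * κ * N := by
    simp [Complex.mul_im]
  have h3 : s * w.im * κ * N
      = ∑ j, (((γ j : ℂ) * w - (δ' j : ℂ)) ^ 2 * ((lam j : ℂ) * w + (β j : ℂ))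
          * (starRingEnd ℂ) (w ^ 2 - (r : ℂ) ^ 2)).im := by
    rw [← h2, h1, Complex.im_sum]
  have h4' : ∀ j, w.im * (((γ j : ℂ) * w - (δ' j : ℂ)) ^ 2 * ((lam j : ℂ) * w + (β j : ℂ))
          * (starRingEnd ℂ) (w ^ 2 - (r : ℂ) ^ 2)).im ≤ lam j * γ j ^ 2 * w.im ^ 2 * N := by
    intro j
    have := herglotz_bound_real w.re w.im r (lam j) (β j) (γ j) (δ' j) hr0 (hlam j) (hβ j)
    rw [Complex.eta] at this
    exact this
  have h5 : s * κ * (w.im ^ 2 * N) ≤ (∑ j, γ j ^ 2 * lam j) * (w.im ^ 2 * N) := by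
    have e : s * κ * (w.im ^ 2 * N) = w.im * (s * w.im * κ * N) := by ring
    rw [e, h3, Finset.mul_sum, Finset.sum_mul]
    apply Finset.sum_le_sum
    intro j _
    have := h4' j
    linarith
  have h6 : w.im ^ 2 * N ≤ 0 := by
    by_contra hc
    push Not at hc
    have := mul_lt_mul_of_pos_right hs hc
    linarith
  have h7 : w.im ^ 2 * N = 0 := le_antisymm h6 (mul_nonneg (sq_nonneg _) hN0)
  rw [← hwim]
  rcases mul_eq_zero.mp h7 with h | h
  · exact pow_eq_zero_iff (two_ne_zero) |>.mp h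
  · rw [hN_def, Complex.normSq_eq_zero, sub_eq_zero] at h
    rcases sq_eq_sq_iff_eq_or_eq_neg.mp h with h' | h'
    · rw [h']; simp
    · rw [h']; simp

/-! ### Real cubics positive on the positive half-line -/

theorem cubic_pos_c0 (C0 C1 C2 C3 : ℝ)
    (h : ∀ σ : ℝ, 0 < σ → 0 < C0 + C1 * σ + C2 * σ ^ 2 + C3 * σ ^ 3) : 0 ≤ C0 := by
  by_contra hc
  push Not at hc
  set M : ℝ := |C1| + |C2| + |C3| + 1 with hM
  have hMpos : 0 < M := by positivity
  set σ : ℝ := min 1 (-C0 / (2 * M)) with hσ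
  have hσpos : 0 < σ := by
    rw [hσ]
    exact lt_min one_pos (div_pos (by linarith) (by positivity))
  have hσ1 : σ ≤ 1 := min_le_left _ _
  have hσ2 : σ ≤ -C0 / (2 * M) := min_le_right _ _
  have hσM : σ * M ≤ -C0 / 2 := by
    have := mul_le_mul_of_nonneg_right hσ2 hMpos.le
    have e : -C0 / (2 * M) * M = -C0 / 2 := by field_simp
    linarith
  have h1 : C1 * σ ≤ |C1| * σ := mul_le_mul_of_nonneg_right (le_abs_self _) hσpos.le
  have hs2 : σ ^ 2 ≤ σ := by nlinarith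
  have hs3 : σ ^ 3 ≤ σ := by nlinarith
  have h2 : C2 * σ ^ 2 ≤ |C2| * σ := by
    calc C2 * σ ^ 2 ≤ |C2| * σ ^ 2 := mul_le_mul_of_nonneg_right (le_abs_self _) (sq_nonneg _)
      _ ≤ |C2| * σ := mul_le_mul_of_nonneg_left hs2 (abs_nonneg _)
  have h3 : C3 * σ ^ 3 ≤ |C3| * σ := by
    calc C3 * σ ^ 3 ≤ |C3| * σ ^ 3 :=
          mul_le_mul_of_nonneg_right (le_abs_self _) (by positivity)
      _ ≤ |C3| * σ := mul_le_mul_of_nonneg_left hs3 (abs_nonneg _)
  have := h σ hσpos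
  have e : σ * M = |C1| * σ + |C2| * σ + |C3| * σ + σ := by rw [hM]; ring
  linarith

theorem cubic_pos_c1 (C1 C2 C3 : ℝ)
    (h : ∀ σ : ℝ, 0 < σ → 0 < 0 + C1 * σ + C2 * σ ^ 2 + C3 * σ ^ 3) : 0 ≤ C1 := by
  apply cubic_pos_c0 C1 C2 C3 0
  intro σ hσ
  have := h σ hσ
  have e : 0 + C1 * σ + C2 * σ ^ 2 + C3 * σ ^ 3 = σ * (C1 + C2 * σ + C3 * σ ^ 2 + 0 * σ ^ 3) := by
    ring
  rw [e] at this
  exact (mul_pos_iff_of_pos_left hσ).mp this

theorem cubic_pos_c2 (C2 C3 : ℝ)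
    (h : ∀ σ : ℝ, 0 < σ → 0 < 0 + 0 * σ + C2 * σ ^ 2 + C3 * σ ^ 3) : 0 ≤ C2 := by
  apply cubic_pos_c1 C2 C3 0
  intro σ hσ
  have := h σ hσ
  have e : 0 + 0 * σ + C2 * σ ^ 2 + C3 * σ ^ 3 = σ * (0 + C2 * σ + C3 * σ ^ 2 + 0 * σ ^ 3) := by
    ring
  rw [e] at this
  exact (mul_pos_iff_of_pos_left hσ).mp this

/-! ### The cubic along a line, in scalar form -/

/-- The cubic `τ ↦ p (τ e - x)` in terms of the scalar data. -/
def fcub {J : ℕ} (s t κ b c : ℝ) (γ δ lam μ : Fin J → ℝ) (τ : ℝ) : ℝ :=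
  (s * τ - t) * (κ * τ ^ 2 - 2 * b * τ + c) - ∑ j, (γ j * τ - δ j) ^ 2 * (lam j * τ - μ j)

/-- The cubic `σ ↦ p (x + σ e)` in terms of the scalar data. -/
def Pcub {J : ℕ} (s t κ b c : ℝ) (γ δ lam μ : Fin J → ℝ) (σ : ℝ) : ℝ :=
  (t + σ * s) * (c + 2 * b * σ + κ * σ ^ 2) - ∑ j, (δ j + σ * γ j) ^ 2 * (μ j + σ * lam j)

theorem fcub_neg {J : ℕ} (s t κ b c : ℝ) (γ δ lam μ : Fin J → ℝ) (σ : ℝ) :
    fcub s t κ b c γ δ lam μ (-σ) = - Pcub s t κ b c γ δ lam μ σ := by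
  have h : ∀ j, (γ j * -σ - δ j) ^ 2 * (lam j * -σ - μ j)
      = -((δ j + σ * γ j) ^ 2 * (μ j + σ * lam j)) := by
    intro j; ring
  simp only [fcub, Pcub, h, Finset.sum_neg_distrib]
  ring

theorem Pcub_expand {J : ℕ} (s t κ b c : ℝ) (γ δ lam μ : Fin J → ℝ) (σ : ℝ) :
    Pcub s t κ b c γ δ lam μ σ
      = (t * c - ∑ j, δ j ^ 2 * μ j)
        + (s * c + 2 * b * t - ∑ j, (2 * δ j * γ j * μ j + δ j ^ 2 * lam j)) * σ
        + (2 * b * s + κ * t - ∑ j, (γ j ^ 2 * μ j + 2 * δ j * γ j * lam j)) * σ ^ 2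
        + (s * κ - ∑ j, γ j ^ 2 * lam j) * σ ^ 3 := by
  have h : ∑ j, (δ j + σ * γ j) ^ 2 * (μ j + σ * lam j)
      = (∑ j, δ j ^ 2 * μ j) + (∑ j, (2 * δ j * γ j * μ j + δ j ^ 2 * lam j)) * σ
        + (∑ j, (γ j ^ 2 * μ j + 2 * δ j * γ j * lam j)) * σ ^ 2
        + (∑ j, γ j ^ 2 * lam j) * σ ^ 3 := by
    simp only [Finset.sum_mul, ← Finset.sum_add_distrib]
    refine Finset.sum_congr rfl fun j _ => ?_
    ring
  rw [Pcub, h]
  ring

theorem Pcub_continuous {J : ℕ} (s t κ b c : ℝ) (γ δ lam μ : Fin J → ℝ) :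
    Continuous (Pcub s t κ b c γ δ lam μ) := by
  have : Pcub s t κ b c γ δ lam μ = fun σ =>
      (t * c - ∑ j, δ j ^ 2 * μ j)
        + (s * c + 2 * b * t - ∑ j, (2 * δ j * γ j * μ j + δ j ^ 2 * lam j)) * σ
        + (2 * b * s + κ * t - ∑ j, (γ j ^ 2 * μ j + 2 * δ j * γ j * lam j)) * σ ^ 2
        + (s * κ - ∑ j, γ j ^ 2 * lam j) * σ ^ 3 := by
    funext σ; exact Pcub_expand _ _ _ _ _ _ _ _ _ σ
  rw [this]
  fun_prop

/-- A real cubic with positive leading coefficient is positive somewhere beyond any point. -/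
theorem cubic_large_pos (C0 C1 C2 C3 σ1 : ℝ) (h3 : 0 < C3) :
    ∃ σ2, σ1 < σ2 ∧ 0 < C0 + C1 * σ2 + C2 * σ2 ^ 2 + C3 * σ2 ^ 3 := by
  set M : ℝ := |C0| + |C1| + |C2| with hM
  have hM0 : 0 ≤ M := by positivity
  set σ2 : ℝ := max (σ1 + 1) (M / C3 + 1) with hσ2
  have h1 : σ1 < σ2 := lt_of_lt_of_le (by linarith) (le_max_left _ _)
  have h2 : M / C3 + 1 ≤ σ2 := le_max_right _ _
  have hσ2one : 1 ≤ σ2 := by
    have : 0 ≤ M / C3 := div_nonneg hM0 h3.le
    linarith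
  have hσ2pos : 0 < σ2 := by linarith
  refine ⟨σ2, h1, ?_⟩
  have hC3 : M < C3 * σ2 := by
    have : M / C3 < σ2 := by linarith
    have := (div_lt_iff₀ h3).mp this
    linarith
  have e0 : -|C0| * σ2 ^ 2 ≤ C0 := by
    have : |C0| ≤ |C0| * σ2 ^ 2 := by
      have : (1 : ℝ) ≤ σ2 ^ 2 := by nlinarith
      exact le_mul_of_one_le_right (abs_nonneg _) this
    have := neg_abs_le C0
    linarith
  have e1 : -|C1| * σ2 ^ 2 ≤ C1 * σ2 := by
    have h' : |C1| * σ2 ≤ |C1| * σ2 ^ 2 := by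
      have : σ2 ≤ σ2 ^ 2 := by nlinarith
      exact mul_le_mul_of_nonneg_left this (abs_nonneg _)
    have h'' : -|C1| * σ2 ≤ C1 * σ2 := mul_le_mul_of_nonneg_right (neg_abs_le C1) hσ2pos.le
    linarith
  have e2 : -|C2| * σ2 ^ 2 ≤ C2 * σ2 ^ 2 :=
    mul_le_mul_of_nonneg_right (neg_abs_le C2) (sq_nonneg _)
  have e3 : M * σ2 ^ 2 < C3 * σ2 ^ 3 := by
    have : M * σ2 ^ 2 < (C3 * σ2) * σ2 ^ 2 := mul_lt_mul_of_pos_right hC3 (by positivity)
    have e : (C3 * σ2) * σ2 ^ 2 = C3 * σ2 ^ 3 := by ring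
    linarith
  have e4 : M * σ2 ^ 2 = |C0| * σ2 ^ 2 + |C1| * σ2 ^ 2 + |C2| * σ2 ^ 2 := by rw [hM]; ring
  linarith

/-- With positive leading coefficient, the cubic `fcub` has no negative root iff `Pcub` is
positive on the open positive half-line. -/
theorem no_neg_root_iff {J : ℕ} (s t κ b c : ℝ) (γ δ lam μ : Fin J → ℝ)
    (hs : ∑ j, γ j ^ 2 * lam j < s * κ) :
    (∀ τ : ℝ, fcub s t κ b c γ δ lam μ τ = 0 → 0 ≤ τ)
      ↔ ∀ σ : ℝ, 0 < σ → 0 < Pcub s t κ b c γ δ lam μ σ := by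
  constructor
  · intro h σ hσ
    by_contra hc
    push Not at hc
    have hne : Pcub s t κ b c γ δ lam μ σ ≠ 0 := by
      intro h0
      have := h (-σ) (by rw [fcub_neg, h0, neg_zero])
      linarith
    have hlt : Pcub s t κ b c γ δ lam μ σ < 0 := lt_of_le_of_ne hc hne
    obtain ⟨σ2, h12, hpos⟩ := cubic_large_pos (t * c - ∑ j, δ j ^ 2 * μ j)
      (s * c + 2 * b * t - ∑ j, (2 * δ j * γ j * μ j + δ j ^ 2 * lam j))
      (2 * b * s + κ * t - ∑ j, (γ j ^ 2 * μ j + 2 * δ j * γ j * lam j))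
      (s * κ - ∑ j, γ j ^ 2 * lam j) σ (by linarith)
    rw [← Pcub_expand] at hpos
    have hivt := intermediate_value_Icc h12.le
      (Pcub_continuous s t κ b c γ δ lam μ).continuousOn
    have hmem : (0 : ℝ) ∈ Set.Icc (Pcub s t κ b c γ δ lam μ σ) (Pcub s t κ b c γ δ lam μ σ2) :=
      ⟨hlt.le, hpos.le⟩
    obtain ⟨σ0, ⟨hσ0a, _⟩, hσ0⟩ := hivt hmem
    have := h (-σ0) (by rw [fcub_neg, hσ0, neg_zero])
    linarith
  · intro h τ hτ
    by_contra hc
    push Not at hc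
    have := h (-τ) (by linarith)
    have e := fcub_neg s t κ b c γ δ lam μ (-τ)
    rw [neg_neg, hτ] at e
    linarith

/-! ### The lifted description, in scalar form -/

theorem lift_term_bound (κ b c γ δ l μ ρ τ σ : ℝ) (hκ : 0 < κ) (hl : 0 < l)
    (h4 : κ * μ ^ 2 - 2 * b * l * μ + c * l ^ 2 ≤ 0) (hμ : 0 ≤ μ)
    (hρ : 0 ≤ ρ) (hτ : 0 ≤ τ) (h2 : l * δ ^ 2 ≤ τ * ρ) (h3 : ρ ≤ 2 * b) (h3' : ρ * μ ≤ l * c)
    (hσ : 0 < σ) :
    (δ + σ * γ) ^ 2 * (μ + σ * l) ≤ (τ + σ * (γ ^ 2 * l / κ)) * (c + 2 * b * σ + κ * σ ^ 2) := by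
  set R : ℝ := ρ + σ * κ with hR
  have hR0 : 0 ≤ R := by positivity
  -- (i)
  have hi : R * (μ + σ * l) ≤ l * (c + 2 * b * σ + κ * σ ^ 2) := by
    have hkey : ρ * l + κ * μ ≤ 2 * b * l := by
      rcases lt_or_eq_of_le hμ with hμ' | hμ'
      · have e : μ * (l * (2 * b - ρ) - κ * μ)
            = l * (l * c - ρ * μ) - (κ * μ ^ 2 - 2 * b * l * μ + c * l ^ 2) := by ring
        have : 0 ≤ μ * (l * (2 * b - ρ) - κ * μ) := by
          rw [e]
          have : 0 ≤ l * (l * c - ρ * μ) := mul_nonneg hl.le (by linarith)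
          linarith
        have := nonneg_of_mul_nonneg_right this hμ'
        linarith
      · rw [← hμ']
        have : ρ * l ≤ 2 * b * l := mul_le_mul_of_nonneg_right h3 hl.le
        linarith
    have e : l * (c + 2 * b * σ + κ * σ ^ 2) - R * (μ + σ * l)
        = (l * c - ρ * μ) + σ * (2 * b * l - (ρ * l + κ * μ)) := by rw [hR]; ring
    have : 0 ≤ σ * (2 * b * l - (ρ * l + κ * μ)) := mul_nonneg hσ.le (by linarith)
    linarith
  -- (ii)
  have hii : l * (δ + σ * γ) ^ 2 ≤ (τ + σ * (γ ^ 2 * l / κ)) * R := by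
    have hX : 0 ≤ τ * κ ^ 2 + γ ^ 2 * l * ρ := by positivity
    have hsq : (2 * l * δ * γ * κ) ^ 2 ≤ (τ * κ ^ 2 + γ ^ 2 * l * ρ) ^ 2 := by
      have e1 : (τ * κ ^ 2 + γ ^ 2 * l * ρ) ^ 2
          = (τ * κ ^ 2 - γ ^ 2 * l * ρ) ^ 2 + 4 * κ ^ 2 * γ ^ 2 * l * (τ * ρ) := by ring
      have e2 : (2 * l * δ * γ * κ) ^ 2 = 4 * κ ^ 2 * γ ^ 2 * l * (l * δ ^ 2) := by ring
      rw [e1, e2]
      have : 4 * κ ^ 2 * γ ^ 2 * l * (l * δ ^ 2) ≤ 4 * κ ^ 2 * γ ^ 2 * l * (τ * ρ) :=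
        mul_le_mul_of_nonneg_left h2 (by positivity)
      nlinarith [sq_nonneg (τ * κ ^ 2 - γ ^ 2 * l * ρ)]
    have hab : 2 * l * δ * γ * κ ≤ τ * κ ^ 2 + γ ^ 2 * l * ρ :=
      le_trans (le_abs_self _) (abs_le_of_sq_le_sq hsq hX)
    have e : (τ + σ * (γ ^ 2 * l / κ)) * R - l * (δ + σ * γ) ^ 2
        = (τ * ρ - l * δ ^ 2) + σ * ((τ * κ ^ 2 + γ ^ 2 * l * ρ - 2 * l * δ * γ * κ) / κ) := by
      rw [hR]; field_simp; ring
    have : 0 ≤ σ * ((τ * κ ^ 2 + γ ^ 2 * l * ρ - 2 * l * δ * γ * κ) / κ) :=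
      mul_nonneg hσ.le (div_nonneg (by linarith) hκ.le)
    linarith
  -- (iii)
  have hμσ : 0 ≤ μ + σ * l := by positivity
  have hτσ : 0 ≤ τ + σ * (γ ^ 2 * l / κ) := by positivity
  have h5 : l * ((δ + σ * γ) ^ 2 * (μ + σ * l))
      ≤ l * ((τ + σ * (γ ^ 2 * l / κ)) * (c + 2 * b * σ + κ * σ ^ 2)) := by
    calc l * ((δ + σ * γ) ^ 2 * (μ + σ * l)) = (l * (δ + σ * γ) ^ 2) * (μ + σ * l) := by ring
      _ ≤ ((τ + σ * (γ ^ 2 * l / κ)) * R) * (μ + σ * l) :=
          mul_le_mul_of_nonneg_right hii hμσ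
      _ = (τ + σ * (γ ^ 2 * l / κ)) * (R * (μ + σ * l)) := by ring
      _ ≤ (τ + σ * (γ ^ 2 * l / κ)) * (l * (c + 2 * b * σ + κ * σ ^ 2)) :=
          mul_le_mul_of_nonneg_left hi hτσ
      _ = l * ((τ + σ * (γ ^ 2 * l / κ)) * (c + 2 * b * σ + κ * σ ^ 2)) := by ring
  exact le_of_mul_le_mul_left h5 hl

/-- A lifted certificate forces `Pcub` to be positive on the positive half-line. -/
theorem lift_imp_pos {J : ℕ} (s t κ b c : ℝ) (γ δ lam μ : Fin J → ℝ)
    (hκ : 0 < κ) (hlam : ∀ j, 0 ≤ lam j)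
    (h4 : ∀ j, κ * μ j ^ 2 - 2 * b * lam j * μ j + c * lam j ^ 2 ≤ 0)
    (hs : ∑ j, γ j ^ 2 * lam j < s * κ)
    (hb : 0 ≤ b) (hc : 0 ≤ c) (hμ : ∀ j, 0 ≤ μ j)
    (ρ τ : Fin J → ℝ) (hρ : ∀ j, 0 ≤ ρ j) (hτ : ∀ j, 0 ≤ τ j)
    (h2 : ∀ j, lam j * δ j ^ 2 ≤ τ j * ρ j)
    (h3 : ∀ j, lam j ≠ 0 → ρ j ≤ 2 * b ∧ ρ j * μ j ≤ lam j * c)
    (hsum : ∑ j, τ j ≤ t) :
    ∀ σ : ℝ, 0 < σ → 0 < Pcub s t κ b c γ δ lam μ σ := by
  intro σ hσ
  set Q : ℝ := c + 2 * b * σ + κ * σ ^ 2 with hQ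
  have hQpos : 0 < Q := by
    have : 0 < κ * σ ^ 2 := by positivity
    have : 0 ≤ 2 * b * σ := by positivity
    linarith
  have hterm : ∀ j, (δ j + σ * γ j) ^ 2 * (μ j + σ * lam j)
      ≤ (τ j + σ * (γ j ^ 2 * lam j / κ)) * Q := by
    intro j
    rcases lt_or_eq_of_le (hlam j) with hl | hl
    · obtain ⟨h3a, h3b⟩ := h3 j hl.ne'
      exact lift_term_bound κ b c (γ j) (δ j) (lam j) (μ j) (ρ j) (τ j) σ hκ hl (h4 j) (hμ j)
        (hρ j) (hτ j) (h2 j) h3a h3b hσ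
    · have hμ0 : μ j = 0 := by
        have := h4 j
        rw [← hl] at this
        have h' : κ * μ j ^ 2 ≤ 0 := by linarith
        have h'' : μ j ^ 2 ≤ 0 := by
          by_contra hcon
          push Not at hcon
          have := mul_pos hκ hcon
          linarith
        exact pow_eq_zero_iff (two_ne_zero) |>.mp (le_antisymm h'' (sq_nonneg _))
      rw [hμ0, ← hl]
      simp only [mul_zero, add_zero, zero_div]
      exact mul_nonneg (hτ j) hQpos.le
  have hsum2 : ∑ j, (δ j + σ * γ j) ^ 2 * (μ j + σ * lam j)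
      ≤ ((∑ j, τ j) + σ * ((∑ j, γ j ^ 2 * lam j) / κ)) * Q := by
    have e : ((∑ j, τ j) + σ * ((∑ j, γ j ^ 2 * lam j) / κ)) * Q
        = ∑ j, (τ j + σ * (γ j ^ 2 * lam j / κ)) * Q := by
      rw [Finset.sum_div, Finset.mul_sum, ← Finset.sum_add_distrib, Finset.sum_mul]
    rw [e]
    exact Finset.sum_le_sum fun j _ => hterm j
  have hlt : (∑ j, γ j ^ 2 * lam j) / κ < s := by
    rw [div_lt_iff₀ hκ]; exact hs
  have h5 : ((∑ j, τ j) + σ * ((∑ j, γ j ^ 2 * lam j) / κ)) * Q < (t + σ * s) * Q := by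
    apply mul_lt_mul_of_pos_right _ hQpos
    have : σ * ((∑ j, γ j ^ 2 * lam j) / κ) < σ * s := mul_lt_mul_of_pos_left hlt hσ
    linarith
  rw [Pcub]
  linarith

theorem sq_eq_zero_of_mul_sq_nonpos (κ m : ℝ) (hκ : 0 < κ) (h : κ * m ^ 2 ≤ 0) : m = 0 := by
  have h'' : m ^ 2 ≤ 0 := by
    by_contra hcon
    push Not at hcon
    have := mul_pos hκ hcon
    linarith
  exact pow_eq_zero_iff (two_ne_zero) |>.mp (le_antisymm h'' (sq_nonneg _))

/-- Positivity of `Pcub` on the positive half-line yields a lifted certificate. -/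
theorem pos_imp_lift {J : ℕ} (s t κ b c : ℝ) (γ δ lam μ : Fin J → ℝ)
    (hκ : 0 < κ) (hbc : κ * c ≤ b ^ 2) (hlam : ∀ j, 0 ≤ lam j)
    (h4 : ∀ j, κ * μ j ^ 2 - 2 * b * lam j * μ j + c * lam j ^ 2 ≤ 0)
    (h5 : ∀ j (σ : ℝ), 0 ≤ b + κ * σ → 0 ≤ c + 2 * b * σ + κ * σ ^ 2 → 0 ≤ μ j + σ * lam j)
    (hP : ∀ σ : ℝ, 0 < σ → 0 < Pcub s t κ b c γ δ lam μ σ) :
    0 ≤ b ∧ 0 ≤ c ∧ ∃ ρ τ : Fin J → ℝ, (∀ j, 0 ≤ ρ j) ∧ (∀ j, 0 ≤ τ j) ∧
      (∀ j, lam j * δ j ^ 2 ≤ τ j * ρ j) ∧ (∀ j, ρ j ≤ 2 * b ∧ ρ j * μ j ≤ lam j * c) ∧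
      ∑ j, τ j ≤ t := by
  -- Step 1
  have hbc0 : 0 ≤ b ∧ 0 ≤ c := by
    by_contra hcon
    set S : ℝ := Real.sqrt (b ^ 2 - κ * c) with hSdef
    have hS0 : 0 ≤ S := Real.sqrt_nonneg _
    have hS2 : S ^ 2 = b ^ 2 - κ * c := Real.sq_sqrt (by linarith)
    have hSb : b < S := by
      rcases not_and_or.mp hcon with h | h
      · push Not at h; linarith
      · push Not at h
        by_contra hle
        push Not at hle
        have : S ^ 2 ≤ b ^ 2 := by nlinarith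
        have : 0 < κ * -c := mul_pos hκ (by linarith)
        nlinarith
    set σ0 : ℝ := (S - b) / κ with hσ0
    have hσ0pos : 0 < σ0 := div_pos (by linarith) hκ
    have hQ0 : c + 2 * b * σ0 + κ * σ0 ^ 2 = 0 := by
      have e : c + 2 * b * σ0 + κ * σ0 ^ 2 = (κ * c + S ^ 2 - b ^ 2) / κ := by
        rw [hσ0]; field_simp; ring
      rw [e, hS2]; simp
    have hB0 : b + κ * σ0 = S := by rw [hσ0]; field_simp; ring
    have hμσ : ∀ j, 0 ≤ μ j + σ0 * lam j := by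
      intro j
      exact h5 j σ0 (by rw [hB0]; exact hS0) (by rw [hQ0])
    have := hP σ0 hσ0pos
    rw [Pcub, hQ0, mul_zero, zero_sub, neg_pos] at this
    have hnn : 0 ≤ ∑ j, (δ j + σ0 * γ j) ^ 2 * (μ j + σ0 * lam j) :=
      Finset.sum_nonneg fun j _ => mul_nonneg (sq_nonneg _) (hμσ j)
    linarith
  obtain ⟨hb, hc⟩ := hbc0
  refine ⟨hb, hc, ?_⟩
  have hμ : ∀ j, 0 ≤ μ j := by
    intro j
    have := h5 j 0 (by simpa using hb) (by simpa using hc)
    simpa using this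
  set C0 : ℝ := t * c - ∑ j, δ j ^ 2 * μ j with hC0def
  set C1 : ℝ := s * c + 2 * b * t - ∑ j, (2 * δ j * γ j * μ j + δ j ^ 2 * lam j) with hC1def
  set C2 : ℝ := 2 * b * s + κ * t - ∑ j, (γ j ^ 2 * μ j + 2 * δ j * γ j * lam j) with hC2def
  set C3 : ℝ := s * κ - ∑ j, γ j ^ 2 * lam j with hC3def
  have hP' : ∀ σ : ℝ, 0 < σ → 0 < C0 + C1 * σ + C2 * σ ^ 2 + C3 * σ ^ 3 := by
    intro σ hσ
    have := hP σ hσ
    rwa [Pcub_expand] at this
  have hC0 : 0 ≤ C0 := cubic_pos_c0 C0 C1 C2 C3 hP'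
  rcases lt_or_eq_of_le hc with hcpos | hc0
  · -- case c > 0
    refine ⟨fun j => lam j * c / μ j, fun j => δ j ^ 2 * μ j / c, ?_, ?_, ?_, ?_, ?_⟩
    · intro j; exact div_nonneg (mul_nonneg (hlam j) hc) (hμ j)
    · intro j; exact div_nonneg (mul_nonneg (sq_nonneg _) (hμ j)) hc
    · intro j
      rcases lt_or_eq_of_le (hμ j) with hμ' | hμ'
      · apply le_of_eq
        field_simp
      · have hl0 : lam j = 0 := by
          have := h4 j
          rw [← hμ'] at this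
          have h' : c * lam j ^ 2 ≤ 0 := by nlinarith
          exact sq_eq_zero_of_mul_sq_nonpos c (lam j) hcpos h'
        simp [hl0]
    · intro j
      rcases lt_or_eq_of_le (hμ j) with hμ' | hμ'
      · constructor
        · rw [div_le_iff₀ hμ']
          rcases lt_or_eq_of_le (hlam j) with hl | hl
          · have := h4 j
            have h' : 0 ≤ lam j * (2 * b * μ j - lam j * c) := by nlinarith [sq_nonneg (μ j)]
            have := nonneg_of_mul_nonneg_right h' hl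
            linarith
          · rw [← hl]
            have : 0 ≤ 2 * b * μ j := by positivity
            linarith
        · rw [div_mul_cancel₀ _ hμ'.ne']
      · have hμ0 : μ j = 0 := hμ'.symm
        refine ⟨?_, ?_⟩
        · show lam j * c / μ j ≤ 2 * b
          rw [hμ0, div_zero]; linarith
        · show lam j * c / μ j * μ j ≤ lam j * c
          rw [hμ0, mul_zero]; exact mul_nonneg (hlam j) hc
    · rw [← Finset.sum_div, div_le_iff₀ hcpos]
      linarith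
  · -- case c = 0
    have hc0' : c = 0 := hc0.symm
    rcases lt_or_eq_of_le hb with hbpos | hb0
    · -- b > 0
      have hsum0 : ∑ j, δ j ^ 2 * μ j = 0 := by
        have h1 : ∑ j, δ j ^ 2 * μ j ≤ 0 := by
          have := hC0
          rw [hC0def, hc0'] at this
          linarith
        exact le_antisymm h1 (Finset.sum_nonneg fun j _ => mul_nonneg (sq_nonneg _) (hμ j))
      have hterm0 : ∀ j, δ j ^ 2 * μ j = 0 := by
        intro j
        have := (Finset.sum_eq_zero_iff_of_nonneg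
          (fun j _ => mul_nonneg (sq_nonneg (δ j)) (hμ j))).mp hsum0 j (Finset.mem_univ j)
        exact this
      have hδμ : ∀ j, δ j * μ j = 0 := by
        intro j
        rcases mul_eq_zero.mp (hterm0 j) with h | h
        · rw [pow_eq_zero_iff (two_ne_zero) |>.mp h]; simp
        · rw [h]; simp
      have hC0eq : C0 = 0 := by rw [hC0def, hc0', hsum0]; simp
      have hC1 : 0 ≤ C1 := by
        apply cubic_pos_c1 C1 C2 C3
        intro σ hσ
        have := hP' σ hσ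
        rw [hC0eq] at this
        exact this
      have hsum1 : ∑ j, δ j ^ 2 * lam j ≤ 2 * b * t := by
        have e : ∑ j, (2 * δ j * γ j * μ j + δ j ^ 2 * lam j) = ∑ j, δ j ^ 2 * lam j := by
          refine Finset.sum_congr rfl fun j _ => ?_
          have : 2 * δ j * γ j * μ j = 2 * γ j * (δ j * μ j) := by ring
          rw [this, hδμ j]; ring
        have := hC1
        rw [hC1def, e, hc0'] at this
        linarith
      refine ⟨fun j => if μ j = 0 then 2 * b else 0, fun j => δ j ^ 2 * lam j / (2 * b),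
        ?_, ?_, ?_, ?_, ?_⟩
      · intro j
        by_cases h : μ j = 0
        · simp only [h, if_true]; linarith
        · simp only [h, if_false]; exact le_refl _
      · intro j; exact div_nonneg (mul_nonneg (sq_nonneg _) (hlam j)) (by linarith)
      · intro j
        by_cases h : μ j = 0
        · simp only [h, if_true]
          apply le_of_eq
          field_simp
        · simp only [h, if_false]
          have hδ0 : δ j = 0 := by
            rcases mul_eq_zero.mp (hδμ j) with h' | h'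
            · exact h'
            · exact absurd h' h
          rw [hδ0]; simp
      · intro j
        by_cases h : μ j = 0
        · simp only [h, if_true, hc0']
          exact ⟨le_refl _, by simp⟩
        · simp only [h, if_false, hc0']
          exact ⟨by linarith, by simp⟩
      · rw [← Finset.sum_div, div_le_iff₀ (by linarith)]
        linarith
    · -- b = 0
      have hb0' : b = 0 := hb0.symm
      have hμ0 : ∀ j, μ j = 0 := by
        intro j
        have := h4 j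
        rw [hb0', hc0'] at this
        have h' : κ * μ j ^ 2 ≤ 0 := by linarith
        exact sq_eq_zero_of_mul_sq_nonpos κ (μ j) hκ h'
      have hC0eq : C0 = 0 := by
        rw [hC0def, hc0']
        simp [hμ0]
      have hC1 : 0 ≤ C1 := by
        apply cubic_pos_c1 C1 C2 C3
        intro σ hσ
        have := hP' σ hσ
        rw [hC0eq] at this
        exact this
      have hsum0 : ∑ j, δ j ^ 2 * lam j = 0 := by
        have h1 : ∑ j, δ j ^ 2 * lam j ≤ 0 := by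
          have := hC1
          rw [hC1def, hc0', hb0'] at this
          simp only [hμ0, mul_zero, zero_add, zero_mul] at this
          linarith
        exact le_antisymm h1 (Finset.sum_nonneg fun j _ => mul_nonneg (sq_nonneg _) (hlam j))
      have hterm0 : ∀ j, δ j ^ 2 * lam j = 0 := by
        intro j
        exact (Finset.sum_eq_zero_iff_of_nonneg
          (fun j _ => mul_nonneg (sq_nonneg (δ j)) (hlam j))).mp hsum0 j (Finset.mem_univ j)
      have hδl : ∀ j, δ j * lam j = 0 := by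
        intro j
        rcases mul_eq_zero.mp (hterm0 j) with h | h
        · rw [pow_eq_zero_iff (two_ne_zero) |>.mp h]; simp
        · rw [h]; simp
      have hC1eq : C1 = 0 := by
        rw [hC1def, hc0', hb0']
        simp only [hμ0, mul_zero, zero_add, zero_mul, hsum0, sub_zero]
      have hC2 : 0 ≤ C2 := by
        apply cubic_pos_c2 C2 C3
        intro σ hσ
        have := hP' σ hσ
        rw [hC0eq, hC1eq] at this
        exact this
      have ht : 0 ≤ t := by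
        have e : ∑ j, (γ j ^ 2 * μ j + 2 * δ j * γ j * lam j) = 0 := by
          refine Finset.sum_eq_zero fun j _ => ?_
          have : 2 * δ j * γ j * lam j = 2 * γ j * (δ j * lam j) := by ring
          rw [this, hδl j, hμ0 j]; ring
        have := hC2
        rw [hC2def, e, hb0'] at this
        have h' : 0 ≤ κ * t := by linarith
        exact nonneg_of_mul_nonneg_right h' hκ
      refine ⟨fun _ => 0, fun _ => 0, ?_, ?_, ?_, ?_, ?_⟩
      · intro j; exact le_refl _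
      · intro j; exact le_refl _
      · intro j
        have : lam j * δ j ^ 2 = 0 := by rw [mul_comm]; exact hterm0 j
        rw [this]; simp
      · intro j
        rw [hb0', hc0']
        simp
      · simpa using ht

/-! ### Scalar facts about the quadratic cone -/

/-- If `κ z² - 2 b z + c` has only real roots then the reverse Cauchy-Schwarz inequality holds. -/
theorem rcs_of_real_roots (κ b c : ℝ) (hκ : 0 < κ)
    (h : ∀ z : ℂ, (κ : ℂ) * z ^ 2 - 2 * b * z + c = 0 → z.im = 0) : κ * c ≤ b ^ 2 := by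
  by_contra hcon
  push Not at hcon
  set S : ℝ := Real.sqrt (κ * c - b ^ 2) with hS
  have hSpos : 0 < S := Real.sqrt_pos.mpr (by linarith)
  have hS2 : S ^ 2 = κ * c - b ^ 2 := Real.sq_sqrt (by linarith)
  have hκc : (κ : ℂ) ≠ 0 := by exact_mod_cast hκ.ne'
  have hS2c : (S : ℂ) ^ 2 = (κ : ℂ) * c - (b : ℂ) ^ 2 := by
    rw [← Complex.ofReal_pow, hS2]; push_cast; ring
  have hroot : (κ : ℂ) * (((b : ℂ) + S * Complex.I) / κ) ^ 2
      - 2 * b * (((b : ℂ) + S * Complex.I) / κ) + c = 0 := by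
    field_simp
    have hI : Complex.I ^ 2 = -1 := Complex.I_sq
    linear_combination (-1 : ℂ) * hS2c + (S : ℂ) ^ 2 * hI
  have := h _ hroot
  have him : ((((b : ℂ) + S * Complex.I) / κ)).im = S / κ := by
    have e : ((b : ℂ) + S * Complex.I) / κ = ((b / κ : ℝ) : ℂ) + ((S / κ : ℝ) : ℂ) * Complex.I := by
      push_cast; field_simp
    rw [e]
    simp
  rw [him] at this
  have : 0 < S / κ := div_pos hSpos hκ
  linarith

/-- For a real-rooted quadratic with positive leading coefficient: all roots nonnegative iff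
the two lower coefficients have the right signs. -/
theorem quad_roots_nonneg_iff (κ b c : ℝ) (hκ : 0 < κ) (hbc : κ * c ≤ b ^ 2) :
    (∀ τ : ℝ, κ * τ ^ 2 - 2 * b * τ + c = 0 → 0 ≤ τ) ↔ 0 ≤ b ∧ 0 ≤ c := by
  constructor
  · intro h
    set S : ℝ := Real.sqrt (b ^ 2 - κ * c) with hS
    have hS0 : 0 ≤ S := Real.sqrt_nonneg _
    have hS2 : S ^ 2 = b ^ 2 - κ * c := Real.sq_sqrt (by linarith)
    have hroot : κ * ((b - S) / κ) ^ 2 - 2 * b * ((b - S) / κ) + c = 0 := by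
      have e : κ * ((b - S) / κ) ^ 2 - 2 * b * ((b - S) / κ) + c
          = (S ^ 2 - b ^ 2 + κ * c) / κ := by field_simp; ring
      rw [e, hS2]; simp
    have h1 := h _ hroot
    have h2 : 0 ≤ b - S := by
      have := mul_nonneg h1 hκ.le
      rwa [div_mul_cancel₀ _ hκ.ne'] at this
    have hb : 0 ≤ b := by linarith
    refine ⟨hb, ?_⟩
    have : S ^ 2 ≤ b ^ 2 := by nlinarith
    have h3 : 0 ≤ κ * c := by linarith
    exact nonneg_of_mul_nonneg_right h3 hκ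
  · rintro ⟨hb, hc⟩ τ hτ
    by_contra hcon
    push Not at hcon
    have h1 : 0 < κ * τ ^ 2 := by
      have : 0 < τ ^ 2 := by
        have : τ ≠ 0 := hcon.ne
        positivity
      positivity
    have h2 : 0 ≤ -(2 * b * τ) := by
      have : 0 ≤ 2 * b * (-τ) := by
        have : 0 ≤ -τ := by linarith
        positivity
      linarith
    linarith

/-- The key quadratic inequality for a linear form nonnegative on the cone, from the two-sided
scalar form of that nonnegativity. -/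
theorem key_ineq_of_nonneg (κ b c lam μ : ℝ) (hκ : 0 < κ) (hbc : κ * c ≤ b ^ 2) (hlam : 0 ≤ lam)
    (h5 : ∀ σ : ℝ, 0 ≤ b + κ * σ → 0 ≤ c + 2 * b * σ + κ * σ ^ 2 → 0 ≤ μ + σ * lam)
    (h5' : ∀ σ : ℝ, 0 ≤ -b + κ * σ → 0 ≤ c - 2 * b * σ + κ * σ ^ 2 → 0 ≤ -μ + σ * lam) :
    κ * μ ^ 2 - 2 * b * lam * μ + c * lam ^ 2 ≤ 0 := by
  set S : ℝ := Real.sqrt (b ^ 2 - κ * c) with hS
  have hS0 : 0 ≤ S := Real.sqrt_nonneg _
  have hS2 : S ^ 2 = b ^ 2 - κ * c := Real.sq_sqrt (by linarith)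
  rcases lt_or_eq_of_le hlam with hl | hl
  · by_contra hcon
    push Not at hcon
    set Qv : ℝ := κ * μ ^ 2 - 2 * b * lam * μ + c * lam ^ 2 with hQv
    set Bv : ℝ := κ * μ - lam * b with hBv
    have hrcs : κ * Qv ≤ Bv ^ 2 := by
      have e : Bv ^ 2 - κ * Qv = lam ^ 2 * (b ^ 2 - κ * c) := by rw [hBv, hQv]; ring
      have : 0 ≤ lam ^ 2 * (b ^ 2 - κ * c) := mul_nonneg (sq_nonneg _) (by linarith)
      linarith
    have hBv2 : 0 < Bv ^ 2 := lt_of_lt_of_le (mul_pos hκ hcon) hrcs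
    have hBvne : Bv ≠ 0 := by
      intro h0; rw [h0] at hBv2; simp at hBv2
    rcases lt_or_gt_of_ne hBvne with hneg | hpos
    · -- Bv < 0 : use h5
      set ε : ℝ := Qv / (-2 * Bv) with hε
      have hεpos : 0 < ε := div_pos hcon (by linarith)
      have hεB : ε * (-2 * Bv) = Qv := by rw [hε]; field_simp
      have p1 : 0 ≤ b + κ * (-(μ + ε) / lam) := by
        have e : b + κ * (-(μ + ε) / lam) = (-Bv - κ * ε) / lam := by
          rw [hBv]; field_simp; ring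
        rw [e]
        apply div_nonneg _ hl.le
        have e2 : (-Bv - κ * ε) * (-2 * Bv) = 2 * Bv ^ 2 - κ * Qv := by
          rw [← hεB]; ring
        have h3 : 0 ≤ (-Bv - κ * ε) * (-2 * Bv) := by rw [e2]; linarith
        exact nonneg_of_mul_nonneg_left h3 (by linarith)
      have p2 : 0 ≤ c + 2 * b * (-(μ + ε) / lam) + κ * (-(μ + ε) / lam) ^ 2 := by
        have e : c + 2 * b * (-(μ + ε) / lam) + κ * (-(μ + ε) / lam) ^ 2
            = (Qv + 2 * ε * Bv + κ * ε ^ 2) / lam ^ 2 := by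
          rw [hQv, hBv]; field_simp; ring
        rw [e]
        apply div_nonneg _ (sq_nonneg _)
        have : Qv + 2 * ε * Bv = 0 := by rw [← hεB]; ring
        have : 0 ≤ κ * ε ^ 2 := by positivity
        linarith
      have := h5 _ p1 p2
      have e : μ + -(μ + ε) / lam * lam = -ε := by field_simp; ring
      rw [e] at this
      linarith
    · -- Bv > 0 : use h5'
      set ε : ℝ := Qv / (2 * Bv) with hε
      have hεpos : 0 < ε := div_pos hcon (by linarith)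
      have hεB : ε * (2 * Bv) = Qv := by rw [hε]; field_simp
      have p1 : 0 ≤ -b + κ * ((μ - ε) / lam) := by
        have e : -b + κ * ((μ - ε) / lam) = (Bv - κ * ε) / lam := by
          rw [hBv]; field_simp; ring
        rw [e]
        apply div_nonneg _ hl.le
        have e2 : (Bv - κ * ε) * (2 * Bv) = 2 * Bv ^ 2 - κ * Qv := by
          rw [← hεB]; ring
        have h3 : 0 ≤ (Bv - κ * ε) * (2 * Bv) := by rw [e2]; linarith
        exact nonneg_of_mul_nonneg_left h3 (by linarith)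
      have p2 : 0 ≤ c - 2 * b * ((μ - ε) / lam) + κ * ((μ - ε) / lam) ^ 2 := by
        have e : c - 2 * b * ((μ - ε) / lam) + κ * ((μ - ε) / lam) ^ 2
            = (Qv - 2 * ε * Bv + κ * ε ^ 2) / lam ^ 2 := by
          rw [hQv, hBv]; field_simp; ring
        rw [e]
        apply div_nonneg _ (sq_nonneg _)
        have : Qv - 2 * ε * Bv = 0 := by rw [← hεB]; ring
        have : 0 ≤ κ * ε ^ 2 := by positivity
        linarith
      have := h5' _ p1 p2
      have e : -μ + (μ - ε) / lam * lam = -ε := by field_simp; ring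
      rw [e] at this
      linarith
  · -- lam = 0
    rw [← hl]
    have q1 : c + 2 * b * ((S - b) / κ) + κ * ((S - b) / κ) ^ 2 = 0 := by
      have e : c + 2 * b * ((S - b) / κ) + κ * ((S - b) / κ) ^ 2 = (κ * c + S ^ 2 - b ^ 2) / κ := by
        field_simp; ring
      rw [e, hS2]; simp
    have q2 : c - 2 * b * ((S + b) / κ) + κ * ((S + b) / κ) ^ 2 = 0 := by
      have e : c - 2 * b * ((S + b) / κ) + κ * ((S + b) / κ) ^ 2 = (κ * c + S ^ 2 - b ^ 2) / κ := by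
        field_simp; ring
      rw [e, hS2]; simp
    have r1 : b + κ * ((S - b) / κ) = S := by field_simp; ring
    have r2 : -b + κ * ((S + b) / κ) = S := by field_simp; ring
    have m1 := h5 ((S - b) / κ) (by rw [r1]; exact hS0) (by rw [q1])
    have m2 := h5' ((S + b) / κ) (by rw [r2]; exact hS0) (by rw [q2])
    rw [← hl] at m1 m2
    simp only [mul_zero, add_zero] at m1 m2
    have hμ0 : μ = 0 := by linarith
    rw [hμ0]; simp

end Vale.Agent.H69
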