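import Vale.Agent.H69.Basic
import Vale.Agent.H69.QuadCone
import Vale.Agent.H69.Scalar

/-!
# The cubic family `t q(y) - ∑ m_j(y)² ℓ_j(y)`: evaluation lemmas
-/

namespace Vale.Agent.H69

open MvPolynomial Matrix

/-- The quadratic form `y^T A y` as a polynomial in `N` variables. -/
noncomputable def quadPoly {N : ℕ} (A : Matrix (Fin N) (Fin N) ℝ) : MvPolynomial (Fin N) ℝ :=
  ∑ i, ∑ k, C (A i k) * X i * X k

/-- The linear form with coefficient vector `c` as a polynomial in `N` variables. -/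
noncomputable def linPoly {N : ℕ} (c : Fin N → ℝ) : MvPolynomial (Fin N) ℝ :=
  ∑ i, C (c i) * X i

/-- The cubic `p(t, y) = t q(y) - ∑_j m_j(y)² ℓ_j(y)` in `N + 1` variables (variable `0` is `t`). -/
noncomputable def schurCubic {N J : ℕ} (A : Matrix (Fin N) (Fin N) ℝ) (m l : Fin J → Fin N → ℝ) :
    MvPolynomial (Fin (N + 1)) ℝ :=
  X 0 * rename Fin.succ (quadPoly A)
    - ∑ j, (rename Fin.succ (linPoly (m j))) ^ 2 * rename Fin.succ (linPoly (l j))

/-- The value of the linear form with coefficients `c` at `y`. -/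
def lf {N : ℕ} (c y : Fin N → ℝ) : ℝ := ∑ i, c i * y i

theorem eval_quadPoly {N : ℕ} (A : Matrix (Fin N) (Fin N) ℝ) (y : Fin N → ℝ) :
    eval y (quadPoly A) = bil A y y := by
  rw [bil_eq_sum]
  simp [quadPoly]

theorem eval_linPoly {N : ℕ} (c y : Fin N → ℝ) : eval y (linPoly c) = lf c y := by
  simp [linPoly, lf]

theorem eval_line_quadPoly {N : ℕ} {A : Matrix (Fin N) (Fin N) ℝ} (hA : A.IsSymm)
    (e y : Fin N → ℝ) (τ : ℝ) :
    eval (fun i => e i * τ - y i) (quadPoly A)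
      = bil A e e * τ ^ 2 - 2 * bil A e y * τ + bil A y y := by
  rw [eval_quadPoly]
  have h : (fun i => e i * τ - y i) = τ • e + (-1 : ℝ) • y := by
    funext i; simp; ring
  rw [h]
  simp only [bil_add_left, bil_add_right, bil_smul_left, bil_smul_right]
  rw [bil_comm hA y e]
  ring

theorem eval_line_linPoly {N : ℕ} (c e y : Fin N → ℝ) (τ : ℝ) :
    eval (fun i => e i * τ - y i) (linPoly c) = lf c e * τ - lf c y := by
  rw [eval_linPoly]
  simp only [lf, Finset.sum_mul, ← Finset.sum_sub_distrib]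
  refine Finset.sum_congr rfl fun i _ => ?_
  ring

theorem aeval_line_quadPoly {N : ℕ} {A : Matrix (Fin N) (Fin N) ℝ} (hA : A.IsSymm)
    (e y : Fin N → ℝ) (z : ℂ) :
    aeval (fun i => (e i : ℂ) * z - (y i : ℂ)) (quadPoly A)
      = (bil A e e : ℂ) * z ^ 2 - 2 * (bil A e y : ℂ) * z + (bil A y y : ℂ) := by
  have h2 : (2 : ℂ) * (bil A e y : ℂ) = (bil A e y : ℂ) + (bil A y e : ℂ) := by
    rw [bil_comm hA y e]; ring
  rw [h2]
  simp only [bil_eq_sum]
  push_cast
  simp only [quadPoly, map_sum, map_mul, aeval_C, aeval_X, Finset.sum_mul,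
    ← Finset.sum_add_distrib, ← Finset.sum_sub_distrib]
  refine Finset.sum_congr rfl fun i _ => Finset.sum_congr rfl fun k _ => ?_
  simp
  ring

theorem aeval_line_linPoly {N : ℕ} (c e y : Fin N → ℝ) (z : ℂ) :
    aeval (fun i => (e i : ℂ) * z - (y i : ℂ)) (linPoly c)
      = (lf c e : ℂ) * z - (lf c y : ℂ) := by
  simp only [lf]
  push_cast
  simp only [linPoly, map_sum, map_mul, aeval_C, aeval_X, Finset.sum_mul,
    ← Finset.sum_sub_distrib]
  refine Finset.sum_congr rfl fun i _ => ?_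
  simp
  ring

theorem eval_line_schurCubic {N J : ℕ} {A : Matrix (Fin N) (Fin N) ℝ} (hA : A.IsSymm)
    (m l : Fin J → Fin N → ℝ) (s : ℝ) (e' : Fin N → ℝ) (x : Fin (N + 1) → ℝ) (τ : ℝ) :
    eval (fun i => (Fin.cons s e' : Fin (N + 1) → ℝ) i * τ - x i) (schurCubic A m l)
      = fcub s (x 0) (bil A e' e') (bil A e' (fun i => x i.succ)) (bil A (fun i => x i.succ)
          (fun i => x i.succ)) (fun j => lf (m j) e') (fun j => lf (m j) (fun i => x i.succ))
          (fun j => lf (l j) e') (fun j => lf (l j) (fun i => x i.succ)) τ := by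
  have hcomp : ((fun i => (Fin.cons s e' : Fin (N + 1) → ℝ) i * τ - x i) ∘ Fin.succ)
      = fun i => e' i * τ - x i.succ := by
    funext i; simp
  simp only [schurCubic, fcub, map_sub, map_mul, map_sum, map_pow, eval_X, eval_rename, hcomp,
    eval_line_quadPoly hA, eval_line_linPoly, Fin.cons_zero]

theorem aeval_line_schurCubic {N J : ℕ} {A : Matrix (Fin N) (Fin N) ℝ} (hA : A.IsSymm)
    (m l : Fin J → Fin N → ℝ) (s : ℝ) (e' : Fin N → ℝ) (x : Fin (N + 1) → ℝ) (z : ℂ) :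
    aeval (fun i => ((Fin.cons s e' : Fin (N + 1) → ℝ) i : ℂ) * z - (x i : ℂ)) (schurCubic A m l)
      = ((s : ℂ) * z - (x 0 : ℂ)) * ((bil A e' e' : ℂ) * z ^ 2
            - 2 * (bil A e' (fun i => x i.succ) : ℂ) * z
            + (bil A (fun i => x i.succ) (fun i => x i.succ) : ℂ))
        - ∑ j, ((lf (m j) e' : ℂ) * z - (lf (m j) (fun i => x i.succ) : ℂ)) ^ 2
            * ((lf (l j) e' : ℂ) * z - (lf (l j) (fun i => x i.succ) : ℂ)) := by
  have hcomp : ((fun i => ((Fin.cons s e' : Fin (N + 1) → ℝ) i : ℂ) * z - (x i : ℂ)) ∘ Fin.succ)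
      = fun i => (e' i : ℂ) * z - ((x i.succ : ℝ) : ℂ) := by
    funext i; simp
  simp only [schurCubic, map_sub, map_mul, map_sum, map_pow, aeval_X, aeval_rename, hcomp,
    aeval_line_quadPoly hA, aeval_line_linPoly, Fin.cons_zero]

theorem eval_schurCubic_dir {N J : ℕ} (A : Matrix (Fin N) (Fin N) ℝ)
    (m l : Fin J → Fin N → ℝ) (s : ℝ) (e' : Fin N → ℝ) :
    eval (Fin.cons s e' : Fin (N + 1) → ℝ) (schurCubic A m l)
      = s * bil A e' e' - ∑ j, lf (m j) e' ^ 2 * lf (l j) e' := by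
  have hcomp : ((Fin.cons s e' : Fin (N + 1) → ℝ) ∘ Fin.succ) = e' := by
    funext i; simp
  simp only [schurCubic, map_sub, map_mul, map_sum, map_pow, eval_X, eval_rename, hcomp,
    eval_quadPoly, eval_linPoly, Fin.cons_zero]

theorem quadPoly_isHomogeneous {N : ℕ} (A : Matrix (Fin N) (Fin N) ℝ) :
    (quadPoly A).IsHomogeneous 2 := by
  apply IsHomogeneous.sum
  intro i _
  apply IsHomogeneous.sum
  intro k _
  have h1 : (C (A i k) * X i : MvPolynomial (Fin N) ℝ).IsHomogeneous 1 :=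
    isHomogeneous_C_mul_X _ _
  exact h1.mul (isHomogeneous_X ℝ k)

theorem linPoly_isHomogeneous {N : ℕ} (c : Fin N → ℝ) : (linPoly c).IsHomogeneous 1 := by
  apply IsHomogeneous.sum
  intro i _
  exact isHomogeneous_C_mul_X _ _

theorem schurCubic_isHomogeneous {N J : ℕ} (A : Matrix (Fin N) (Fin N) ℝ)
    (m l : Fin J → Fin N → ℝ) : (schurCubic A m l).IsHomogeneous 3 := by
  have h1 : (X 0 * rename Fin.succ (quadPoly A) : MvPolynomial (Fin (N + 1)) ℝ).IsHomogeneous
      (1 + 2) :=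
    (isHomogeneous_X ℝ 0).mul (quadPoly_isHomogeneous A).rename_isHomogeneous
  have h2 : (∑ j, (rename Fin.succ (linPoly (m j))) ^ 2 * rename Fin.succ (linPoly (l j))
      : MvPolynomial (Fin (N + 1)) ℝ).IsHomogeneous 3 := by
    apply IsHomogeneous.sum
    intro j _
    have ha : (rename Fin.succ (linPoly (m j)) : MvPolynomial (Fin (N + 1)) ℝ).IsHomogeneous 1 :=
      (linPoly_isHomogeneous (m j)).rename_isHomogeneous
    have hb : (rename Fin.succ (linPoly (l j)) : MvPolynomial (Fin (N + 1)) ℝ).IsHomogeneous 1 :=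
      (linPoly_isHomogeneous (l j)).rename_isHomogeneous
    exact (ha.pow 2).mul hb
  exact (homogeneousSubmodule (Fin (N + 1)) ℝ 3).sub_mem h1 h2

/-! ### Consequences of the hypotheses -/

theorem lf_add_smul {N : ℕ} (c y e : Fin N → ℝ) (σ : ℝ) :
    lf c (y + σ • e) = lf c y + σ * lf c e := by
  simp only [lf, Pi.add_apply, Pi.smul_apply, smul_eq_mul, Finset.mul_sum,
    ← Finset.sum_add_distrib]
  refine Finset.sum_congr rfl fun i _ => ?_
  ring

theorem lf_neg {N : ℕ} (c y : Fin N → ℝ) : lf c (-y) = - lf c y := by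
  simp [lf]

theorem kappa_pos_of_hyp {N : ℕ} {A : Matrix (Fin N) (Fin N) ℝ} {e' : Fin N → ℝ}
    (hq : IsHyperbolic (quadPoly A) e') : 0 < bil A e' e' := by
  have := hq.2.1
  rwa [eval_quadPoly] at this

theorem rcs_of_hyp {N : ℕ} {A : Matrix (Fin N) (Fin N) ℝ} (hA : A.IsSymm) {e' : Fin N → ℝ}
    (hq : IsHyperbolic (quadPoly A) e') (y : Fin N → ℝ) :
    bil A e' e' * bil A y y ≤ bil A e' y ^ 2 := by
  apply rcs_of_real_roots _ _ _ (kappa_pos_of_hyp hq)
  intro z hz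
  apply hq.2.2 y z
  rw [lineRestrict_aeval, aeval_line_quadPoly hA]
  exact hz

theorem mem_hypCone_quadPoly {N : ℕ} {A : Matrix (Fin N) (Fin N) ℝ} (hA : A.IsSymm)
    {e' : Fin N → ℝ} (hq : IsHyperbolic (quadPoly A) e') (y : Fin N → ℝ) :
    y ∈ hypCone (quadPoly A) e' ↔ 0 ≤ bil A e' y ∧ 0 ≤ bil A y y := by
  rw [← quad_roots_nonneg_iff (bil A e' e') (bil A e' y) (bil A y y) (kappa_pos_of_hyp hq)
    (rcs_of_hyp hA hq y)]
  simp only [hypCone, Set.mem_ofPred_eq, lineRestrict_eval, eval_line_quadPoly hA]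

theorem lam_nonneg_of_hyp {N : ℕ} {A : Matrix (Fin N) (Fin N) ℝ} (hA : A.IsSymm)
    {e' : Fin N → ℝ} (hq : IsHyperbolic (quadPoly A) e') (l : Fin N → ℝ)
    (hl : ∀ y ∈ hypCone (quadPoly A) e', 0 ≤ lf l y) : 0 ≤ lf l e' := by
  apply hl
  rw [mem_hypCone_quadPoly hA hq]
  exact ⟨(kappa_pos_of_hyp hq).le, (kappa_pos_of_hyp hq).le⟩

theorem h5_of_hyp {N : ℕ} {A : Matrix (Fin N) (Fin N) ℝ} (hA : A.IsSymm)
    {e' : Fin N → ℝ} (hq : IsHyperbolic (quadPoly A) e') (l : Fin N → ℝ)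
    (hl : ∀ y ∈ hypCone (quadPoly A) e', 0 ≤ lf l y) (y : Fin N → ℝ) (σ : ℝ)
    (h1 : 0 ≤ bil A e' y + bil A e' e' * σ)
    (h2 : 0 ≤ bil A y y + 2 * bil A e' y * σ + bil A e' e' * σ ^ 2) :
    0 ≤ lf l y + σ * lf l e' := by
  rw [← lf_add_smul]
  apply hl
  rw [mem_hypCone_quadPoly hA hq]
  simp only [bil_add_left, bil_add_right, bil_smul_left, bil_smul_right]
  rw [bil_comm hA y e']
  constructor
  · linarith
  · nlinarith [h2]

theorem h4_of_hyp {N : ℕ} {A : Matrix (Fin N) (Fin N) ℝ} (hA : A.IsSymm)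
    {e' : Fin N → ℝ} (hq : IsHyperbolic (quadPoly A) e') (l : Fin N → ℝ)
    (hl : ∀ y ∈ hypCone (quadPoly A) e', 0 ≤ lf l y) (y : Fin N → ℝ) :
    bil A e' e' * lf l y ^ 2 - 2 * bil A e' y * lf l e' * lf l y + bil A y y * lf l e' ^ 2 ≤ 0 := by
  apply key_ineq_of_nonneg _ _ _ _ _ (kappa_pos_of_hyp hq) (rcs_of_hyp hA hq y)
    (lam_nonneg_of_hyp hA hq l hl)
  · intro σ h1 h2
    exact h5_of_hyp hA hq l hl y σ h1 h2
  · intro σ h1 h2
    have hb : bil A e' (-y) = - bil A e' y := by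
      have : -y = (-1 : ℝ) • y := by simp
      rw [this, bil_smul_right]; ring
    have hc : bil A (-y) (-y) = bil A y y := by
      have : -y = (-1 : ℝ) • y := by simp
      rw [this, bil_smul_right, bil_smul_left]; ring
    have := h5_of_hyp hA hq l hl (-y) σ (by rw [hb]; exact h1)
      (by rw [hb, hc]; have e : bil A y y + 2 * -bil A e' y * σ + bil A e' e' * σ ^ 2
            = bil A y y - 2 * bil A e' y * σ + bil A e' e' * σ ^ 2 := by ring
          rw [e]; exact h2)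
    rw [lf_neg] at this
    exact this

end Vale.Agent.H69
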