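import Vale.Agent.H69.Intrinsic

/-!
# Frames for Hessian forms of rank one and two

Linear algebra for the symmetric bilinear form `B(u, v) = tri T a u v` at a singular point `a`:
if its matrix has rank one, the radical is the hyperplane orthogonal to `e`; if it has rank two
(and the form is positive at `e`, nonpositive on the hyperplane orthogonal to `e`), there is a
vector `g` with `B(e, g) = 0`, `B(g, g) = -1` such that the radical is the common kernel of
`B(e, ·)` and `B(g, ·)`.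
-/

namespace Vale.Agent.H69

open Module

section Abstract

variable {V : Type*} [AddCommGroup V] [Module ℝ V]

/-- Rank one: the radical is the hyperplane orthogonal to `e`. -/
theorem frame1_abstract [FiniteDimensional ℝ V] (m : ℕ) (hV : finrank ℝ V = m + 1)
    (B : V →ₗ[ℝ] V →ₗ[ℝ] ℝ) (hsymm : ∀ u v, B u v = B v u)
    (K : Submodule ℝ V) (hK : ∀ w, w ∈ K ↔ ∀ y, B w y = 0) (hKrank : finrank ℝ K = m)
    (e : V) (hQ : 0 < B e e) : ∀ w, B e w = 0 → w ∈ K := by
  have hsurj : Function.Surjective (B e) := by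
    intro t
    refine ⟨(t / B e e) • e, ?_⟩
    rw [map_smul, smul_eq_mul]
    field_simp
  have hker : finrank ℝ (LinearMap.ker (B e)) = m := by
    have h2 := LinearMap.finrank_range_add_finrank_ker (B e)
    rw [LinearMap.range_eq_top.mpr hsurj, finrank_top, Module.finrank_self] at h2
    omega
  have hle : K ≤ LinearMap.ker (B e) := by
    intro w hw
    rw [LinearMap.mem_ker, hsymm]
    exact (hK w).mp hw e
  have hKeq : K = LinearMap.ker (B e) := Submodule.eq_of_le_of_finrank_eq hle (by omega)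
  intro w hw
  rw [hKeq, LinearMap.mem_ker]
  exact hw

/-- Rank two: a negative unit vector `g` orthogonal to `e` such that the radical is the common
kernel of `B e` and `B g`. -/
theorem frame2_abstract [FiniteDimensional ℝ V] (m : ℕ) (hV : finrank ℝ V = m + 2)
    (B : V →ₗ[ℝ] V →ₗ[ℝ] ℝ) (hsymm : ∀ u v, B u v = B v u)
    (K : Submodule ℝ V) (hK : ∀ w, w ∈ K ↔ ∀ y, B w y = 0) (hKrank : finrank ℝ K = m)
    (e : V) (hQ : 0 < B e e) (hneg : ∀ v, B e v = 0 → B v v ≤ 0) :
    ∃ g : V, B e g = 0 ∧ B g g = -1 ∧ ∀ w, B e w = 0 → B g w = 0 → w ∈ K := by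
  have hcs := fun w hw hww y => Vale.Agent.H54.lnf_radical B hsymm e hQ hneg w hw hww y
  have hR1 : finrank ℝ ℝ = 1 := Module.finrank_self ℝ
  obtain ⟨w1, hw1e, hw1K⟩ : ∃ w, B e w = 0 ∧ w ∉ K := by
    by_contra hcon
    have hle : LinearMap.ker (B e) ≤ K := by
      intro w hw
      by_contra hwK
      exact hcon ⟨w, LinearMap.mem_ker.mp hw, hwK⟩
    have h1 := Submodule.finrank_mono hle
    have h2 := LinearMap.finrank_range_add_finrank_ker (B e)
    have h3 : finrank ℝ (LinearMap.range (B e)) ≤ 1 := by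
      have := Submodule.finrank_le (LinearMap.range (B e))
      rw [hR1] at this
      exact this
    omega
  have hw1neg : B w1 w1 < 0 := by
    rcases lt_or_eq_of_le (hneg w1 hw1e) with h | h
    · exact h
    · exact absurd ((hK w1).mpr (hcs w1 hw1e h)) hw1K
  obtain ⟨g, ⟨t1, ht1⟩, hgg⟩ := Vale.Agent.H54.lnf_normalise B w1 hw1neg
  have heg : B e g = 0 := by
    rw [ht1]; simp only [map_smul, smul_eq_mul, hw1e, mul_zero]
  have hge : B g e = 0 := by rw [hsymm]; exact heg
  refine ⟨g, heg, hgg, ?_⟩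
  set Φ : V →ₗ[ℝ] ℝ × ℝ := (B e).prod (B g) with hΦ
  have hΦapp : ∀ x, Φ x = (B e x, B g x) := fun x => rfl
  have hsurj : Function.Surjective Φ := by
    rintro ⟨t, s⟩
    refine ⟨(t / B e e) • e - s • g, ?_⟩
    rw [hΦapp]
    simp only [map_sub, map_smul, smul_eq_mul, heg, hge, hgg, Prod.mk.injEq]
    refine ⟨by field_simp; ring, by ring⟩
  have hker : finrank ℝ (LinearMap.ker Φ) = m := by
    have h2 := LinearMap.finrank_range_add_finrank_ker Φ
    rw [LinearMap.range_eq_top.mpr hsurj, finrank_top, Module.finrank_prod, hR1] at h2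
    omega
  have hle : K ≤ LinearMap.ker Φ := by
    intro w hw
    have h0 : ∀ u, B u w = 0 := fun u => by rw [hsymm]; exact (hK w).mp hw u
    rw [LinearMap.mem_ker, hΦapp]
    simp only [h0, Prod.mk_eq_zero, and_self]
  have hKeq : K = LinearMap.ker Φ := Submodule.eq_of_le_of_finrank_eq hle (by omega)
  intro w h1 h2
  rw [hKeq, LinearMap.mem_ker, hΦapp]
  simp only [h1, h2, Prod.mk_eq_zero, and_self]

end Abstract

section Tri

open Matrix

variable {n : ℕ} (T : Fin n → Fin n → Fin n → ℝ)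
  (h12 : ∀ i j l, T i j l = T j i l) (h23 : ∀ i j l, T i j l = T i l j) (a e : Fin n → ℝ)

include h12 h23

/-- The bilinear form of `hessM T a`, its symmetry and its radical, in the language of `tri`. -/
theorem hess_bilin :
    ∃ (B : (Fin n → ℝ) →ₗ[ℝ] (Fin n → ℝ) →ₗ[ℝ] ℝ) (K : Submodule ℝ (Fin n → ℝ)),
      (∀ u v, B u v = tri T a u v) ∧ (∀ u v, B u v = B v u) ∧
      (∀ w, w ∈ K ↔ ∀ y, B w y = 0) ∧
      finrank ℝ K + (hessM T a).rank = n := by
  classical
  set S : Matrix (Fin n) (Fin n) ℝ := hessM T a with hS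
  have hSsymm : S.IsSymm := hessM_isSymm h12 a
  have hxya : ∀ x y : Fin n → ℝ, tri T x y a = tri T a x y := by
    intro x y
    rw [tri_swap23 h23 x y a, tri_swap12 h12 x a y]
  obtain ⟨B, hBapp⟩ : ∃ B : (Fin n → ℝ) →ₗ[ℝ] (Fin n → ℝ) →ₗ[ℝ] ℝ,
      ∀ u v, B u v = u ⬝ᵥ S *ᵥ v :=
    ⟨Matrix.toBilin' S, fun u v => Matrix.toBilin'_apply' S u v⟩
  have hBtri : ∀ u v, B u v = tri T a u v := by
    intro u v
    rw [hBapp, hS, dot_hessM, hxya]
  have hsymm : ∀ u v, B u v = B v u := by
    intro u v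
    rw [hBtri, hBtri, tri_swap23 h23]
  obtain ⟨K, hKmem⟩ : ∃ K : Submodule ℝ (Fin n → ℝ), K = LinearMap.ker S.mulVecLin :=
    ⟨_, rfl⟩
  have hKmem' : ∀ w, w ∈ K ↔ S *ᵥ w = 0 := fun w => by
    rw [hKmem, LinearMap.mem_ker, Matrix.mulVecLin_apply]
  have hK : ∀ w, w ∈ K ↔ ∀ y, B w y = 0 := by
    intro w
    rw [hKmem']
    constructor
    · intro hw y
      rw [hsymm, hBapp, hw, dotProduct_zero]
    · intro h
      have h1 := h (S *ᵥ w)
      rw [hsymm, hBapp] at h1
      exact dotProduct_self_eq_zero.mp h1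
  refine ⟨B, K, hBtri, hsymm, hK, ?_⟩
  have h2 := LinearMap.finrank_range_add_finrank_ker S.mulVecLin
  have h3 : finrank ℝ (LinearMap.range S.mulVecLin) = S.rank := rfl
  rw [h3, Module.finrank_fintype_fun_eq_card, Fintype.card_fin, ← hKmem] at h2
  omega

/-- Rank one: the radical of the Hessian form is the hyperplane orthogonal to `e`. -/
theorem tri_frame1 (hrank : (hessM T a).rank = 1) (hQ : 0 < tri T a e e) :
    ∀ w : Fin n → ℝ, tri T a e w = 0 → ∀ y : Fin n → ℝ, tri T a w y = 0 := by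
  obtain ⟨B, K, hBtri, hsymm, hK, hdim⟩ := hess_bilin T h12 h23 a
  rw [hrank] at hdim
  have hV : finrank ℝ (Fin n → ℝ) = finrank ℝ K + 1 := by
    rw [Module.finrank_fintype_fun_eq_card, Fintype.card_fin]
    omega
  have key := frame1_abstract (finrank ℝ K) hV B hsymm K hK rfl e (by rw [hBtri]; exact hQ)
  intro w hw y
  have hwK := key w (by rw [hBtri]; exact hw)
  have := (hK w).mp hwK y
  rw [hBtri] at this
  exact this

/-- Rank two: a frame vector `g`. -/
theorem tri_frame2 (hrank : (hessM T a).rank = 2) (hQ : 0 < tri T a e e)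
    (hneg : ∀ v : Fin n → ℝ, tri T a e v = 0 → tri T a v v ≤ 0) :
    ∃ g : Fin n → ℝ, tri T a e g = 0 ∧ tri T a g g = -1 ∧
      ∀ w : Fin n → ℝ, tri T a e w = 0 → tri T a g w = 0 → ∀ y : Fin n → ℝ, tri T a w y = 0 := by
  obtain ⟨B, K, hBtri, hsymm, hK, hdim⟩ := hess_bilin T h12 h23 a
  rw [hrank] at hdim
  have hV : finrank ℝ (Fin n → ℝ) = finrank ℝ K + 2 := by
    rw [Module.finrank_fintype_fun_eq_card, Fintype.card_fin]
    omega
  obtain ⟨g, heg, hgg, hg⟩ := frame2_abstract (finrank ℝ K) hV B hsymm K hK rfl e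
    (by rw [hBtri]; exact hQ) (fun v hv => by rw [hBtri] at hv ⊢; exact hneg v hv)
  rw [hBtri] at heg hgg
  refine ⟨g, heg, hgg, ?_⟩
  intro w hw1 hw2 y
  have hwK := hg w (by rw [hBtri]; exact hw1) (by rw [hBtri]; exact hw2)
  have := (hK w).mp hwK y
  rw [hBtri] at this
  exact this

end Tri

end Vale.Agent.H69
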