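import Vale.Agent.H69.Tensor
import Vale.Agent.H57.CubicPencil
import Vale.Agent.H89.P256.CubicHessian
import Vale.Agent.H54.LorentzNormalForm
import Vale.Agent.H39.NodeLocalization

/-!
# External lemmas for the intrinsic rank-three node theorem

Thin wrappers around lemmas proved by other seats of the team:

* `lorentz_normal_form` (helper54): normal form of a rank-three symmetric matrix of Lorentz
  signature, adapted to a kernel vector;
* `pderiv_cubic_eval`, `pderiv_pderiv_cubic_eval` (helper89): gradient and Hessian of a cubic form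
  given by a symmetric tensor;
* `node_localization` (helper39): at a singular point `a` of a hyperbolic cubic, the quadratic form
  `v ↦ T(a, v, v)` is nonzero at the hyperbolicity direction and satisfies a reverse
  Cauchy-Schwarz inequality.
-/

namespace Vale.Agent.H69

open Matrix in
theorem lorentz_normal_form (k : ℕ) (S : Matrix (Fin (k + 4)) (Fin (k + 4)) ℝ) (hS : S.IsSymm)
    (hrank : S.rank = 3) (a e : Fin (k + 4) → ℝ) (ha : a ≠ 0) (hSa : S *ᵥ a = 0)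
    (hQ : 0 < e ⬝ᵥ S *ᵥ e)
    (hneg : ∀ v : Fin (k + 4) → ℝ, e ⬝ᵥ S *ᵥ v = 0 → v ⬝ᵥ S *ᵥ v ≤ 0) :
    ∃ L M : Matrix (Fin (k + 4)) (Fin (k + 4)) ℝ, L * M = 1 ∧ M * L = 1 ∧
      L *ᵥ a = Pi.single 0 1 ∧ 0 < (L *ᵥ e) 2 ∧
      ∀ x : Fin (k + 4) → ℝ, x ⬝ᵥ S *ᵥ x = (L *ᵥ x) 2 * (L *ᵥ x) 3 - (L *ᵥ x) 1 ^ 2 :=
  Vale.Agent.H54.lorentz_normal_form k S hS hrank a e ha hSa hQ hneg

theorem pderiv_cubic_eval {N : ℕ} (T : Fin N → Fin N → Fin N → ℝ)
    (h12 : ∀ i j l, T i j l = T j i l) (h23 : ∀ i j l, T i j l = T i l j) (a : Fin N → ℝ)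
    (i : Fin N) :
    MvPolynomial.eval a (MvPolynomial.pderiv i (∑ j, ∑ l, ∑ m,
      MvPolynomial.C (T j l m) * MvPolynomial.X j * MvPolynomial.X l * MvPolynomial.X m))
      = 3 * ∑ l, ∑ m, T i l m * a l * a m :=
  Vale.Agent.H89.pderiv_cubic_eval T h12 h23 a i

theorem pderiv_pderiv_cubic_eval {N : ℕ} (T : Fin N → Fin N → Fin N → ℝ)
    (h12 : ∀ i j l, T i j l = T j i l) (h23 : ∀ i j l, T i j l = T i l j) (a : Fin N → ℝ)
    (i j : Fin N) :
    MvPolynomial.eval a (MvPolynomial.pderiv i (MvPolynomial.pderiv j (∑ j', ∑ l, ∑ m,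
      MvPolynomial.C (T j' l m) * MvPolynomial.X j' * MvPolynomial.X l * MvPolynomial.X m)))
      = 6 * ∑ m, T i j m * a m :=
  Vale.Agent.H89.pderiv_pderiv_cubic_eval T h12 h23 a i j

theorem node_localization {N : ℕ} (T : Fin N → Fin N → Fin N → ℝ)
    (h12 : ∀ i j l, T i j l = T j i l) (h23 : ∀ i j l, T i j l = T i l j) (e a : Fin N → ℝ)
    (hpe : 0 < tri T e e e)
    (hroots : ∀ x : Fin N → ℝ, ∀ z : ℂ,
      tri (fun i j l => (T i j l : ℂ)) (fun i => (e i : ℂ) * z - (x i : ℂ))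
        (fun i => (e i : ℂ) * z - (x i : ℂ)) (fun i => (e i : ℂ) * z - (x i : ℂ)) = 0 → z.im = 0)
    (ha : ∀ v : Fin N → ℝ, tri T a a v = 0) (hw : ∃ w : Fin N → ℝ, tri T a w w ≠ 0) :
    tri T a e e ≠ 0 ∧ ∀ v : Fin N → ℝ, tri T a e e * tri T a v v ≤ 2 * (tri T a e v) ^ 2 :=
  Vale.Agent.H39.node_localization T h12 h23 e a hpe hroots ha hw

end Vale.Agent.H69
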