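import Vale.Agent.H69.Pullback3
import Vale.Agent.H69.T3Ext2

/-!
# Hyperbolic cubics with a singular point whose Hessian has rank three
-/

namespace Vale.Agent.H69

open MvPolynomial Matrix

variable {N : ℕ}

/-- The matrix of the bilinear form `(x, y) ↦ tri T x y a`: one sixth of the Hessian of the cubic
form of `T` at `a`. -/
def hessM (T : Fin N → Fin N → Fin N → ℝ) (a : Fin N → ℝ) : Matrix (Fin N) (Fin N) ℝ :=
  Matrix.of fun i j => ∑ m, T i j m * a m

theorem dot_hessM (T : Fin N → Fin N → Fin N → ℝ) (a x y : Fin N → ℝ) :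
    x ⬝ᵥ hessM T a *ᵥ y = tri T x y a := by
  simp only [dotProduct, mulVec, hessM, Matrix.of_apply, tri, Finset.mul_sum, Finset.sum_mul]
  refine Finset.sum_congr rfl fun i _ => Finset.sum_congr rfl fun j _ =>
    Finset.sum_congr rfl fun m _ => ?_
  ring

theorem hessM_isSymm {T : Fin N → Fin N → Fin N → ℝ} (h12 : ∀ i j l, T i j l = T j i l)
    (a : Fin N → ℝ) : (hessM T a).IsSymm := by
  ext i j
  simp only [Matrix.transpose_apply, hessM, Matrix.of_apply]
  exact Finset.sum_congr rfl fun m _ => by rw [h12 j i m]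

theorem hessM_smul (T : Fin N → Fin N → Fin N → ℝ) (s : ℝ) (a : Fin N → ℝ) :
    hessM T (s • a) = s • hessM T a := by
  ext i j
  simp only [hessM, Matrix.of_apply, Matrix.smul_apply, Pi.smul_apply, smul_eq_mul,
    Finset.mul_sum]
  exact Finset.sum_congr rfl fun m _ => by ring

theorem tri_eq_sum_left (T : Fin N → Fin N → Fin N → ℝ) (v b c : Fin N → ℝ) :
    tri T v b c = ∑ i, v i * ∑ j, ∑ l, T i j l * b j * c l := by
  unfold tri
  refine Finset.sum_congr rfl fun i _ => ?_
  rw [Finset.mul_sum]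
  refine Finset.sum_congr rfl fun j _ => ?_
  rw [Finset.mul_sum]
  refine Finset.sum_congr rfl fun l _ => ?_
  ring

/-- A kernel vector forces the size to be at least one more than the rank. -/
theorem four_le_of_rank_three {n : ℕ} (S : Matrix (Fin n) (Fin n) ℝ) (hrank : S.rank = 3)
    (a : Fin n → ℝ) (ha : a ≠ 0) (hSa : S *ᵥ a = 0) : 4 ≤ n := by
  have h1 := LinearMap.finrank_range_add_finrank_ker S.mulVecLin
  have h2 : Module.finrank ℝ (LinearMap.range S.mulVecLin) = 3 := hrank
  have h3 : 0 < Module.finrank ℝ (LinearMap.ker S.mulVecLin) := by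
    rw [Module.finrank_pos_iff_exists_ne_zero]
    refine ⟨⟨a, ?_⟩, ?_⟩
    · rw [LinearMap.mem_ker]
      exact hSa
    · intro h
      apply ha
      exact congrArg Subtype.val h
  rw [Module.finrank_fin_fun] at h1
  omega

/-- The core of the intrinsic theorem, after normalising the sign of the singular point. -/
theorem cubic_node_shadow_aux {k : ℕ} (T : Fin (k + 4) → Fin (k + 4) → Fin (k + 4) → ℝ)
    (h12 : ∀ i j l, T i j l = T j i l) (h23 : ∀ i j l, T i j l = T i l j)
    (e a : Fin (k + 4) → ℝ) (hyp : IsHyperbolic (cubPoly T) e)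
    (ha : ∀ v : Fin (k + 4) → ℝ, tri T a a v = 0) (hrank : (hessM T a).rank = 3)
    (hQ : 0 < tri T a e e)
    (hloc : ∀ v : Fin (k + 4) → ℝ, tri T a e e * tri T a v v ≤ 2 * (tri T a e v) ^ 2) :
    IsSpectrahedralShadow (hypCone (cubPoly T) e) := by
  -- symmetric reorderings
  have hxya : ∀ x y : Fin (k + 4) → ℝ, tri T x y a = tri T a x y := by
    intro x y
    rw [tri_swap23 h23 x y a, tri_swap12 h12 x a y]
  have ha1 : ∀ v : Fin (k + 4) → ℝ, tri T a v a = 0 := by
    intro v
    rw [tri_swap23 h23 a v a]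
    exact ha v
  have ha2 : ∀ v : Fin (k + 4) → ℝ, tri T v a a = 0 := by
    intro v
    rw [tri_swap12 h12 v a a]
    exact ha1 v
  have hane : a ≠ 0 := by
    rintro rfl
    have h0 : hessM T (0 : Fin (k + 4) → ℝ) = 0 := by
      ext i j
      simp [hessM]
    rw [h0, Matrix.rank_zero] at hrank
    exact absurd hrank (by norm_num)
  set S : Matrix (Fin (k + 4)) (Fin (k + 4)) ℝ := (3 : ℝ) • hessM T a with hSdef
  have hdot : ∀ x y : Fin (k + 4) → ℝ, x ⬝ᵥ S *ᵥ y = 3 * tri T a x y := by
    intro x y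
    rw [hSdef, Matrix.smul_mulVec, dotProduct_smul, dot_hessM, hxya, smul_eq_mul]
  have hSsymm : S.IsSymm := (hessM_isSymm h12 a).smul 3
  have hSrank : S.rank = 3 := by
    rw [hSdef, Matrix.rank_smul_of_mem_nonZeroDivisors _
      (mem_nonZeroDivisors_of_ne_zero (by norm_num : (3 : ℝ) ≠ 0))]
    exact hrank
  have hSa : S *ᵥ a = 0 := by
    apply dotProduct_eq_zero
    intro w
    rw [dotProduct_comm, hdot, ha1, mul_zero]
  have hSQ : 0 < e ⬝ᵥ S *ᵥ e := by
    rw [hdot]
    linarith
  have hSneg : ∀ v : Fin (k + 4) → ℝ, e ⬝ᵥ S *ᵥ v = 0 → v ⬝ᵥ S *ᵥ v ≤ 0 := by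
    intro v hv
    rw [hdot] at hv ⊢
    have hB : tri T a e v = 0 := by linarith
    have h1 := hloc v
    rw [hB] at h1
    have h2 : tri T a v v ≤ 0 := by
      by_contra hcon
      push Not at hcon
      have := mul_pos hQ hcon
      linarith
    linarith
  obtain ⟨L, M, hLM, hML, hLa, hLe2, hquad⟩ :=
    lorentz_normal_form k S hSsymm hSrank a e hane hSa hSQ hSneg
  have hlf : ∀ (i : Fin (k + 4)) (x : Fin (k + 4) → ℝ), lf (L i) x = (L *ᵥ x) i := fun i x => rfl
  have haM : a = M *ᵥ Pi.single 0 1 := by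
    rw [← hLa, Matrix.mulVec_mulVec, hML, Matrix.one_mulVec]
  -- the cubic in the remaining variables
  set c : MvPolynomial (Fin (k + 3)) ℝ :=
    -(aeval (fun i' : Fin (k + 4) => linPoly (fun i : Fin (k + 3) => M i' i.succ)) (cubPoly T))
    with hcdef
  have hc : c.IsHomogeneous 3 := by
    rw [hcdef]
    have h1 : (cubPoly T).IsHomogeneous 3 := by
      unfold cubPoly
      refine IsHomogeneous.sum _ _ _ fun i _ => IsHomogeneous.sum _ _ _ fun j _ =>
        IsHomogeneous.sum _ _ _ fun l _ => ?_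
      have h0 : (C (T i j l) : MvPolynomial (Fin (k + 4)) ℝ).IsHomogeneous 0 := isHomogeneous_C _ _
      exact ((h0.mul (isHomogeneous_X _ i)).mul (isHomogeneous_X _ j)).mul (isHomogeneous_X _ l)
    have h2 := h1.aeval (S := ℝ)
      (fun i' : Fin (k + 4) => linPoly (fun i : Fin (k + 3) => M i' i.succ))
      (n := 1) (fun i' => linPoly_isHomogeneous _)
    exact h2.neg
  have hceval : ∀ y : Fin (k + 3) → ℝ, eval y c
      = - tri T (fun i' => lf (fun i : Fin (k + 3) => M i' i.succ) y)
          (fun i' => lf (fun i : Fin (k + 3) => M i' i.succ) y)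
          (fun i' => lf (fun i : Fin (k + 3) => M i' i.succ) y) := by
    intro y
    rw [hcdef, map_neg, ← aeval_eq_eval, comp_aeval_apply, aeval_eq_eval, eval_cubPoly]
    simp only [aeval_eq_eval, eval_linPoly]
  refine nodeCubic_pullback_shadow c hc (fun i => L i) ?_ (cubPoly T) ?_ e ?_ ?_ hyp
  · intro v
    refine ⟨M *ᵥ v, fun i => ?_⟩
    rw [hlf, Matrix.mulVec_mulVec, hLM, Matrix.one_mulVec]
  · intro x
    rw [eval_cubPoly, hceval]
    simp only [hlf]
    set s : ℝ := (L *ᵥ x) 0 with hs
    set w : Fin (k + 4) → ℝ := x - s • a with hw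
    have hN : (fun i' : Fin (k + 4) => lf (fun i : Fin (k + 3) => M i' i.succ)
        (fun i : Fin (k + 3) => (L *ᵥ x) i.succ)) = w := by
      funext i'
      have h1 : x i' = (M *ᵥ (L *ᵥ x)) i' := by
        rw [Matrix.mulVec_mulVec, hML, Matrix.one_mulVec]
      have h2 : (M *ᵥ (L *ᵥ x)) i' = M i' 0 * (L *ᵥ x) 0
          + ∑ i : Fin (k + 3), M i' i.succ * (L *ᵥ x) i.succ := by
        simp only [Matrix.mulVec, dotProduct]
        rw [Fin.sum_univ_succ]
      have h3 : a i' = M i' 0 := by
        rw [haM]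
        simp
      simp only [hw, Pi.sub_apply, Pi.smul_apply, smul_eq_mul, lf]
      rw [h1, h2, h3, hs]
      ring
    rw [hN]
    have hx : x = s • a + w := by
      rw [hw]
      abel
    have h4 : tri T x x x = 3 * s * tri T a w w + tri T w w w := by
      conv_lhs => rw [hx]
      rw [tri_add_cube h12 h23]
      simp only [tri_smul_left, tri_smul_mid, tri_smul_right]
      rw [ha a, ha w]
      ring
    have h5 : tri T a w w = tri T a x x := by
      rw [hw]
      simp only [sub_eq_add_neg, tri_add_mid, tri_add_right, ← neg_smul, tri_smul_mid,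
        tri_smul_right]
      rw [ha a, ha1 x, ha x]
      ring
    have h6 := hquad x
    rw [hdot] at h6
    rw [h4, h5]
    linear_combination s * h6
  · exact hLe2
  · have h6 := hquad e
    rw [hdot] at h6
    simp only [hlf]
    linarith

/-- **Hyperbolic cubics with a rank-three double point.**  Let `p` be a cubic form in `n`
variables that is hyperbolic with respect to `e`.  If `p` has a singular point `a` (all first
partial derivatives vanish at `a`) at which the Hessian matrix of `p` has rank three, then the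
closed hyperbolicity cone of `p` is a spectrahedral shadow. -/
theorem cubic_node_shadow (n : ℕ) (p : MvPolynomial (Fin n) ℝ) (hp3 : p.IsHomogeneous 3)
    (e a : Fin n → ℝ) (hyp : IsHyperbolic p e)
    (hgrad : ∀ i, eval a (pderiv i p) = 0)
    (hH : (Matrix.of fun i j => eval a (pderiv i (pderiv j p))).rank = 3) :
    IsSpectrahedralShadow (hypCone p e) := by
  obtain ⟨T, h12, h23, rfl⟩ := exists_symm_tensor p hp3
  have hyp' : IsHyperbolic (cubPoly T) e := hyp
  change IsSpectrahedralShadow (hypCone (cubPoly T) e)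
  have hgrad' : ∀ i, ∑ l, ∑ m, T i l m * a l * a m = 0 := by
    intro i
    have h := hgrad i
    rw [pderiv_cubic_eval T h12 h23 a i] at h
    linarith
  have hHess : (Matrix.of fun i j => eval a (pderiv i (pderiv j (∑ i, ∑ j, ∑ l,
      C (T i j l) * X i * X j * X l)))) = (6 : ℝ) • hessM T a := by
    ext i j
    rw [Matrix.of_apply, pderiv_pderiv_cubic_eval T h12 h23 a i j]
    simp [hessM]
  have hrank : (hessM T a).rank = 3 := by
    rw [hHess, Matrix.rank_smul_of_mem_nonZeroDivisors _
      (mem_nonZeroDivisors_of_ne_zero (by norm_num : (6 : ℝ) ≠ 0))] at hH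
    exact hH
  have ha2 : ∀ v : Fin n → ℝ, tri T v a a = 0 := by
    intro v
    rw [tri_eq_sum_left]
    simp [hgrad']
  have ha : ∀ v : Fin n → ℝ, tri T a a v = 0 := by
    intro v
    rw [tri_swap23 h23 a a v, tri_swap12 h12 a v a]
    exact ha2 v
  have hane : a ≠ 0 := by
    rintro rfl
    have h0 : hessM T (0 : Fin n → ℝ) = 0 := by
      ext i j
      simp [hessM]
    rw [h0, Matrix.rank_zero] at hrank
    exact absurd hrank (by norm_num)
  have hSa : hessM T a *ᵥ a = 0 := by
    apply dotProduct_eq_zero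
    intro w
    rw [dotProduct_comm, dot_hessM]
    exact ha2 w
  have hn : 4 ≤ n := four_le_of_rank_three (hessM T a) hrank a hane hSa
  obtain ⟨k, rfl⟩ : ∃ k, n = k + 4 := ⟨n - 4, by omega⟩
  have hpe : 0 < tri T e e e := by
    have h := hyp'.2.1
    rwa [eval_cubPoly] at h
  have hroots : ∀ x : Fin (k + 4) → ℝ, ∀ z : ℂ,
      tri (fun i j l => (T i j l : ℂ)) (fun i => (e i : ℂ) * z - (x i : ℂ))
        (fun i => (e i : ℂ) * z - (x i : ℂ)) (fun i => (e i : ℂ) * z - (x i : ℂ)) = 0
        → z.im = 0 := by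
    intro x z hz
    apply hyp'.2.2 x z
    rw [lineRestrict_aeval, aeval_cubPoly]
    exact hz
  have hw : ∃ w : Fin (k + 4) → ℝ, tri T a w w ≠ 0 := by
    by_contra hcon
    push Not at hcon
    have hxy : ∀ x y : Fin (k + 4) → ℝ, tri T a x y = 0 := by
      intro x y
      have h1 := hcon (x + y)
      rw [tri_add_mid, tri_add_right, tri_add_right, hcon x, hcon y,
        tri_swap23 h23 a y x] at h1
      linarith
    have h0 : hessM T a = 0 := by
      ext i j
      have h1 := dot_hessM T a (Pi.single i 1) (Pi.single j 1)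
      rw [tri_swap23 h23, tri_swap12 h12, hxy] at h1
      simpa using h1
    rw [h0, Matrix.rank_zero] at hrank
    exact absurd hrank (by norm_num)
  obtain ⟨hQ0, hloc⟩ := node_localization T h12 h23 e a hpe hroots ha hw
  have hneg : -a = (-1 : ℝ) • a := by simp
  rcases lt_or_gt_of_ne hQ0 with hQ | hQ
  · refine cubic_node_shadow_aux T h12 h23 e (-a) hyp' ?_ ?_ ?_ ?_
    · intro v
      rw [hneg, tri_smul_left, tri_smul_mid, ha]
      ring
    · rw [hneg, hessM_smul, Matrix.rank_smul_of_mem_nonZeroDivisors _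
        (mem_nonZeroDivisors_of_ne_zero (by norm_num : (-1 : ℝ) ≠ 0))]
      exact hrank
    · rw [hneg, tri_smul_left]
      linarith
    · intro v
      rw [hneg]
      simp only [tri_smul_left]
      have h1 := hloc v
      have e1 : -1 * tri T a e e * (-1 * tri T a v v) = tri T a e e * tri T a v v := by ring
      have e2 : 2 * (-1 * tri T a e v) ^ 2 = 2 * (tri T a e v) ^ 2 := by ring
      rw [e1, e2]
      exact h1
  · exact cubic_node_shadow_aux T h12 h23 e a hyp' ha hrank hQ hloc

end Vale.Agent.H69
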