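import Vale.Agent.H69.Defs

/-!
# Sets cut out by linear matrix inequalities, and spectrahedral shadows
-/

namespace Vale.Agent.H69

open Matrix

/-- A set in a real vector space cut out by one homogeneous linear matrix inequality. -/
def IsLMISet {V : Type} [AddCommGroup V] [Module ℝ V] (T : Set V) : Prop :=
  ∃ (K : Type) (_ : Fintype K) (_ : DecidableEq K) (G : V →ₗ[ℝ] Matrix K K ℝ),
    (∀ v, (G v).IsSymm) ∧ T = {v | (G v).PosSemidef}

theorem posSemidef_fromBlocks_diag {K1 K2 : Type} [Fintype K1] [Fintype K2]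
    (A : Matrix K1 K1 ℝ) (D : Matrix K2 K2 ℝ) :
    (fromBlocks A 0 0 D).PosSemidef ↔ A.PosSemidef ∧ D.PosSemidef := by
  constructor
  · intro h
    constructor
    · have := h.submatrix (Sum.inl : K1 → K1 ⊕ K2)
      have e : (fromBlocks A 0 0 D).submatrix Sum.inl Sum.inl = A := by
        ext i j; simp
      rwa [e] at this
    · have := h.submatrix (Sum.inr : K2 → K1 ⊕ K2)
      have e : (fromBlocks A 0 0 D).submatrix Sum.inr Sum.inr = D := by
        ext i j; simp
      rwa [e] at this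
  · rintro ⟨hA, hD⟩
    refine PosSemidef.of_dotProduct_mulVec_nonneg ?_ ?_
    · have hA' : Aᵀ = A := by
        simpa [Matrix.IsHermitian, Matrix.conjTranspose_eq_transpose_of_trivial]
          using hA.isHermitian
      have hD' : Dᵀ = D := by
        simpa [Matrix.IsHermitian, Matrix.conjTranspose_eq_transpose_of_trivial]
          using hD.isHermitian
      rw [Matrix.IsHermitian, Matrix.fromBlocks_conjTranspose]
      simp [Matrix.conjTranspose_eq_transpose_of_trivial, hA', hD']
    · intro x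
      have h1 := hA.dotProduct_mulVec_nonneg (x ∘ Sum.inl)
      have h2 := hD.dotProduct_mulVec_nonneg (x ∘ Sum.inr)
      rw [Matrix.fromBlocks_mulVec]
      simp only [star_trivial] at *
      simp only [dotProduct, Fintype.sum_sum_type, Sum.elim_inl, Sum.elim_inr] at *
      simp only [zero_mulVec, add_zero, zero_add] at *
      simpa using add_nonneg h1 h2

theorem posSemidef_two (a b d : ℝ) :
    (Matrix.of ![![a, b], ![b, d]] : Matrix (Fin 2) (Fin 2) ℝ).PosSemidef
      ↔ 0 ≤ a ∧ 0 ≤ d ∧ b ^ 2 ≤ a * d := by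
  have key : ∀ x : Fin 2 → ℝ,
      star x ⬝ᵥ ((Matrix.of ![![a, b], ![b, d]] : Matrix (Fin 2) (Fin 2) ℝ) *ᵥ x)
        = a * x 0 ^ 2 + 2 * b * x 0 * x 1 + d * x 1 ^ 2 := by
    intro x
    simp [dotProduct, mulVec, Fin.sum_univ_two]
    ring
  have hsymm : (Matrix.of ![![a, b], ![b, d]] : Matrix (Fin 2) (Fin 2) ℝ).IsHermitian := by
    ext i j
    fin_cases i <;> fin_cases j <;> simp
  constructor
  · intro h
    have h0 := h.dotProduct_mulVec_nonneg ![1, 0]
    have h1 := h.dotProduct_mulVec_nonneg ![0, 1]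
    have h2 := h.dotProduct_mulVec_nonneg ![d, -b]
    have h3 := h.dotProduct_mulVec_nonneg ![-b, a]
    rw [key] at h0 h1 h2 h3
    simp at h0 h1 h2 h3
    refine ⟨h0, h1, ?_⟩
    by_contra hc
    push Not at hc
    rcases lt_or_eq_of_le h1 with hd | hd
    · nlinarith
    · rcases lt_or_eq_of_le h0 with ha | ha
      · nlinarith
      · have hb : b ≠ 0 := by
          intro hb
          rw [hb, ← ha] at hc
          simp at hc
        have h4 := h.dotProduct_mulVec_nonneg ![1, -b]
        rw [key] at h4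
        simp at h4
        rw [← ha, ← hd] at h4
        have : 0 < b ^ 2 := by positivity
        nlinarith
  · rintro ⟨ha, hd, hb⟩
    refine PosSemidef.of_dotProduct_mulVec_nonneg hsymm ?_
    intro x
    rw [key]
    rcases lt_or_eq_of_le ha with ha' | ha'
    · have : 0 ≤ a * (a * x 0 ^ 2 + 2 * b * x 0 * x 1 + d * x 1 ^ 2) := by
        have e : a * (a * x 0 ^ 2 + 2 * b * x 0 * x 1 + d * x 1 ^ 2)
            = (a * x 0 + b * x 1) ^ 2 + (a * d - b ^ 2) * x 1 ^ 2 := by ring
        rw [e]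
        have : 0 ≤ (a * d - b ^ 2) * x 1 ^ 2 := mul_nonneg (by linarith) (sq_nonneg _)
        positivity
      exact nonneg_of_mul_nonneg_right this ha'
    · rw [← ha'] at hb ⊢
      have hb0 : b = 0 := by
        have : b ^ 2 ≤ 0 := by simpa using hb
        exact pow_eq_zero_iff (two_ne_zero) |>.mp (le_antisymm this (sq_nonneg b))
      rw [hb0]
      have : 0 ≤ d * x 1 ^ 2 := mul_nonneg hd (sq_nonneg _)
      simpa using this

namespace IsLMISet

variable {V : Type} [AddCommGroup V] [Module ℝ V]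

theorem univ : IsLMISet (Set.univ : Set V) := by
  refine ⟨Unit, inferInstance, inferInstance, 0, ?_, ?_⟩
  · intro v; simp
  · ext v
    simp [PosSemidef.zero]

theorem of_linearMap {K : Type} [Fintype K] [DecidableEq K] (G : V →ₗ[ℝ] Matrix K K ℝ)
    (hG : ∀ v, (G v).IsSymm) : IsLMISet {v | (G v).PosSemidef} :=
  ⟨K, inferInstance, inferInstance, G, hG, rfl⟩

theorem inter {T1 T2 : Set V} (h1 : IsLMISet T1) (h2 : IsLMISet T2) : IsLMISet (T1 ∩ T2) := by
  obtain ⟨K1, _, _, G1, hs1, rfl⟩ := h1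
  obtain ⟨K2, _, _, G2, hs2, rfl⟩ := h2
  refine ⟨K1 ⊕ K2, inferInstance, inferInstance,
    { toFun := fun v => fromBlocks (G1 v) 0 0 (G2 v)
      map_add' := by intro v w; simp [Matrix.fromBlocks_add]
      map_smul' := by intro c v; simp [Matrix.fromBlocks_smul] }, ?_, ?_⟩
  · intro v
    exact Matrix.IsSymm.fromBlocks (hs1 v) (by simp) (hs2 v)
  · ext v
    simp only [Set.mem_inter_iff, Set.mem_ofPred_eq, LinearMap.coe_mk, AddHom.coe_mk]
    rw [posSemidef_fromBlocks_diag]

theorem preimage {V' : Type} [AddCommGroup V'] [Module ℝ V'] {T : Set V} (h : IsLMISet T)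
    (φ : V' →ₗ[ℝ] V) : IsLMISet (φ ⁻¹' T) := by
  obtain ⟨K, _, _, G, hs, rfl⟩ := h
  exact ⟨K, inferInstance, inferInstance, G ∘ₗ φ, fun v => hs _, rfl⟩

theorem biInter {J : Type} (s : Finset J) (T : J → Set V) (h : ∀ j, IsLMISet (T j)) :
    IsLMISet (⋂ j ∈ s, T j) := by
  classical
  induction s using Finset.induction_on with
  | empty => simpa using (univ : IsLMISet (Set.univ : Set V))
  | insert a s ha ih =>
    rw [Finset.set_biInter_insert]
    exact inter (h a) ih

theorem iInter {J : Type} [Fintype J] (T : J → Set V) (h : ∀ j, IsLMISet (T j)) :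
    IsLMISet (⋂ j, T j) := by
  have := biInter (Finset.univ : Finset J) T h
  simpa using this

theorem nonneg (f : V →ₗ[ℝ] ℝ) : IsLMISet {v | 0 ≤ f v} := by
  refine ⟨Unit, inferInstance, inferInstance,
    (Matrix.diagonalLinearMap Unit ℝ ℝ) ∘ₗ (LinearMap.pi (fun _ => f)), ?_, ?_⟩
  · intro v
    simp [Matrix.diagonalLinearMap]
  · ext v
    simp [Matrix.diagonalLinearMap]

theorem psd_two (f g h : V →ₗ[ℝ] ℝ) :
    IsLMISet {v | 0 ≤ f v ∧ 0 ≤ h v ∧ g v ^ 2 ≤ f v * h v} := by
  refine ⟨Fin 2, inferInstance, inferInstance,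
    { toFun := fun v => Matrix.of ![![f v, g v], ![g v, h v]]
      map_add' := by
        intro v w
        ext i j
        fin_cases i <;> fin_cases j <;> simp
      map_smul' := by
        intro c v
        ext i j
        fin_cases i <;> fin_cases j <;> simp }, ?_, ?_⟩
  · intro v
    ext i j
    fin_cases i <;> fin_cases j <;> simp
  · ext v
    simp only [Set.mem_ofPred_eq, LinearMap.coe_mk, AddHom.coe_mk]
    rw [posSemidef_two]

/-- The projection of an LMI set along finitely many extra coordinates is a spectrahedral shadow. -/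
theorem shadow {n : ℕ} {α : Type} [Fintype α] {T : Set ((Fin n → ℝ) × (α → ℝ))}
    (hT : IsLMISet T) : IsSpectrahedralShadow {x | ∃ u : α → ℝ, (x, u) ∈ T} := by
  classical
  obtain ⟨K, _, _, G, hs, rfl⟩ := hT
  let eK : K ≃ Fin (Fintype.card K) := Fintype.equivFin K
  let eα : α ≃ Fin (Fintype.card α) := Fintype.equivFin α
  let G' : ((Fin n → ℝ) × (α → ℝ)) →ₗ[ℝ] Matrix (Fin (Fintype.card K)) (Fin (Fintype.card K)) ℝ :=
    (Matrix.reindexLinearEquiv ℝ ℝ eK eK).toLinearMap ∘ₗ G
  have hG' : ∀ v, G' v = (G v).submatrix eK.symm eK.symm := fun v => rfl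
  have hpsd : ∀ v, (G' v).PosSemidef ↔ (G v).PosSemidef := by
    intro v
    rw [hG', Matrix.posSemidef_submatrix_equiv]
  have hsymm : ∀ v, (G' v).IsSymm := by
    intro v
    rw [hG']
    exact (hs v).submatrix _
  have hexp : ∀ (x : Fin n → ℝ) (u : α → ℝ),
      G' (x, u) = ∑ i, x i • G' ((fun j => if i = j then 1 else 0), 0)
        + ∑ b, u b • G' (0, (fun c => if b = c then 1 else 0)) := by
    intro x u
    have e1 : (x, u) = LinearMap.inl ℝ (Fin n → ℝ) (α → ℝ) x
        + LinearMap.inr ℝ (Fin n → ℝ) (α → ℝ) u := by simp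
    rw [e1, map_add]
    have h1 := LinearMap.pi_apply_eq_sum_univ (G' ∘ₗ LinearMap.inl ℝ (Fin n → ℝ) (α → ℝ)) x
    have h2 := LinearMap.pi_apply_eq_sum_univ (G' ∘ₗ LinearMap.inr ℝ (Fin n → ℝ) (α → ℝ)) u
    simp only [LinearMap.comp_apply] at h1 h2
    rw [h1, h2]
    rfl
  refine ⟨Fintype.card K, Fintype.card α, 0,
    fun i => G' ((fun j => if i = j then 1 else 0), 0),
    fun j => G' (0, (fun c => if eα.symm j = c then 1 else 0)), ?_, ?_, ?_, ?_⟩
  · simp
  · intro i; exact hsymm _
  · intro j; exact hsymm _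
  · have hmat : ∀ (x : Fin n → ℝ) (u' : Fin (Fintype.card α) → ℝ),
        (0 + ∑ i, x i • G' ((fun j => if i = j then 1 else 0), 0)
          + ∑ j, u' j • G' (0, (fun c => if eα.symm j = c then 1 else 0)))
        = G' (x, u' ∘ eα) := by
      intro x u'
      rw [hexp x (u' ∘ eα), zero_add]
      congr 1
      rw [← Equiv.sum_comp eα.symm]
      simp
    ext x
    simp only [Set.mem_ofPred_eq]
    constructor
    · rintro ⟨u, hu⟩
      refine ⟨u ∘ eα.symm, ?_⟩
      rw [hmat, hpsd]
      have : (u ∘ eα.symm) ∘ eα = u := by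
        funext b; simp
      rw [this]
      exact hu
    · rintro ⟨u', hu'⟩
      refine ⟨u' ∘ eα, ?_⟩
      rw [hmat, hpsd] at hu'
      exact hu'

end IsLMISet

end Vale.Agent.H69
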