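import Vale.Agent.H69.Scalar
import Vale.Agent.H69.LMI

/-!
# Scalar and matrix lemmas for the lift of the rank-three node cubic
-/

namespace Vale.Agent.H69

open Matrix

theorem lorentz_pos_right (e0 e1 e2 : ℝ) (he1 : 0 < e1) (he : e0 ^ 2 < e1 * e2) : 0 < e2 := by
  have h : 0 < e1 * e2 := lt_of_le_of_lt (sq_nonneg e0) he
  exact (pos_iff_pos_of_mul_pos h).mp he1

/-- Two vectors of the closed Lorentz cone have nonnegative Lorentz product. -/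
theorem lorentz_pair_nonneg (e0 e1 e2 y0 y1 y2 : ℝ) (he1 : 0 < e1) (he : e0 ^ 2 < e1 * e2)
    (hy1 : 0 ≤ y1) (hy2 : 0 ≤ y2) (hy : y0 ^ 2 ≤ y1 * y2) :
    0 ≤ e1 * y2 + e2 * y1 - 2 * e0 * y0 := by
  have he2 : 0 < e2 := lorentz_pos_right e0 e1 e2 he1 he
  have hA : 0 ≤ e1 * y2 + e2 * y1 := by positivity
  have h1 : 4 * (e1 * e2) * (y1 * y2) ≤ (e1 * y2 + e2 * y1) ^ 2 := by
    nlinarith [sq_nonneg (e1 * y2 - e2 * y1)]
  have h2 : e0 ^ 2 * y0 ^ 2 ≤ (e1 * e2) * (y1 * y2) :=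
    mul_le_mul he.le hy (sq_nonneg _) (by positivity)
  have h3 : (2 * e0 * y0) ^ 2 ≤ (e1 * y2 + e2 * y1) ^ 2 := by nlinarith
  have h4 := abs_le_of_sq_le_sq' h3 hA
  linarith [h4.2]

theorem cone_bdry_aux (ea eb e0 v0 a b : ℝ) (hea : 0 < ea) (heb : 0 < eb)
    (he : e0 ^ 2 < ea * eb) (hab : a * b = v0 ^ 2) (hB : 0 ≤ ea * b + eb * a - 2 * e0 * v0) :
    0 ≤ a := by
  by_contra ha
  push Not at ha
  have hb : b ≤ 0 := by
    by_contra hb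
    push Not at hb
    nlinarith [mul_neg_of_neg_of_pos ha hb, sq_nonneg v0]
  have hS : ea * b + eb * a < 0 := by
    have h1 : ea * b ≤ 0 := mul_nonpos_of_nonneg_of_nonpos hea.le hb
    have h2 : eb * a < 0 := mul_neg_of_pos_of_neg heb ha
    linarith
  have h1 : 2 * e0 * v0 < 0 := by linarith
  have h2 : (ea * b + eb * a) ^ 2 ≤ (2 * e0 * v0) ^ 2 := by nlinarith
  have h3 : 4 * (ea * eb) * v0 ^ 2 ≤ (ea * b + eb * a) ^ 2 := by
    nlinarith [sq_nonneg (ea * b - eb * a)]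
  have h4 : (ea * eb - e0 ^ 2) * v0 ^ 2 ≤ 0 := by nlinarith
  have hv0 : v0 = 0 := by
    by_contra h
    have : 0 < v0 ^ 2 := by positivity
    nlinarith
  rw [hv0] at h1
  simp at h1

/-- A point of the Lorentz quadric with nonnegative Lorentz product against an interior point
of the forward cone lies on the boundary of the forward cone. -/
theorem cone_bdry (e0 e1 e2 v0 v1 v2 : ℝ) (he1 : 0 < e1) (he : e0 ^ 2 < e1 * e2)
    (hv : v1 * v2 = v0 ^ 2) (hB : 0 ≤ e1 * v2 + e2 * v1 - 2 * e0 * v0) : 0 ≤ v1 ∧ 0 ≤ v2 := by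
  have he2 : 0 < e2 := lorentz_pos_right e0 e1 e2 he1 he
  constructor
  · exact cone_bdry_aux e1 e2 e0 v0 v1 v2 he1 he2 he hv hB
  · exact cone_bdry_aux e2 e1 e0 v0 v2 v1 he2 he1 (by linarith [mul_comm e1 e2])
      (by linarith [mul_comm v1 v2]) (by linarith)

/-- The pencil `qf3 (y + σ e)` has a nonnegative discriminant. -/
theorem lorentz_disc_nonneg (e0 e1 e2 y0 y1 y2 : ℝ) (he1 : 0 < e1) (he : e0 ^ 2 < e1 * e2) :
    0 ≤ (e1 * y2 + e2 * y1 - 2 * e0 * y0) ^ 2 - 4 * (e1 * e2 - e0 ^ 2) * (y1 * y2 - y0 ^ 2) := by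
  have h : e1 ^ 2 * ((e1 * y2 + e2 * y1 - 2 * e0 * y0) ^ 2
        - 4 * (e1 * e2 - e0 ^ 2) * (y1 * y2 - y0 ^ 2))
      = (e1 * (e1 * y2 - e2 * y1) - 2 * e0 * (e1 * y0 - e0 * y1)) ^ 2
        + 4 * (e1 * e2 - e0 ^ 2) * (e1 * y0 - e0 * y1) ^ 2 := by ring
  have h2 : 0 ≤ e1 ^ 2 * ((e1 * y2 + e2 * y1 - 2 * e0 * y0) ^ 2
        - 4 * (e1 * e2 - e0 ^ 2) * (y1 * y2 - y0 ^ 2)) := by
    rw [h]
    have : 0 ≤ e1 * e2 - e0 ^ 2 := by linarith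
    positivity
  exact (mul_nonneg_iff_of_pos_left (by positivity)).mp h2

/-- Schur complement, first direction. -/
theorem schur3_le (τ a b y0 y1 y2 : ℝ) (hq : 0 < y1 * y2 - y0 ^ 2)
    (h : ∀ c d1 d2 : ℝ, 0 ≤ τ * c ^ 2 + 2 * c * (a * d1 + b * d2) + y2 * d1 ^ 2
      - 2 * y0 * d1 * d2 + y1 * d2 ^ 2) :
    y1 * a ^ 2 + 2 * y0 * a * b + y2 * b ^ 2 ≤ τ * (y1 * y2 - y0 ^ 2) := by
  have h1 := h (y1 * y2 - y0 ^ 2) (-(y1 * a + y0 * b)) (-(y0 * a + y2 * b))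
  have e : τ * (y1 * y2 - y0 ^ 2) ^ 2
      + 2 * (y1 * y2 - y0 ^ 2) * (a * -(y1 * a + y0 * b) + b * -(y0 * a + y2 * b))
      + y2 * (-(y1 * a + y0 * b)) ^ 2 - 2 * y0 * -(y1 * a + y0 * b) * -(y0 * a + y2 * b)
      + y1 * (-(y0 * a + y2 * b)) ^ 2
      = (y1 * y2 - y0 ^ 2) * (τ * (y1 * y2 - y0 ^ 2) - (y1 * a ^ 2 + 2 * y0 * a * b + y2 * b ^ 2)) := by
    ring
  rw [e] at h1
  have h2 := (mul_nonneg_iff_of_pos_left hq).mp h1
  linarith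

/-- Schur complement, second direction. -/
theorem schur3_ge (τ a b y0 y1 y2 : ℝ) (hy1 : 0 < y1) (hq : 0 < y1 * y2 - y0 ^ 2)
    (hτ : y1 * a ^ 2 + 2 * y0 * a * b + y2 * b ^ 2 ≤ τ * (y1 * y2 - y0 ^ 2)) (c d1 d2 : ℝ) :
    0 ≤ τ * c ^ 2 + 2 * c * (a * d1 + b * d2) + y2 * d1 ^ 2 - 2 * y0 * d1 * d2 + y1 * d2 ^ 2 := by
  have e : (y1 * y2 - y0 ^ 2) ^ 2 * y1 * (τ * c ^ 2 + 2 * c * (a * d1 + b * d2) + y2 * d1 ^ 2
        - 2 * y0 * d1 * d2 + y1 * d2 ^ 2)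
      = (y1 * y2 - y0 ^ 2) * y1 * c ^ 2
          * (τ * (y1 * y2 - y0 ^ 2) - (y1 * a ^ 2 + 2 * y0 * a * b + y2 * b ^ 2))
        + (y1 * ((y1 * y2 - y0 ^ 2) * d2 + c * (y0 * a + y2 * b))
            - y0 * ((y1 * y2 - y0 ^ 2) * d1 + c * (y1 * a + y0 * b))) ^ 2
        + (y1 * y2 - y0 ^ 2) * ((y1 * y2 - y0 ^ 2) * d1 + c * (y1 * a + y0 * b)) ^ 2 := by
    ring
  have h1 : 0 ≤ (y1 * y2 - y0 ^ 2) ^ 2 * y1 * (τ * c ^ 2 + 2 * c * (a * d1 + b * d2) + y2 * d1 ^ 2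
        - 2 * y0 * d1 * d2 + y1 * d2 ^ 2) := by
    rw [e]
    have h3 : 0 ≤ τ * (y1 * y2 - y0 ^ 2) - (y1 * a ^ 2 + 2 * y0 * a * b + y2 * b ^ 2) := by linarith
    positivity
  exact (mul_nonneg_iff_of_pos_left (by positivity)).mp h1

theorem term3_nonneg (a b y0 y1 y2 : ℝ) (hy1 : 0 < y1) (hq : 0 < y1 * y2 - y0 ^ 2) :
    0 ≤ y1 * a ^ 2 + 2 * y0 * a * b + y2 * b ^ 2 := by
  have e : y1 * (y1 * a ^ 2 + 2 * y0 * a * b + y2 * b ^ 2)
      = (y1 * a + y0 * b) ^ 2 + (y1 * y2 - y0 ^ 2) * b ^ 2 := by ring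
  have h1 : 0 ≤ y1 * (y1 * a ^ 2 + 2 * y0 * a * b + y2 * b ^ 2) := by
    rw [e]
    positivity
  exact (mul_nonneg_iff_of_pos_left hy1).mp h1

/-- A cubic with positive leading coefficient and no positive root is positive on `(0, ∞)`. -/
theorem cubic_pos_of_no_root (C0 C1 C2 C3 : ℝ) (h3 : 0 < C3)
    (h : ∀ σ : ℝ, 0 < σ → C0 + C1 * σ + C2 * σ ^ 2 + C3 * σ ^ 3 ≠ 0) (σ : ℝ) (hσ : 0 < σ) :
    0 < C0 + C1 * σ + C2 * σ ^ 2 + C3 * σ ^ 3 := by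
  by_contra hneg
  push Not at hneg
  have hlt : C0 + C1 * σ + C2 * σ ^ 2 + C3 * σ ^ 3 < 0 := lt_of_le_of_ne hneg (h σ hσ)
  obtain ⟨σ2, hσ2, hpos⟩ := cubic_large_pos C0 C1 C2 C3 σ h3
  have hcont : ContinuousOn (fun s : ℝ => C0 + C1 * s + C2 * s ^ 2 + C3 * s ^ 3)
      (Set.Icc σ σ2) := by fun_prop
  obtain ⟨c, hc, hfc⟩ := intermediate_value_Icc hσ2.le hcont
    (show (0 : ℝ) ∈ Set.Icc (C0 + C1 * σ + C2 * σ ^ 2 + C3 * σ ^ 3)
      (C0 + C1 * σ2 + C2 * σ2 ^ 2 + C3 * σ2 ^ 3) from ⟨hlt.le, hpos.le⟩)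
  exact h c (lt_of_lt_of_le hσ hc.1) hfc

/-- A compactness lemma: a bounded family `Ts σ`, `0 < σ ≤ 1`, has a limit point as `σ → 0`
at which every closed condition that holds along the family still holds. -/
theorem exists_limit_point {ι : Type} [Fintype ι] (bound : ℝ) (Ts : ℝ → ι → ℝ)
    (hbox : ∀ σ : ℝ, 0 < σ → σ ≤ 1 → ∀ i, Ts σ i ∈ Set.Icc (0 : ℝ) bound) :
    ∃ Tv : ι → ℝ, ∀ g : (ι → ℝ) → ℝ → ℝ, Continuous (fun p : (ι → ℝ) × ℝ => g p.1 p.2) →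
      (∀ σ : ℝ, 0 < σ → σ ≤ 1 → 0 ≤ g (Ts σ) σ) → 0 ≤ g Tv 0 := by
  set σs : ℕ → ℝ := fun n => 1 / ((n : ℝ) + 1) with hσs
  have hσpos : ∀ n, 0 < σs n := fun n => by
    rw [hσs]
    positivity
  have hσle : ∀ n, σs n ≤ 1 := fun n => by
    rw [hσs]
    rw [div_le_one (by positivity)]
    have : (0 : ℝ) ≤ n := Nat.cast_nonneg n
    linarith
  have hσlim : Filter.Tendsto σs Filter.atTop (nhds 0) := tendsto_one_div_add_atTop_nhds_zero_nat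
  have hcomp : IsCompact (Set.univ.pi fun _ : ι => Set.Icc (0 : ℝ) bound) :=
    isCompact_univ_pi fun _ => isCompact_Icc
  obtain ⟨Tv, -, φ, hφ, hlim⟩ := hcomp.tendsto_subseq (x := fun n => Ts (σs n))
    (fun n => by
      intro i _
      exact hbox (σs n) (hσpos n) (hσle n) i)
  refine ⟨Tv, fun g hg hnonneg => ?_⟩
  have hpair : Filter.Tendsto (fun n => (Ts (σs (φ n)), σs (φ n))) Filter.atTop
      (nhds (Tv, (0 : ℝ))) :=
    Filter.Tendsto.prodMk_nhds hlim (hσlim.comp hφ.tendsto_atTop)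
  have hg' : Filter.Tendsto (fun n => g (Ts (σs (φ n))) (σs (φ n))) Filter.atTop
      (nhds (g Tv 0)) :=
    (hg.tendsto (Tv, (0 : ℝ))).comp hpair
  exact ge_of_tendsto' hg' (fun n => hnonneg _ (hσpos _) (hσle _))

namespace IsLMISet

variable {V : Type} [AddCommGroup V] [Module ℝ V]

/-- The positive semidefiniteness of `[[τ, a, b], [a, y2, -y0], [b, -y0, y1]]` as an LMI set. -/
theorem psd_three (τ a b y0 y1 y2 : V →ₗ[ℝ] ℝ) :
    IsLMISet {v | ∀ c d1 d2 : ℝ, 0 ≤ τ v * c ^ 2 + 2 * c * (a v * d1 + b v * d2)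
      + y2 v * d1 ^ 2 - 2 * y0 v * d1 * d2 + y1 v * d2 ^ 2} := by
  have key : ∀ (v : V) (x : Fin 3 → ℝ),
      star x ⬝ᵥ ((Matrix.of ![![τ v, a v, b v], ![a v, y2 v, -y0 v], ![b v, -y0 v, y1 v]] :
        Matrix (Fin 3) (Fin 3) ℝ) *ᵥ x)
        = τ v * x 0 ^ 2 + 2 * x 0 * (a v * x 1 + b v * x 2) + y2 v * x 1 ^ 2
          - 2 * y0 v * x 1 * x 2 + y1 v * x 2 ^ 2 := by
    intro v x
    simp [dotProduct, mulVec, Fin.sum_univ_three]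
    ring
  have hsymm : ∀ v : V, (Matrix.of ![![τ v, a v, b v], ![a v, y2 v, -y0 v],
      ![b v, -y0 v, y1 v]] : Matrix (Fin 3) (Fin 3) ℝ).IsSymm := by
    intro v
    ext i j
    fin_cases i <;> fin_cases j <;> simp
  refine ⟨Fin 3, inferInstance, inferInstance,
    { toFun := fun v => Matrix.of ![![τ v, a v, b v], ![a v, y2 v, -y0 v], ![b v, -y0 v, y1 v]]
      map_add' := by
        intro v w
        ext i j
        fin_cases i <;> fin_cases j <;> simp <;> ring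
      map_smul' := by
        intro c v
        ext i j
        fin_cases i <;> fin_cases j <;> simp }, hsymm, ?_⟩
  ext v
  simp only [Set.mem_ofPred_eq, LinearMap.coe_mk, AddHom.coe_mk]
  constructor
  · intro h
    refine PosSemidef.of_dotProduct_mulVec_nonneg ?_ ?_
    · have := hsymm v
      rw [Matrix.IsHermitian, Matrix.conjTranspose_eq_transpose_of_trivial]
      exact this
    · intro x
      rw [key]
      exact h (x 0) (x 1) (x 2)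
  · intro h c d1 d2
    have h1 := h.dotProduct_mulVec_nonneg ![c, d1, d2]
    rw [key] at h1
    simpa using h1

end IsLMISet

end Vale.Agent.H69
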