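import Vale.Agent.H69.NodeCubic
import Vale.Agent.H69.T3Ext

/-!
# Hyperbolicity forces the cubic part to be nonnegative on the boundary of the Lorentz cone
-/

namespace Vale.Agent.H69

open MvPolynomial

theorem cub_nonneg_of_hyperbolic {k : ℕ} (T : Fin (k + 3) → Fin (k + 3) → Fin (k + 3) → ℝ)
    (h12 : ∀ i j l, T i j l = T j i l) (h23 : ∀ i j l, T i j l = T i l j)
    (e : Fin (k + 4) → ℝ) (hq : 0 < qf3 (Fin.tail e))
    (hpe : 0 < eval e (nodeCubic (cubPoly T)))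
    (hyp : ∀ x : Fin (k + 4) → ℝ, ∀ z : ℂ,
      Polynomial.aeval z (lineRestrict (nodeCubic (cubPoly T)) e x) = 0 → z.im = 0)
    (y0 : Fin (k + 3) → ℝ)
    (hκ' : 0 ≤ Fin.tail e 1 * y0 2 + Fin.tail e 2 * y0 1 - 2 * Fin.tail e 0 * y0 0)
    (hq0 : qf3 y0 = 0) : 0 ≤ tri T y0 y0 y0 := by
  set e' : Fin (k + 3) → ℝ := Fin.tail e with he'
  set κ : ℝ := qf3 e' with hκdef
  set κ' : ℝ := e' 1 * y0 2 + e' 2 * y0 1 - 2 * e' 0 * y0 0 with hκ'def
  set ρ : ℝ := κ' / κ with hρdef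
  have hκρ : κ * ρ = κ' := by
    rw [hρdef]
    field_simp
  have hρ : 0 ≤ ρ := div_nonneg hκ' hq.le
  set A : ℝ := eval e (nodeCubic (cubPoly T)) with hAdef
  have hA : A = e 0 * κ - tri T e' e' e' := by
    rw [hAdef, eval_nodeCubic]
  have hTc12 : ∀ i j l, ((T i j l : ℝ) : ℂ) = (T j i l : ℂ) := fun i j l => by rw [h12 i j l]
  have hTc23 : ∀ i j l, ((T i j l : ℝ) : ℂ) = (T i l j : ℂ) := fun i j l => by rw [h23 i j l]
  have key := cubic_pencil_const_nonpos A (e 0 * κ' - 3 * tri T e' e' y0) (-3 * tri T e' y0 y0)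
    (- tri T y0 y0 y0) κ ρ hpe hq hρ ?_
  · linarith
  intro s z hz
  apply hyp (Fin.cons (-s) (-y0)) z
  rw [lineRestrict_nodeCubic_aeval]
  have hx0 : ((Fin.cons (-s) (-y0) : Fin (k + 4) → ℝ) 0) = -s := rfl
  have htail : Fin.tail (Fin.cons (-s) (-y0) : Fin (k + 4) → ℝ) = -y0 := Fin.tail_cons _ _
  rw [hx0, htail]
  have hξ : (z • (fun i => (Fin.tail e i : ℂ)) - fun i => ((-y0) i : ℂ))
      = z • (fun i => (e' i : ℂ)) + fun i => (y0 i : ℂ) := by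
    funext i
    simp [he']
  rw [hξ, tri_add_cube hTc12 hTc23, tri_smul_left, tri_smul_mid, tri_smul_right, tri_smul_left,
    tri_smul_mid, tri_smul_left, ← tri_ofReal, ← tri_ofReal, ← tri_ofReal, ← tri_ofReal]
  have hq0c : (y0 1 : ℂ) * (y0 2 : ℂ) - (y0 0 : ℂ) ^ 2 = 0 := by
    have := congrArg (fun r : ℝ => (r : ℂ)) hq0
    simpa [qf3] using this
  have hsκ : s * κ * ρ = s * κ' := by rw [mul_assoc, hκρ]
  rw [hsκ] at hz
  rw [hA] at hz
  simp only [qf3, Pi.add_apply, Pi.smul_apply, smul_eq_mul]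
  rw [hκ'def, hκdef] at hz
  simp only [qf3] at hz
  push_cast at hz ⊢
  linear_combination hz + ((e 0 : ℂ) * z + s) * hq0c

end Vale.Agent.H69
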