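import Vale.Agent.H69.Certificate
import Vale.Agent.H69.Necessity
import Vale.Agent.H69.Lift3Scalar

/-!
# The semidefinite lift of the hyperbolicity cone of a rank-three node cubic
-/

namespace Vale.Agent.H69

open MvPolynomial

variable {k : ℕ}

/-- The value of the node cubic at `x + σ e`. -/
def shiftVal (T : Fin (k + 3) → Fin (k + 3) → Fin (k + 3) → ℝ) (e x : Fin (k + 4) → ℝ)
    (σ : ℝ) : ℝ :=
  (x 0 + σ * e 0) * qf3 (Fin.tail x + σ • Fin.tail e)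
    - tri T (Fin.tail x + σ • Fin.tail e) (Fin.tail x + σ • Fin.tail e)
        (Fin.tail x + σ • Fin.tail e)

theorem lineRestrict_neg_eq (T : Fin (k + 3) → Fin (k + 3) → Fin (k + 3) → ℝ)
    (e x : Fin (k + 4) → ℝ) (σ : ℝ) :
    Polynomial.eval (-σ) (lineRestrict (nodeCubic (cubPoly T)) e x) = - shiftVal T e x σ := by
  rw [lineRestrict_nodeCubic_eval]
  have h : (-σ) • Fin.tail e - Fin.tail x = -(Fin.tail x + σ • Fin.tail e) := by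
    funext i
    simp only [Pi.sub_apply, Pi.smul_apply, Pi.neg_apply, Pi.add_apply, smul_eq_mul]
    ring
  rw [h, tri_neg_cube]
  unfold shiftVal
  simp only [qf3, Pi.neg_apply]
  ring

theorem qf3_shift (y e' : Fin (k + 3) → ℝ) (σ : ℝ) :
    qf3 (y + σ • e') = qf3 y + σ * (e' 1 * y 2 + e' 2 * y 1 - 2 * e' 0 * y 0)
      + σ ^ 2 * qf3 e' := by
  simp only [qf3, Pi.add_apply, Pi.smul_apply, smul_eq_mul]
  ring

theorem shiftVal_cubic (T : Fin (k + 3) → Fin (k + 3) → Fin (k + 3) → ℝ)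
    (h12 : ∀ i j l, T i j l = T j i l) (h23 : ∀ i j l, T i j l = T i l j)
    (e x : Fin (k + 4) → ℝ) (σ : ℝ) :
    shiftVal T e x σ
      = (x 0 * qf3 (Fin.tail x) - tri T (Fin.tail x) (Fin.tail x) (Fin.tail x))
        + (x 0 * (Fin.tail e 1 * Fin.tail x 2 + Fin.tail e 2 * Fin.tail x 1
              - 2 * Fin.tail e 0 * Fin.tail x 0) + e 0 * qf3 (Fin.tail x)
            - 3 * tri T (Fin.tail x) (Fin.tail x) (Fin.tail e)) * σ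
        + (x 0 * qf3 (Fin.tail e) + e 0 * (Fin.tail e 1 * Fin.tail x 2 + Fin.tail e 2 * Fin.tail x 1
              - 2 * Fin.tail e 0 * Fin.tail x 0)
            - 3 * tri T (Fin.tail x) (Fin.tail e) (Fin.tail e)) * σ ^ 2
        + (e 0 * qf3 (Fin.tail e) - tri T (Fin.tail e) (Fin.tail e) (Fin.tail e)) * σ ^ 3 := by
  unfold shiftVal
  rw [qf3_shift, tri_add_cube h12 h23]
  simp only [tri_smul_left, tri_smul_mid, tri_smul_right]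
  ring

/-- Membership in the hyperbolicity cone: positivity along the ray `x + σ e`. -/
theorem mem_hypCone_nodeCubic_iff (T : Fin (k + 3) → Fin (k + 3) → Fin (k + 3) → ℝ)
    (h12 : ∀ i j l, T i j l = T j i l) (h23 : ∀ i j l, T i j l = T i l j)
    (e : Fin (k + 4) → ℝ) (hpe : 0 < eval e (nodeCubic (cubPoly T))) (x : Fin (k + 4) → ℝ) :
    x ∈ hypCone (nodeCubic (cubPoly T)) e ↔ ∀ σ : ℝ, 0 < σ → 0 < shiftVal T e x σ := by
  rw [eval_nodeCubic] at hpe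
  constructor
  · intro hx σ hσ
    rw [shiftVal_cubic T h12 h23]
    refine cubic_pos_of_no_root _ _ _ _ hpe ?_ σ hσ
    intro s hs h0
    have h1 := hx (-s) (by rw [lineRestrict_neg_eq, shiftVal_cubic T h12 h23, h0, neg_zero])
    linarith
  · intro h τ hτ
    by_contra hneg
    push Not at hneg
    have h1 := h (-τ) (by linarith)
    have h2 := lineRestrict_neg_eq T e x (-τ)
    rw [neg_neg, hτ] at h2
    linarith

/-! ### The lifted set -/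

/-- The ambient space of pairs `(x, u)`. -/
abbrev LiftSpace3 (k : ℕ) (ι : Type) : Type := (Fin (k + 4) → ℝ) × (ι → ℝ)

/-- `(x, u) ↦ y`, the last `k + 3` coordinates of `x`. -/
def yL3 (k : ℕ) (ι : Type) : LiftSpace3 k ι →ₗ[ℝ] (Fin (k + 3) → ℝ) :=
  (LinearMap.funLeft ℝ ℝ Fin.succ) ∘ₗ (LinearMap.fst ℝ _ _)

/-- `(x, u) ↦ x 0`. -/
def tL3 (k : ℕ) (ι : Type) : LiftSpace3 k ι →ₗ[ℝ] ℝ :=
  (LinearMap.proj 0) ∘ₗ (LinearMap.fst ℝ _ _)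

/-- `(x, u) ↦ u i`. -/
def uL3 (k : ℕ) {ι : Type} (i : ι) : LiftSpace3 k ι →ₗ[ℝ] ℝ :=
  (LinearMap.proj i) ∘ₗ (LinearMap.snd ℝ _ _)

/-- `(x, u) ↦ x 0 - lam y - ∑ u i`. -/
def slackL3 {ι : Type} [Fintype ι] (lam : (Fin (k + 3) → ℝ) →ₗ[ℝ] ℝ) : LiftSpace3 k ι →ₗ[ℝ] ℝ :=
  tL3 k ι - lam ∘ₗ yL3 k ι - ∑ i, uL3 k i

theorem slackL3_apply {ι : Type} [Fintype ι] (lam : (Fin (k + 3) → ℝ) →ₗ[ℝ] ℝ)
    (x : Fin (k + 4) → ℝ) (u : ι → ℝ) :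
    slackL3 lam (x, u) = x 0 - lam (Fin.tail x) - ∑ i, u i := by
  simp only [slackL3, LinearMap.sub_apply, LinearMap.sum_apply, LinearMap.comp_apply]
  rfl

/-- The lifted set, an intersection of linear matrix inequalities in `(x, u)`. -/
def lift3 {ι : Type} [Fintype ι] (w1 w2 : ι → (Fin (k + 3) → ℝ) →ₗ[ℝ] ℝ)
    (lam : (Fin (k + 3) → ℝ) →ₗ[ℝ] ℝ) : Set (LiftSpace3 k ι) :=
  ({v | 0 ≤ ((LinearMap.proj 1) ∘ₗ yL3 k ι) v ∧ 0 ≤ ((LinearMap.proj 2) ∘ₗ yL3 k ι) v ∧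
      (((LinearMap.proj 0) ∘ₗ yL3 k ι) v) ^ 2
        ≤ ((LinearMap.proj 1) ∘ₗ yL3 k ι) v * ((LinearMap.proj 2) ∘ₗ yL3 k ι) v}
    ∩ {v | 0 ≤ slackL3 lam v})
  ∩ ⋂ i, {v | ∀ c d1 d2 : ℝ, 0 ≤ (uL3 k i) v * c ^ 2
      + 2 * c * ((w1 i ∘ₗ yL3 k ι) v * d1 + (w2 i ∘ₗ yL3 k ι) v * d2)
      + ((LinearMap.proj 2) ∘ₗ yL3 k ι) v * d1 ^ 2
      - 2 * ((LinearMap.proj 0) ∘ₗ yL3 k ι) v * d1 * d2
      + ((LinearMap.proj 1) ∘ₗ yL3 k ι) v * d2 ^ 2}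

theorem isLMISet_lift3 {ι : Type} [Fintype ι] (w1 w2 : ι → (Fin (k + 3) → ℝ) →ₗ[ℝ] ℝ)
    (lam : (Fin (k + 3) → ℝ) →ₗ[ℝ] ℝ) : IsLMISet (lift3 w1 w2 lam) := by
  apply IsLMISet.inter
  · apply IsLMISet.inter
    · exact IsLMISet.psd_two _ _ _
    · exact IsLMISet.nonneg _
  · apply IsLMISet.iInter
    intro i
    exact IsLMISet.psd_three _ _ _ _ _ _

theorem mem_lift3_iff {ι : Type} [Fintype ι] (w1 w2 : ι → (Fin (k + 3) → ℝ) →ₗ[ℝ] ℝ)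
    (lam : (Fin (k + 3) → ℝ) →ₗ[ℝ] ℝ) (x : Fin (k + 4) → ℝ) (u : ι → ℝ) :
    (x, u) ∈ lift3 w1 w2 lam ↔
      ((0 ≤ Fin.tail x 1 ∧ 0 ≤ Fin.tail x 2 ∧ (Fin.tail x 0) ^ 2 ≤ Fin.tail x 1 * Fin.tail x 2)
        ∧ ∑ i, u i ≤ x 0 - lam (Fin.tail x))
      ∧ ∀ i, ∀ c d1 d2 : ℝ, 0 ≤ u i * c ^ 2
          + 2 * c * (w1 i (Fin.tail x) * d1 + w2 i (Fin.tail x) * d2)
          + Fin.tail x 2 * d1 ^ 2 - 2 * Fin.tail x 0 * d1 * d2 + Fin.tail x 1 * d2 ^ 2 := by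
  have hy : yL3 k ι (x, u) = Fin.tail x := rfl
  have hu : ∀ i, uL3 k i (x, u) = u i := fun i => rfl
  simp only [lift3, Set.mem_inter_iff, Set.mem_ofPred_eq, Set.mem_iInter, slackL3_apply,
    LinearMap.comp_apply, hy, hu, LinearMap.proj_apply]
  have h1 : (0 ≤ x 0 - lam (Fin.tail x) - ∑ i, u i) ↔ ∑ i, u i ≤ x 0 - lam (Fin.tail x) :=
    sub_nonneg
  rw [h1]

/-- Points of the closed cone shifted by an interior direction are interior. -/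
theorem shift_interior (y e' : Fin (k + 3) → ℝ) (he1 : 0 < e' 1) (he : e' 0 ^ 2 < e' 1 * e' 2)
    (hy1 : 0 ≤ y 1) (hy2 : 0 ≤ y 2) (hyq : y 0 ^ 2 ≤ y 1 * y 2) (σ : ℝ) (hσ : 0 < σ) :
    0 < (y + σ • e') 1 ∧ 0 < (y + σ • e') 2 ∧ 0 < qf3 (y + σ • e') := by
  have he2 : 0 < e' 2 := lorentz_pos_right _ _ _ he1 he
  refine ⟨?_, ?_, ?_⟩
  · simp only [Pi.add_apply, Pi.smul_apply, smul_eq_mul]
    have : 0 < σ * e' 1 := mul_pos hσ he1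
    linarith
  · simp only [Pi.add_apply, Pi.smul_apply, smul_eq_mul]
    have : 0 < σ * e' 2 := mul_pos hσ he2
    linarith
  · rw [qf3_shift]
    have hB := lorentz_pair_nonneg (e' 0) (e' 1) (e' 2) (y 0) (y 1) (y 2) he1 he hy1 hy2 hyq
    have hqy : 0 ≤ qf3 y := by unfold qf3; linarith
    have hqe : 0 < qf3 e' := by unfold qf3; linarith
    have h1 : 0 ≤ σ * (e' 1 * y 2 + e' 2 * y 1 - 2 * e' 0 * y 0) := mul_nonneg hσ.le hB
    have h2 : 0 < σ ^ 2 * qf3 e' := by positivity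
    linarith

end Vale.Agent.H69
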