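import Vale.Agent.H69.Lift3

/-!
# The hyperbolicity cone of a rank-three node cubic equals its semidefinite lift
-/

namespace Vale.Agent.H69

open MvPolynomial

variable {k : ℕ}

/-- One summand `w^T U w` of `certW`. -/
def term3 (a b : (Fin (k + 3) → ℝ) →ₗ[ℝ] ℝ) (y : Fin (k + 3) → ℝ) : ℝ :=
  y 1 * (a y) ^ 2 + 2 * y 0 * a y * b y + y 2 * (b y) ^ 2

theorem certW_eq_sum {ι : Type} [Fintype ι] (w1 w2 : ι → (Fin (k + 3) → ℝ) →ₗ[ℝ] ℝ)
    (y : Fin (k + 3) → ℝ) : certW w1 w2 y = ∑ i, term3 (w1 i) (w2 i) y := rfl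

theorem shiftVal_cert (T : Fin (k + 3) → Fin (k + 3) → Fin (k + 3) → ℝ) (e x : Fin (k + 4) → ℝ)
    {ι : Type} [Fintype ι] (w1 w2 : ι → (Fin (k + 3) → ℝ) →ₗ[ℝ] ℝ)
    (lam : (Fin (k + 3) → ℝ) →ₗ[ℝ] ℝ)
    (hcert : ∀ y : Fin (k + 3) → ℝ, 0 < y 1 → 0 < y 2 →
      tri T y y y = certW w1 w2 y + lam y * qf3 y)
    (σ : ℝ) (h1 : 0 < (Fin.tail x + σ • Fin.tail e) 1) (h2 : 0 < (Fin.tail x + σ • Fin.tail e) 2) :
    shiftVal T e x σ
      = qf3 (Fin.tail x + σ • Fin.tail e)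
          * (x 0 + σ * e 0 - lam (Fin.tail x) - σ * lam (Fin.tail e))
        - certW w1 w2 (Fin.tail x + σ • Fin.tail e) := by
  unfold shiftVal
  rw [hcert _ h1 h2, map_add, map_smul, smul_eq_mul]
  ring

/-- The lift gives positivity along the ray. -/
theorem shiftVal_pos_of_lift (T : Fin (k + 3) → Fin (k + 3) → Fin (k + 3) → ℝ)
    (e x : Fin (k + 4) → ℝ) (he1 : 0 < Fin.tail e 1)
    (he : Fin.tail e 0 ^ 2 < Fin.tail e 1 * Fin.tail e 2)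
    (hpe : 0 < eval e (nodeCubic (cubPoly T)))
    {ι : Type} [Fintype ι] (w1 w2 : ι → (Fin (k + 3) → ℝ) →ₗ[ℝ] ℝ)
    (lam : (Fin (k + 3) → ℝ) →ₗ[ℝ] ℝ)
    (hcert : ∀ y : Fin (k + 3) → ℝ, 0 < y 1 → 0 < y 2 →
      tri T y y y = certW w1 w2 y + lam y * qf3 y)
    (u : ι → ℝ) (hy1 : 0 ≤ Fin.tail x 1) (hy2 : 0 ≤ Fin.tail x 2)
    (hyq : Fin.tail x 0 ^ 2 ≤ Fin.tail x 1 * Fin.tail x 2)
    (hsum : ∑ i, u i ≤ x 0 - lam (Fin.tail x))
    (hM : ∀ i, ∀ c d1 d2 : ℝ, 0 ≤ u i * c ^ 2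
          + 2 * c * (w1 i (Fin.tail x) * d1 + w2 i (Fin.tail x) * d2)
          + Fin.tail x 2 * d1 ^ 2 - 2 * Fin.tail x 0 * d1 * d2 + Fin.tail x 1 * d2 ^ 2)
    (σ : ℝ) (hσ : 0 < σ) : 0 < shiftVal T e x σ := by
  set y : Fin (k + 3) → ℝ := Fin.tail x with hy
  set e' : Fin (k + 3) → ℝ := Fin.tail e with he'
  have he2 : 0 < e' 2 := lorentz_pos_right _ _ _ he1 he
  have hqe : 0 < qf3 e' := by unfold qf3; linarith
  have hqe' : 0 < e' 1 * e' 2 - e' 0 ^ 2 := hqe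
  obtain ⟨hs1, hs2, hsq⟩ := shift_interior y e' he1 he hy1 hy2 hyq σ hσ
  have hsq' : 0 < (y + σ • e') 1 * (y + σ • e') 2 - (y + σ • e') 0 ^ 2 := hsq
  rw [shiftVal_cert T e x w1 w2 lam hcert σ hs1 hs2]
  have hcert_e := hcert e' he1 he2
  rw [eval_nodeCubic] at hpe
  have hpe' : certW w1 w2 e' < (e 0 - lam e') * qf3 e' := by
    rw [hcert_e] at hpe
    have : (e 0 - lam e') * qf3 e' = e 0 * qf3 e' - lam e' * qf3 e' := by ring
    linarith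
  have hTe_sum : ∑ i, term3 (w1 i) (w2 i) e' / qf3 e' < e 0 - lam e' := by
    rw [← Finset.sum_div, ← certW_eq_sum, div_lt_iff₀ hqe]
    exact hpe'
  have hi : ∀ i, term3 (w1 i) (w2 i) (y + σ • e')
      ≤ (u i + σ * (term3 (w1 i) (w2 i) e' / qf3 e')) * qf3 (y + σ • e') := by
    intro i
    refine schur3_le (u i + σ * (term3 (w1 i) (w2 i) e' / qf3 e')) (w1 i (y + σ • e'))
      (w2 i (y + σ • e')) ((y + σ • e') 0) ((y + σ • e') 1) ((y + σ • e') 2) hsq' ?_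
    intro c d1 d2
    have h1 := hM i c d1 d2
    have h2 := schur3_ge (term3 (w1 i) (w2 i) e' / qf3 e') (w1 i e') (w2 i e') (e' 0) (e' 1)
      (e' 2) he1 hqe' (div_mul_cancel₀ _ hqe.ne').symm.le c d1 d2
    have e3 : (u i + σ * (term3 (w1 i) (w2 i) e' / qf3 e')) * c ^ 2
        + 2 * c * (w1 i (y + σ • e') * d1 + w2 i (y + σ • e') * d2)
        + (y + σ • e') 2 * d1 ^ 2 - 2 * (y + σ • e') 0 * d1 * d2 + (y + σ • e') 1 * d2 ^ 2
        = (u i * c ^ 2 + 2 * c * (w1 i y * d1 + w2 i y * d2)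
            + y 2 * d1 ^ 2 - 2 * y 0 * d1 * d2 + y 1 * d2 ^ 2)
          + σ * (term3 (w1 i) (w2 i) e' / qf3 e' * c ^ 2
            + 2 * c * (w1 i e' * d1 + w2 i e' * d2)
            + e' 2 * d1 ^ 2 - 2 * e' 0 * d1 * d2 + e' 1 * d2 ^ 2) := by
      simp only [map_add, map_smul, Pi.add_apply, Pi.smul_apply, smul_eq_mul]
      ring
    rw [e3]
    exact add_nonneg h1 (mul_nonneg hσ.le h2)
  have hsumW : certW w1 w2 (y + σ • e')
      ≤ (∑ i, u i + σ * ∑ i, term3 (w1 i) (w2 i) e' / qf3 e') * qf3 (y + σ • e') := by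
    rw [certW_eq_sum, Finset.mul_sum, ← Finset.sum_add_distrib, Finset.sum_mul]
    exact Finset.sum_le_sum fun i _ => hi i
  have hlt : ∑ i, u i + σ * ∑ i, term3 (w1 i) (w2 i) e' / qf3 e'
      < x 0 + σ * e 0 - lam y - σ * lam e' := by
    have := mul_lt_mul_of_pos_left hTe_sum hσ
    linarith
  have := mul_lt_mul_of_pos_right hlt hsq
  linarith [mul_comm (qf3 (y + σ • e')) (x 0 + σ * e 0 - lam y - σ * lam e')]

/-- Positivity along the ray forces the `y`-part into the closed Lorentz cone. -/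
theorem tail_mem_cone (T : Fin (k + 3) → Fin (k + 3) → Fin (k + 3) → ℝ)
    (e x : Fin (k + 4) → ℝ) (he1 : 0 < Fin.tail e 1)
    (he : Fin.tail e 0 ^ 2 < Fin.tail e 1 * Fin.tail e 2)
    (hpos : ∀ y : Fin (k + 3) → ℝ, 0 ≤ y 1 → 0 ≤ y 2 → qf3 y = 0 → 0 ≤ tri T y y y)
    (hf : ∀ σ : ℝ, 0 < σ → 0 < shiftVal T e x σ) :
    0 ≤ Fin.tail x 1 ∧ 0 ≤ Fin.tail x 2 ∧ Fin.tail x 0 ^ 2 ≤ Fin.tail x 1 * Fin.tail x 2 := by
  set y : Fin (k + 3) → ℝ := Fin.tail x with hy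
  set e' : Fin (k + 3) → ℝ := Fin.tail e with he'
  have he2 : 0 < e' 2 := lorentz_pos_right _ _ _ he1 he
  set A : ℝ := e' 1 * e' 2 - e' 0 ^ 2 with hA
  have hApos : 0 < A := by rw [hA]; linarith
  set B : ℝ := e' 1 * y 2 + e' 2 * y 1 - 2 * e' 0 * y 0 with hB
  set Cc : ℝ := y 1 * y 2 - y 0 ^ 2 with hCc
  have hdisc : 0 ≤ B ^ 2 - 4 * A * Cc :=
    lorentz_disc_nonneg (e' 0) (e' 1) (e' 2) (y 0) (y 1) (y 2) he1 he
  set s : ℝ := Real.sqrt (B ^ 2 - 4 * A * Cc) with hs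
  have hs0 : 0 ≤ s := Real.sqrt_nonneg _
  have hs2 : s ^ 2 = B ^ 2 - 4 * A * Cc := Real.sq_sqrt hdisc
  set σs : ℝ := (-B + s) / (2 * A) with hσs
  have hσB : 2 * A * σs + B = s := by
    rw [hσs]
    field_simp
    ring
  have hq0' : Cc + σs * B + σs ^ 2 * A = 0 := by
    have h1 : 4 * A * (Cc + σs * B + σs ^ 2 * A) = (2 * A * σs + B) ^ 2 - (B ^ 2 - 4 * A * Cc) := by
      ring
    rw [hσB, hs2] at h1
    have h2 : 4 * A * (Cc + σs * B + σs ^ 2 * A) = 0 := by linarith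
    rcases mul_eq_zero.mp h2 with h3 | h3
    · linarith
    · exact h3
  have hq0 : qf3 (y + σs • e') = 0 := by
    rw [qf3_shift]
    exact hq0'
  have hBstar : 0 ≤ e' 1 * (y + σs • e') 2 + e' 2 * (y + σs • e') 1
      - 2 * e' 0 * (y + σs • e') 0 := by
    simp only [Pi.add_apply, Pi.smul_apply, smul_eq_mul]
    have : e' 1 * (y 2 + σs * e' 2) + e' 2 * (y 1 + σs * e' 1) - 2 * e' 0 * (y 0 + σs * e' 0)
        = 2 * A * σs + B := by
      rw [hA, hB]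
      ring
    rw [this, hσB]
    exact hs0
  obtain ⟨hb1, hb2⟩ := cone_bdry (e' 0) (e' 1) (e' 2) ((y + σs • e') 0) ((y + σs • e') 1)
    ((y + σs • e') 2) he1 he (by unfold qf3 at hq0; linarith) hBstar
  have hσs_le : σs ≤ 0 := by
    by_contra h
    push Not at h
    have h1 := hf σs h
    unfold shiftVal at h1
    rw [hq0, mul_zero, zero_sub] at h1
    have h2 := hpos (y + σs • e') hb1 hb2 hq0
    linarith
  have h1' : (y + σs • e') 1 = y 1 + σs * e' 1 := by simp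
  have h2' : (y + σs • e') 2 = y 2 + σs * e' 2 := by simp
  refine ⟨?_, ?_, ?_⟩
  · have := mul_nonneg (neg_nonneg.mpr hσs_le) he1.le
    linarith
  · have := mul_nonneg (neg_nonneg.mpr hσs_le) he2.le
    linarith
  · have hC : Cc = (-σs) * (s - A * σs) := by
      linear_combination hq0' - σs * hσB
    have h3 : 0 ≤ s - A * σs := by
      have := mul_nonneg hApos.le (neg_nonneg.mpr hσs_le)
      linarith
    have h4 : 0 ≤ Cc := by
      rw [hC]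
      exact mul_nonneg (neg_nonneg.mpr hσs_le) h3
    linarith

/-- Positivity along the ray gives a point of the lift. -/
theorem lift_of_shiftVal_pos (T : Fin (k + 3) → Fin (k + 3) → Fin (k + 3) → ℝ)
    (e x : Fin (k + 4) → ℝ) (he1 : 0 < Fin.tail e 1)
    (he : Fin.tail e 0 ^ 2 < Fin.tail e 1 * Fin.tail e 2)
    (hpos : ∀ y : Fin (k + 3) → ℝ, 0 ≤ y 1 → 0 ≤ y 2 → qf3 y = 0 → 0 ≤ tri T y y y)
    {ι : Type} [Fintype ι] (w1 w2 : ι → (Fin (k + 3) → ℝ) →ₗ[ℝ] ℝ)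
    (lam : (Fin (k + 3) → ℝ) →ₗ[ℝ] ℝ)
    (hcert : ∀ y : Fin (k + 3) → ℝ, 0 < y 1 → 0 < y 2 →
      tri T y y y = certW w1 w2 y + lam y * qf3 y)
    (hf : ∀ σ : ℝ, 0 < σ → 0 < shiftVal T e x σ) :
    ∃ u : ι → ℝ,
      ((0 ≤ Fin.tail x 1 ∧ 0 ≤ Fin.tail x 2 ∧ (Fin.tail x 0) ^ 2 ≤ Fin.tail x 1 * Fin.tail x 2)
        ∧ ∑ i, u i ≤ x 0 - lam (Fin.tail x))
      ∧ ∀ i, ∀ c d1 d2 : ℝ, 0 ≤ u i * c ^ 2
          + 2 * c * (w1 i (Fin.tail x) * d1 + w2 i (Fin.tail x) * d2)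
          + Fin.tail x 2 * d1 ^ 2 - 2 * Fin.tail x 0 * d1 * d2 + Fin.tail x 1 * d2 ^ 2 := by
  obtain ⟨hy1, hy2, hyq⟩ := tail_mem_cone T e x he1 he hpos hf
  set y : Fin (k + 3) → ℝ := Fin.tail x with hy
  set e' : Fin (k + 3) → ℝ := Fin.tail e with he'
  set bound : ℝ := (x 0 - lam y) + |e 0 - lam e'| with hbound
  set Ts : ℝ → ι → ℝ := fun σ i => term3 (w1 i) (w2 i) (y + σ • e') / qf3 (y + σ • e') with hTs
  have hTs_sum : ∀ σ : ℝ, 0 < σ → ∑ i, Ts σ i < x 0 + σ * e 0 - lam y - σ * lam e' := by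
    intro σ hσ
    obtain ⟨hs1, hs2, hsq⟩ := shift_interior y e' he1 he hy1 hy2 hyq σ hσ
    have h := hf σ hσ
    rw [shiftVal_cert T e x w1 w2 lam hcert σ hs1 hs2] at h
    rw [hTs]
    simp only []
    rw [← Finset.sum_div, ← certW_eq_sum, div_lt_iff₀ hsq]
    linarith [mul_comm (qf3 (y + σ • e')) (x 0 + σ * e 0 - lam y - σ * lam e')]
  have hTs_nonneg : ∀ σ : ℝ, 0 < σ → ∀ i, 0 ≤ Ts σ i := by
    intro σ hσ i
    obtain ⟨hs1, hs2, hsq⟩ := shift_interior y e' he1 he hy1 hy2 hyq σ hσ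
    exact div_nonneg (term3_nonneg _ _ _ _ _ hs1 hsq) hsq.le
  have hbox : ∀ σ : ℝ, 0 < σ → σ ≤ 1 → ∀ i, Ts σ i ∈ Set.Icc (0 : ℝ) bound := by
    intro σ hσ hσ1 i
    refine ⟨hTs_nonneg σ hσ i, ?_⟩
    have h1 : Ts σ i ≤ ∑ j, Ts σ j :=
      Finset.single_le_sum (fun j _ => hTs_nonneg σ hσ j) (Finset.mem_univ i)
    have h2 := hTs_sum σ hσ
    have h3 : σ * (e 0 - lam e') ≤ |e 0 - lam e'| := by
      have ha := le_abs_self (e 0 - lam e')
      have hb := abs_nonneg (e 0 - lam e')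
      nlinarith
    rw [hbound]
    have h4 : x 0 + σ * e 0 - lam y - σ * lam e' = (x 0 - lam y) + σ * (e 0 - lam e') := by ring
    linarith
  obtain ⟨Tv, hTv⟩ := exists_limit_point bound Ts hbox
  refine ⟨Tv, ⟨⟨hy1, hy2, hyq⟩, ?_⟩, ?_⟩
  · have hc : Continuous (fun p : (ι → ℝ) × ℝ =>
        (x 0 + p.2 * e 0 - lam y - p.2 * lam e') - ∑ i, p.1 i) := by fun_prop
    have h := hTv (fun Tt σ => (x 0 + σ * e 0 - lam y - σ * lam e') - ∑ i, Tt i) hc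
      (fun σ hσ _ => by
        have := hTs_sum σ hσ
        linarith)
    simp only [zero_mul, add_zero, sub_zero] at h
    linarith
  · intro i c d1 d2
    have hc : Continuous (fun p : (ι → ℝ) × ℝ =>
        p.1 i * c ^ 2 + 2 * c * (w1 i y * d1 + w2 i y * d2)
          + y 2 * d1 ^ 2 - 2 * y 0 * d1 * d2 + y 1 * d2 ^ 2
          + p.2 * (2 * c * (w1 i e' * d1 + w2 i e' * d2)
            + e' 2 * d1 ^ 2 - 2 * e' 0 * d1 * d2 + e' 1 * d2 ^ 2)) := by fun_prop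
    have h := hTv (fun Tt σ => Tt i * c ^ 2 + 2 * c * (w1 i y * d1 + w2 i y * d2)
          + y 2 * d1 ^ 2 - 2 * y 0 * d1 * d2 + y 1 * d2 ^ 2
          + σ * (2 * c * (w1 i e' * d1 + w2 i e' * d2)
            + e' 2 * d1 ^ 2 - 2 * e' 0 * d1 * d2 + e' 1 * d2 ^ 2)) hc
      (fun σ hσ _ => by
        obtain ⟨hs1, hs2, hsq⟩ := shift_interior y e' he1 he hy1 hy2 hyq σ hσ
        have hsq' : 0 < (y + σ • e') 1 * (y + σ • e') 2 - (y + σ • e') 0 ^ 2 := hsq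
        have h2 := schur3_ge (Ts σ i) (w1 i (y + σ • e')) (w2 i (y + σ • e')) ((y + σ • e') 0)
          ((y + σ • e') 1) ((y + σ • e') 2) hs1 hsq' (div_mul_cancel₀ _ hsq.ne').symm.le c d1 d2
        have e3 : Ts σ i * c ^ 2 + 2 * c * (w1 i y * d1 + w2 i y * d2)
            + y 2 * d1 ^ 2 - 2 * y 0 * d1 * d2 + y 1 * d2 ^ 2
            + σ * (2 * c * (w1 i e' * d1 + w2 i e' * d2)
              + e' 2 * d1 ^ 2 - 2 * e' 0 * d1 * d2 + e' 1 * d2 ^ 2)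
            = Ts σ i * c ^ 2
              + 2 * c * (w1 i (y + σ • e') * d1 + w2 i (y + σ • e') * d2)
              + (y + σ • e') 2 * d1 ^ 2 - 2 * (y + σ • e') 0 * d1 * d2
              + (y + σ • e') 1 * d2 ^ 2 := by
          simp only [map_add, map_smul, Pi.add_apply, Pi.smul_apply, smul_eq_mul]
          ring
        rw [e3]
        exact h2)
    simpa using h

/-- The hyperbolicity cone equals the projection of the lifted set. -/
theorem hypCone_nodeCubic_eq (T : Fin (k + 3) → Fin (k + 3) → Fin (k + 3) → ℝ)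
    (h12 : ∀ i j l, T i j l = T j i l) (h23 : ∀ i j l, T i j l = T i l j)
    (e : Fin (k + 4) → ℝ) (he1 : 0 < Fin.tail e 1)
    (he : Fin.tail e 0 ^ 2 < Fin.tail e 1 * Fin.tail e 2)
    (hpe : 0 < eval e (nodeCubic (cubPoly T)))
    (hpos : ∀ y : Fin (k + 3) → ℝ, 0 ≤ y 1 → 0 ≤ y 2 → qf3 y = 0 → 0 ≤ tri T y y y)
    {ι : Type} [Fintype ι] (w1 w2 : ι → (Fin (k + 3) → ℝ) →ₗ[ℝ] ℝ)
    (lam : (Fin (k + 3) → ℝ) →ₗ[ℝ] ℝ)
    (hcert : ∀ y : Fin (k + 3) → ℝ, 0 < y 1 → 0 < y 2 →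
      tri T y y y = certW w1 w2 y + lam y * qf3 y) :
    hypCone (nodeCubic (cubPoly T)) e = {x | ∃ u : ι → ℝ, (x, u) ∈ lift3 w1 w2 lam} := by
  ext x
  rw [mem_hypCone_nodeCubic_iff T h12 h23 e hpe]
  simp only [Set.mem_ofPred_eq, mem_lift3_iff]
  constructor
  · intro hf
    exact lift_of_shiftVal_pos T e x he1 he hpos w1 w2 lam hcert hf
  · rintro ⟨u, ⟨⟨hy1, hy2, hyq⟩, hsum⟩, hM⟩ σ hσ
    exact shiftVal_pos_of_lift T e x he1 he hpe w1 w2 lam hcert u hy1 hy2 hyq hsum hM σ hσ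

/-- The rank-three node theorem in tensor form. -/
theorem nodeCubic_shadow_tensor (T : Fin (k + 3) → Fin (k + 3) → Fin (k + 3) → ℝ)
    (h12 : ∀ i j l, T i j l = T j i l) (h23 : ∀ i j l, T i j l = T i l j)
    (e : Fin (k + 4) → ℝ) (he1 : 0 < e 2) (he : e 1 ^ 2 < e 2 * e 3)
    (hyp : IsHyperbolic (nodeCubic (cubPoly T)) e) :
    IsSpectrahedralShadow (hypCone (nodeCubic (cubPoly T)) e) := by
  obtain ⟨_, hpe, hroots⟩ := hyp
  have he1' : 0 < Fin.tail e 1 := he1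
  have he' : Fin.tail e 0 ^ 2 < Fin.tail e 1 * Fin.tail e 2 := he
  have hqe : 0 < qf3 (Fin.tail e) := by unfold qf3; linarith
  have hpos : ∀ y : Fin (k + 3) → ℝ, 0 ≤ y 1 → 0 ≤ y 2 → qf3 y = 0 → 0 ≤ tri T y y y := by
    intro y h1 h2 h0
    exact cub_nonneg_of_hyperbolic T h12 h23 e hqe hpe hroots y
      (lorentz_pair_nonneg _ _ _ _ _ _ he1' he' h1 h2 (by unfold qf3 at h0; linarith)) h0
  obtain ⟨ι, hι, w1, w2, lam, hcert⟩ := exists_certificate T h12 h23 hpos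
  rw [hypCone_nodeCubic_eq T h12 h23 e he1' he' hpe hpos w1 w2 lam hcert]
  exact IsLMISet.shadow (isLMISet_lift3 w1 w2 lam)

/-- The rank-three node theorem: for every cubic form `c` in `k + 3` variables, if
`x0 * (x2 * x3 - x1^2) - c(x1, ..., x_{k+3})` is hyperbolic with respect to `e`, with `e` in the
forward Lorentz cone of the quadratic part, then its hyperbolicity cone is a spectrahedral
shadow. -/
theorem nodeCubic_shadow (c : MvPolynomial (Fin (k + 3)) ℝ) (hc : c.IsHomogeneous 3)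
    (e : Fin (k + 4) → ℝ) (he1 : 0 < e 2) (he : e 1 ^ 2 < e 2 * e 3)
    (hyp : IsHyperbolic (nodeCubic c) e) :
    IsSpectrahedralShadow (hypCone (nodeCubic c) e) := by
  obtain ⟨T, h12, h23, rfl⟩ := exists_symm_tensor c hc
  exact nodeCubic_shadow_tensor T h12 h23 e he1 he hyp

end Vale.Agent.H69
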