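import Vale.Agent.H69.Tensor

/-!
# The cubic `x0 * (x2 * x3 - x1^2) - c(x1, ..., x_{k+3})`
-/

namespace Vale.Agent.H69

open MvPolynomial

/-- The cubic `x0 * (x2 * x3 - x1^2) - c(x1, ..., x_{k+3})` in `k + 4` variables. -/
noncomputable def nodeCubic {k : ℕ} (c : MvPolynomial (Fin (k + 3)) ℝ) :
    MvPolynomial (Fin (k + 4)) ℝ :=
  X 0 * (X 2 * X 3 - X 1 ^ 2) - rename Fin.succ c

/-- The Lorentz form `y1 * y2 - y0^2`. -/
def qf3 {R : Type} [CommRing R] {k : ℕ} (y : Fin (k + 3) → R) : R := y 1 * y 2 - y 0 ^ 2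

theorem eval_nodeCubic {k : ℕ} (T : Fin (k + 3) → Fin (k + 3) → Fin (k + 3) → ℝ)
    (v : Fin (k + 4) → ℝ) :
    eval v (nodeCubic (cubPoly T))
      = v 0 * qf3 (Fin.tail v) - tri T (Fin.tail v) (Fin.tail v) (Fin.tail v) := by
  simp only [nodeCubic, map_sub, map_mul, map_pow, eval_X, eval_rename, eval_cubPoly, qf3]
  rfl

theorem aeval_nodeCubic {k : ℕ} (T : Fin (k + 3) → Fin (k + 3) → Fin (k + 3) → ℝ)
    (v : Fin (k + 4) → ℂ) :
    aeval v (nodeCubic (cubPoly T))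
      = v 0 * qf3 (Fin.tail v)
        - tri (fun i j l => (T i j l : ℂ)) (Fin.tail v) (Fin.tail v) (Fin.tail v) := by
  simp only [nodeCubic, map_sub, map_mul, map_pow, aeval_X, aeval_rename, aeval_cubPoly, qf3]
  rfl

theorem lineRestrict_nodeCubic_eval {k : ℕ} (T : Fin (k + 3) → Fin (k + 3) → Fin (k + 3) → ℝ)
    (e x : Fin (k + 4) → ℝ) (τ : ℝ) :
    Polynomial.eval τ (lineRestrict (nodeCubic (cubPoly T)) e x)
      = (e 0 * τ - x 0) * qf3 (τ • Fin.tail e - Fin.tail x)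
        - tri T (τ • Fin.tail e - Fin.tail x) (τ • Fin.tail e - Fin.tail x)
            (τ • Fin.tail e - Fin.tail x) := by
  rw [lineRestrict_eval, eval_nodeCubic]
  have h : Fin.tail (fun i => e i * τ - x i) = τ • Fin.tail e - Fin.tail x := by
    funext i
    simp [Fin.tail, mul_comm]
  rw [h]

theorem lineRestrict_nodeCubic_aeval {k : ℕ} (T : Fin (k + 3) → Fin (k + 3) → Fin (k + 3) → ℝ)
    (e x : Fin (k + 4) → ℝ) (z : ℂ) :
    Polynomial.aeval z (lineRestrict (nodeCubic (cubPoly T)) e x)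
      = ((e 0 : ℂ) * z - (x 0 : ℂ))
          * qf3 (z • (fun i => (Fin.tail e i : ℂ)) - fun i => (Fin.tail x i : ℂ))
        - tri (fun i j l => (T i j l : ℂ))
            (z • (fun i => (Fin.tail e i : ℂ)) - fun i => (Fin.tail x i : ℂ))
            (z • (fun i => (Fin.tail e i : ℂ)) - fun i => (Fin.tail x i : ℂ))
            (z • (fun i => (Fin.tail e i : ℂ)) - fun i => (Fin.tail x i : ℂ)) := by
  rw [lineRestrict_aeval, aeval_nodeCubic]
  have h : Fin.tail (fun i => (e i : ℂ) * z - (x i : ℂ))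
      = z • (fun i => (Fin.tail e i : ℂ)) - fun i => (Fin.tail x i : ℂ) := by
    funext i
    simp [Fin.tail, mul_comm]
  rw [h]

end Vale.Agent.H69
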