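import Vale.Agent.H69.T3Ext
import Vale.Agent.H69.T3Ext2

/-!
# Necessary conditions at a singular point of a hyperbolic cubic

Let `p(x) = tri T x x x` be hyperbolic in direction `e` and let `a` be a singular point
(`tri T a a v = 0` for all `v`) with `tri T a e e > 0`.  Then `p ≤ 0` at every point `y` with
`tri T a y y = 0` and `tri T a e y ≥ 0`; `p = 0` on the radical of the form `tri T a · ·`; and
`tri T e z z ≤ 0` for `z` in the radical.
-/

namespace Vale.Agent.H69

variable {N : ℕ}

/-- Real-rootedness of the line polynomial, in coefficient form. -/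
theorem line_real_rooted (T : Fin N → Fin N → Fin N → ℝ)
    (h12 : ∀ i j l, T i j l = T j i l) (h23 : ∀ i j l, T i j l = T i l j) (e : Fin N → ℝ)
    (hroots : ∀ x : Fin N → ℝ, ∀ z : ℂ,
      tri (fun i j l => (T i j l : ℂ)) (fun i => (e i : ℂ) * z - (x i : ℂ))
        (fun i => (e i : ℂ) * z - (x i : ℂ)) (fun i => (e i : ℂ) * z - (x i : ℂ)) = 0 → z.im = 0)
    (u : Fin N → ℝ) (z : ℂ)
    (hz : ((tri T e e e : ℝ) : ℂ) * z ^ 3 + ((3 * tri T e e u : ℝ) : ℂ) * z ^ 2
      + ((3 * tri T e u u : ℝ) : ℂ) * z + ((tri T u u u : ℝ) : ℂ) = 0) : z.im = 0 := by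
  have hTc12 : ∀ i j l, ((T i j l : ℝ) : ℂ) = (T j i l : ℂ) := fun i j l => by rw [h12 i j l]
  have hTc23 : ∀ i j l, ((T i j l : ℝ) : ℂ) = (T i l j : ℂ) := fun i j l => by rw [h23 i j l]
  apply hroots (-u) z
  have hξ : (fun i => (e i : ℂ) * z - (((-u) i : ℝ) : ℂ))
      = z • (fun i => (e i : ℂ)) + fun i => (u i : ℂ) := by
    funext i
    simp [mul_comm]
  rw [hξ, tri_add_cube hTc12 hTc23, tri_smul_left, tri_smul_mid, tri_smul_right, tri_smul_left,
    tri_smul_mid, tri_smul_left, ← tri_ofReal, ← tri_ofReal, ← tri_ofReal, ← tri_ofReal]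
  push_cast at hz ⊢
  linear_combination hz

section Node

variable (T : Fin N → Fin N → Fin N → ℝ)
  (h12 : ∀ i j l, T i j l = T j i l) (h23 : ∀ i j l, T i j l = T i l j) (e a : Fin N → ℝ)
  (ha : ∀ v : Fin N → ℝ, tri T a a v = 0)

include h12 h23 ha

theorem node_u1 (s : ℝ) (v : Fin N → ℝ) :
    tri T e e (s • a + v) = s * tri T a e e + tri T e e v := by
  have h_eea : tri T e e a = tri T a e e := by
    rw [tri_swap23 h23 e e a, tri_swap12 h12 e a e]
  rw [tri_add_right, tri_smul_right, h_eea]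

theorem node_u2 (s : ℝ) (v : Fin N → ℝ) :
    tri T e (s • a + v) (s • a + v) = 2 * s * tri T a e v + tri T e v v := by
  have h_eaa : tri T e a a = 0 := by
    rw [tri_swap12 h12 e a a, tri_swap23 h23 a e a]
    exact ha e
  have h_eav : ∀ v, tri T e a v = tri T a e v := fun v => tri_swap12 h12 e a v
  have h_eva : ∀ v, tri T e v a = tri T a e v := fun v => by
    rw [tri_swap23 h23 e v a, tri_swap12 h12 e a v]
  simp only [tri_add_mid, tri_add_right, tri_smul_mid, tri_smul_right]
  rw [h_eaa, h_eav, h_eva]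
  ring

theorem node_u3 (s : ℝ) (v : Fin N → ℝ) :
    tri T (s • a + v) (s • a + v) (s • a + v) = 3 * s * tri T a v v + tri T v v v := by
  rw [tri_add_cube h12 h23, tri_smul_cube, tri_smul_left, tri_smul_mid, tri_smul_left, ha a, ha v]
  ring

variable (hpe : 0 < tri T e e e)
  (hroots : ∀ x : Fin N → ℝ, ∀ z : ℂ,
    tri (fun i j l => (T i j l : ℂ)) (fun i => (e i : ℂ) * z - (x i : ℂ))
      (fun i => (e i : ℂ) * z - (x i : ℂ)) (fun i => (e i : ℂ) * z - (x i : ℂ)) = 0 → z.im = 0)
  (hQ : 0 < tri T a e e)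

include hpe hroots hQ

/-- The cubic is nonpositive on the forward null directions of the Hessian form. -/
theorem node_nec (y : Fin N → ℝ) (h0 : tri T a y y = 0) (h1 : 0 ≤ tri T a e y) :
    tri T y y y ≤ 0 := by
  have hQne : tri T a e e ≠ 0 := hQ.ne'
  refine cubic_pencil_const_nonpos (tri T e e e) (3 * tri T e e y) (3 * tri T e y y)
    (tri T y y y) (3 * tri T a e e) (2 * tri T a e y / tri T a e e) hpe (by linarith)
    (div_nonneg (by linarith) hQ.le) ?_
  intro s z hz
  apply line_real_rooted T h12 h23 e hroots (s • a + y) z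
  have e1 : 3 * tri T e e (s • a + y) = 3 * tri T e e y + s * (3 * tri T a e e) := by
    rw [node_u1 T h12 h23 e a ha]
    ring
  have e2 : 3 * tri T e (s • a + y) (s • a + y)
      = 3 * tri T e y y + s * (3 * tri T a e e) * (2 * tri T a e y / tri T a e e) := by
    rw [node_u2 T h12 h23 e a ha]
    field_simp
    ring
  have e3 : tri T (s • a + y) (s • a + y) (s • a + y) = tri T y y y := by
    rw [node_u3 T h12 h23 a ha, h0]
    ring
  rw [e1, e2, e3]
  exact hz

/-- The cubic vanishes on the radical of the Hessian form. -/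
theorem node_rad_cube (z : Fin N → ℝ) (hz : ∀ y : Fin N → ℝ, tri T a z y = 0) :
    tri T z z z = 0 := by
  have hez : tri T a e z = 0 := by
    rw [tri_swap23 h23 a e z]
    exact hz e
  have h1 := node_nec T h12 h23 e a ha hpe hroots hQ z (hz z) (by rw [hez])
  have hneg : -z = (-1 : ℝ) • z := by simp
  have h2 := node_nec T h12 h23 e a ha hpe hroots hQ (-z)
    (by rw [hneg, tri_smul_mid, tri_smul_right, hz z]; ring)
    (by rw [hneg, tri_smul_right, hez]; simp)
  rw [tri_neg_cube] at h2
  linarith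

/-- The form `tri T e · ·` is nonpositive on the radical of the Hessian form. -/
theorem node_rad_quad (z : Fin N → ℝ) (hz : ∀ y : Fin N → ℝ, tri T a z y = 0) :
    tri T e z z ≤ 0 := by
  have hez : tri T a e z = 0 := by
    rw [tri_swap23 h23 a e z]
    exact hz e
  have hc := node_rad_cube T h12 h23 e a ha hpe hroots hQ z hz
  set s : ℝ := -(tri T e e z) / tri T a e e with hs
  have key := Vale.Agent.H57.newton_cubic (tri T e e e) (3 * tri T e e (s • a + z))
    (3 * tri T e (s • a + z) (s • a + z)) (tri T (s • a + z) (s • a + z) (s • a + z)) hpe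
    (fun ζ hζ => line_real_rooted T h12 h23 e hroots (s • a + z) ζ hζ)
  have e1 : 3 * tri T e e (s • a + z) = 0 := by
    rw [node_u1 T h12 h23 e a ha, hs]
    field_simp
    ring
  have e2 : 3 * tri T e (s • a + z) (s • a + z) = 3 * tri T e z z := by
    rw [node_u2 T h12 h23 e a ha, hez]
    ring
  rw [e1, e2] at key
  have h3 := key.1
  nlinarith

end Node

end Vale.Agent.H69
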