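import Vale.Agent.H69.Assembly
import Vale.Agent.H69.Extract

/-!
# Cubics of the form `L q - ∑ m_j² ℓ_j` in the original variables

Pull back the cone-over family along the linear map `x ↦ (L x, x)`.
-/

namespace Vale.Agent.H69

open MvPolynomial Matrix

theorem lineRestrict_linPoly {n : ℕ} (c e x : Fin n → ℝ) :
    lineRestrict (linPoly c) e x
      = Polynomial.C (lf c e) * Polynomial.X - Polynomial.C (lf c x) := by
  simp only [lineRestrict, linPoly, lf, map_sum, map_mul, aeval_C, aeval_X,
    Polynomial.algebraMap_eq, Finset.sum_mul, ← Finset.sum_sub_distrib]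
  refine Finset.sum_congr rfl fun i _ => ?_
  ring

theorem lineRestrict_schurCubic {N J : ℕ} (A : Matrix (Fin N) (Fin N) ℝ)
    (m l : Fin J → Fin N → ℝ) (s t : ℝ) (e x : Fin N → ℝ) :
    lineRestrict (schurCubic A m l) (Fin.cons s e) (Fin.cons t x)
      = (Polynomial.C s * Polynomial.X - Polynomial.C t) * lineRestrict (quadPoly A) e x
        - ∑ j, (lineRestrict (linPoly (m j)) e x) ^ 2 * lineRestrict (linPoly (l j)) e x := by
  have hcomp : (fun i : Fin (N + 1) =>
        Polynomial.C ((Fin.cons s e : Fin (N + 1) → ℝ) i) * Polynomial.X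
          - Polynomial.C ((Fin.cons t x : Fin (N + 1) → ℝ) i)) ∘ Fin.succ
      = fun i : Fin N => Polynomial.C (e i) * Polynomial.X - Polynomial.C (x i) := by
    funext i
    simp
  simp only [lineRestrict, schurCubic, map_sub, map_mul, map_sum, map_pow, aeval_X,
    aeval_rename, hcomp, Fin.cons_zero]

theorem lineRestrict_certCubic {n J : ℕ} (A : Matrix (Fin n) (Fin n) ℝ) (cL : Fin n → ℝ)
    (m l : Fin J → Fin n → ℝ) (e x : Fin n → ℝ) :
    lineRestrict (linPoly cL * quadPoly A - ∑ j, (linPoly (m j)) ^ 2 * linPoly (l j)) e x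
      = lineRestrict (schurCubic A m l) (Fin.cons (lf cL e) e) (Fin.cons (lf cL x) x) := by
  rw [lineRestrict_schurCubic, ← lineRestrict_linPoly]
  simp only [lineRestrict, map_sub, map_mul, map_sum, map_pow]

/-- The linear map `x ↦ (L x, x)`. -/
def graphL {n : ℕ} (c : Fin n → ℝ) : (Fin n → ℝ) →ₗ[ℝ] (Fin (n + 1) → ℝ) :=
  LinearMap.pi (Fin.cons (lfL c) (fun i => LinearMap.proj i))

theorem graphL_apply {n : ℕ} (c x : Fin n → ℝ) :
    graphL c x = (Fin.cons (lf c x) x : Fin (n + 1) → ℝ) := by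
  funext i
  refine Fin.cases ?_ (fun i => ?_) i
  · simp [graphL, lfL_apply]
  · simp [graphL]

/-- Coefficient form of the main theorem. -/
theorem certCubic_main {n J : ℕ} {A : Matrix (Fin n) (Fin n) ℝ} (hA : A.IsSymm)
    (cL : Fin n → ℝ) (m l : Fin J → Fin n → ℝ) (e : Fin n → ℝ)
    (hq : IsHyperbolic (quadPoly A) e)
    (hl : ∀ j, ∀ y ∈ hypCone (quadPoly A) e, 0 ≤ lf (l j) y)
    (hp : 0 < eval e (linPoly cL * quadPoly A - ∑ j, (linPoly (m j)) ^ 2 * linPoly (l j))) :
    IsHyperbolic (linPoly cL * quadPoly A - ∑ j, (linPoly (m j)) ^ 2 * linPoly (l j)) e ∧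
      IsSpectrahedralShadow
        (hypCone (linPoly cL * quadPoly A - ∑ j, (linPoly (m j)) ^ 2 * linPoly (l j)) e) := by
  have hs : 0 < eval (Fin.cons (lf cL e) e : Fin (n + 1) → ℝ) (schurCubic A m l) := by
    rw [eval_schurCubic_dir]
    simpa only [map_sub, map_mul, map_sum, map_pow, eval_linPoly, eval_quadPoly] using hp
  have hmain := schurCubic_hyperbolic hA hq m l hl (lf cL e) hs
  have hcone := hypCone_schurCubic_eq hA hq m l hl (lf cL e) hs
  refine ⟨⟨⟨3, ?_⟩, hp, ?_⟩, ?_⟩
  · refine IsHomogeneous.sub ?_ ?_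
    · exact (linPoly_isHomogeneous cL).mul (quadPoly_isHomogeneous A)
    · refine IsHomogeneous.sum _ _ _ fun j _ => ?_
      exact ((linPoly_isHomogeneous (m j)).pow 2).mul (linPoly_isHomogeneous (l j))
  · intro x z hz
    rw [lineRestrict_certCubic] at hz
    exact hmain.2.2 _ z hz
  · have hset : hypCone (linPoly cL * quadPoly A
          - ∑ j, (linPoly (m j)) ^ 2 * linPoly (l j)) e
        = {x | ∃ u : Fin J ⊕ Fin J → ℝ,
            (x, u) ∈ (LinearMap.prodMap (graphL cL) LinearMap.id) ⁻¹' liftSet A e m l} := by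
      ext x
      have h1 : x ∈ hypCone (linPoly cL * quadPoly A
            - ∑ j, (linPoly (m j)) ^ 2 * linPoly (l j)) e
          ↔ (Fin.cons (lf cL x) x : Fin (n + 1) → ℝ)
              ∈ hypCone (schurCubic A m l) (Fin.cons (lf cL e) e) := by
        simp only [hypCone, Set.mem_ofPred_eq, lineRestrict_certCubic]
      rw [h1, hcone]
      simp only [Set.mem_ofPred_eq, Set.mem_preimage, LinearMap.prodMap_apply, graphL_apply,
        LinearMap.id_coe, id_eq]
    rw [hset]
    exact IsLMISet.shadow ((isLMISet_liftSet hA e m l).preimage _)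

/-- Main theorem, for polynomials: if `q` is a quadratic form hyperbolic with respect to `e`,
`L` and the `m j` are linear forms, the `l j` are linear forms that are nonnegative on the
hyperbolicity cone of `q`, and the cubic `p = L q - ∑ j, (m j)² (l j)` is positive at `e`, then
`p` is hyperbolic with respect to `e` and its hyperbolicity cone is a spectrahedral shadow. -/
theorem certCubic_main' {n J : ℕ} (q L : MvPolynomial (Fin n) ℝ)
    (m l : Fin J → MvPolynomial (Fin n) ℝ) (e : Fin n → ℝ)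
    (hq2 : q.IsHomogeneous 2) (hL : L.IsHomogeneous 1)
    (hm : ∀ j, (m j).IsHomogeneous 1) (hl1 : ∀ j, (l j).IsHomogeneous 1)
    (hq : IsHyperbolic q e) (hl : ∀ j, ∀ y ∈ hypCone q e, 0 ≤ eval y (l j))
    (hp : 0 < eval e (L * q - ∑ j, (m j) ^ 2 * l j)) :
    IsHyperbolic (L * q - ∑ j, (m j) ^ 2 * l j) e ∧
      IsSpectrahedralShadow (hypCone (L * q - ∑ j, (m j) ^ 2 * l j) e) := by
  obtain ⟨A, hA, rfl⟩ := exists_quadPoly_of_isHomogeneous q hq2
  obtain ⟨cL, rfl⟩ := exists_linPoly_of_isHomogeneous L hL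
  choose mc hmc using fun j => exists_linPoly_of_isHomogeneous (m j) (hm j)
  choose lc hlc using fun j => exists_linPoly_of_isHomogeneous (l j) (hl1 j)
  obtain rfl : m = fun j => linPoly (mc j) := funext hmc
  obtain rfl : l = fun j => linPoly (lc j) := funext hlc
  refine certCubic_main hA cL mc lc e hq ?_ hp
  intro j y hy
  have := hl j y hy
  rwa [eval_linPoly] at this

end Vale.Agent.H69
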