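import Vale.Agent.H69.Lift3Main
import Vale.Agent.H69.Pullback

/-!
# Rank-three node cubics after a linear change of variables
-/

namespace Vale.Agent.H69

open MvPolynomial

/-- Spectrahedral shadows pull back under linear maps. -/
theorem IsSpectrahedralShadow.preimage_lf {m n : ℕ} {S : Set (Fin m → ℝ)}
    (hS : IsSpectrahedralShadow S) (L : Fin m → Fin n → ℝ) :
    IsSpectrahedralShadow {x : Fin n → ℝ | (fun i => lf (L i) x) ∈ S} := by
  obtain ⟨K, a, A0, A, B, hA0, hA, hB, rfl⟩ := hS
  refine ⟨K, a, A0, fun j => ∑ i, L i j • A i, B, hA0, ?_, hB, ?_⟩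
  · intro j
    unfold Matrix.IsSymm
    rw [Matrix.transpose_sum]
    refine Finset.sum_congr rfl fun i _ => ?_
    rw [Matrix.transpose_smul, (hA i).eq]
  · ext x
    simp only [Set.mem_ofPred_eq]
    have h : ∑ i, lf (L i) x • A i = ∑ j, x j • ∑ i, L i j • A i := by
      simp only [lf, Finset.sum_smul, Finset.smul_sum, smul_smul]
      rw [Finset.sum_comm]
      refine Finset.sum_congr rfl fun j _ => Finset.sum_congr rfl fun i _ => ?_
      rw [mul_comm]
    rw [h]

theorem eval_nodeCubic' {k : ℕ} (c : MvPolynomial (Fin (k + 3)) ℝ) (v : Fin (k + 4) → ℝ) :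
    eval v (nodeCubic c) = v 0 * (v 2 * v 3 - v 1 ^ 2) - eval (Fin.tail v) c := by
  simp only [nodeCubic, map_sub, map_mul, map_pow, eval_X, eval_rename]
  rfl

theorem nodeCubic_isHomogeneous {k : ℕ} (c : MvPolynomial (Fin (k + 3)) ℝ)
    (hc : c.IsHomogeneous 3) : (nodeCubic c).IsHomogeneous 3 := by
  unfold nodeCubic
  refine IsHomogeneous.sub ?_ hc.rename_isHomogeneous
  have h1 : (X 0 : MvPolynomial (Fin (k + 4)) ℝ).IsHomogeneous 1 := isHomogeneous_X _ _
  have h2 : (X 2 * X 3 - X 1 ^ 2 : MvPolynomial (Fin (k + 4)) ℝ).IsHomogeneous 2 :=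
    IsHomogeneous.sub ((isHomogeneous_X _ _).mul (isHomogeneous_X _ _))
      ((isHomogeneous_X _ _).pow 2)
  exact h1.mul h2

theorem lf_line {n : ℕ} (c e x : Fin n → ℝ) (t : ℝ) :
    lf c (fun j => e j * t - x j) = lf c e * t - lf c x := by
  simp only [lf, Finset.sum_mul, ← Finset.sum_sub_distrib]
  refine Finset.sum_congr rfl fun i _ => ?_
  ring

/-- A polynomial that is a linear pullback of `P` has the pulled-back line restrictions. -/
theorem lineRestrict_pullback {m n : ℕ} (P : MvPolynomial (Fin m) ℝ) (p : MvPolynomial (Fin n) ℝ)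
    (L : Fin m → Fin n → ℝ) (hp : ∀ x : Fin n → ℝ, eval x p = eval (fun i => lf (L i) x) P)
    (e x : Fin n → ℝ) :
    lineRestrict p e x = lineRestrict P (fun i => lf (L i) e) (fun i => lf (L i) x) := by
  apply Polynomial.funext
  intro t
  rw [lineRestrict_eval, lineRestrict_eval, hp]
  have h : (fun i => lf (L i) fun j => e j * t - x j) = fun i => lf (L i) e * t - lf (L i) x :=
    funext fun i => lf_line (L i) e x t
  rw [h]

/-- The rank-three node theorem after a surjective linear change of variables. -/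
theorem nodeCubic_pullback_shadow {n k : ℕ} (c : MvPolynomial (Fin (k + 3)) ℝ)
    (hc : c.IsHomogeneous 3) (L : Fin (k + 4) → Fin n → ℝ)
    (hsurj : ∀ v : Fin (k + 4) → ℝ, ∃ x : Fin n → ℝ, ∀ i, lf (L i) x = v i)
    (p : MvPolynomial (Fin n) ℝ)
    (hp : ∀ x : Fin n → ℝ, eval x p
      = lf (L 0) x * (lf (L 2) x * lf (L 3) x - lf (L 1) x ^ 2)
        - eval (fun i : Fin (k + 3) => lf (L i.succ) x) c)
    (e : Fin n → ℝ) (he2 : 0 < lf (L 2) e) (he : lf (L 1) e ^ 2 < lf (L 2) e * lf (L 3) e)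
    (hyp : IsHyperbolic p e) : IsSpectrahedralShadow (hypCone p e) := by
  have hp' : ∀ x : Fin n → ℝ, eval x p = eval (fun i => lf (L i) x) (nodeCubic c) := by
    intro x
    rw [hp x, eval_nodeCubic']
    rfl
  have hline := lineRestrict_pullback (nodeCubic c) p L hp' e
  obtain ⟨_, hpe, hroots⟩ := hyp
  have hypP : IsHyperbolic (nodeCubic c) (fun i => lf (L i) e) := by
    refine ⟨⟨3, nodeCubic_isHomogeneous c hc⟩, ?_, ?_⟩
    · rw [← hp' e]
      exact hpe
    · intro v z hz
      obtain ⟨x, hx⟩ := hsurj v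
      have hv : v = fun i => lf (L i) x := funext fun i => (hx i).symm
      rw [hv, ← hline x] at hz
      exact hroots x z hz
  have hshadow := nodeCubic_shadow c hc (fun i => lf (L i) e) he2 he hypP
  have hset : hypCone p e
      = {x : Fin n → ℝ | (fun i => lf (L i) x) ∈ hypCone (nodeCubic c) (fun i => lf (L i) e)} := by
    ext x
    simp only [hypCone, Set.mem_ofPred_eq, hline x]
  rw [hset]
  exact hshadow.preimage_lf L

end Vale.Agent.H69
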