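import Vale.Agent.H69.Rank12a

/-!
# Hyperbolic cubics with a singular point whose Hessian has rank one

At such a point the tangent cone is a half-space `{f ≥ 0}` and the cubic is `f` times a
quadratic form: `p = ℓ * f * f - f * N` with a nonnegative quadratic form `N`.  The certificate
theorem shows that the hyperbolicity cone is a spectrahedron.
-/

namespace Vale.Agent.H69

open MvPolynomial Matrix

variable {n : ℕ}

/-- **Rank one.**  A hyperbolic cubic with a singular point `a` at which the Hessian form has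
rank one (normalised so that the form is positive at `e`) has a spectrahedral hyperbolicity
cone. -/
theorem node_rank1_spectrahedron (T : Fin n → Fin n → Fin n → ℝ)
    (h12 : ∀ i j l, T i j l = T j i l) (h23 : ∀ i j l, T i j l = T i l j)
    (e a : Fin n → ℝ) (hyp : IsHyperbolic (cubPoly T) e)
    (ha : ∀ v : Fin n → ℝ, tri T a a v = 0) (hrank : (hessM T a).rank = 1)
    (hQ : 0 < tri T a e e) :
    IsSpectrahedron (hypCone (cubPoly T) e) := by
  have hpe : 0 < tri T e e e := by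
    have h := hyp.2.1
    rwa [eval_cubPoly] at h
  have hroots : ∀ x : Fin n → ℝ, ∀ z : ℂ,
      tri (fun i j l => (T i j l : ℂ)) (fun i => (e i : ℂ) * z - (x i : ℂ))
        (fun i => (e i : ℂ) * z - (x i : ℂ)) (fun i => (e i : ℂ) * z - (x i : ℂ)) = 0
        → z.im = 0 := by
    intro x z hz
    apply hyp.2.2 x z
    rw [lineRestrict_aeval, aeval_cubPoly]
    exact hz
  have hrad := tri_frame1 T h12 h23 a e hrank hQ
  obtain ⟨r, hrpos, hrr⟩ : ∃ r : ℝ, 0 < r ∧ r * r = tri T a e e :=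
    ⟨Real.sqrt (tri T a e e), Real.sqrt_pos.mpr hQ, Real.mul_self_sqrt hQ.le⟩
  have hrne : r ≠ 0 := hrpos.ne'
  obtain ⟨f, hfapp⟩ : ∃ f : (Fin n → ℝ) →ₗ[ℝ] ℝ, ∀ x, f x = (1 / r) * tri T a e x :=
    ⟨(1 / r) • triL T a e, fun x => rfl⟩
  obtain ⟨u, hu⟩ : ∃ u : Fin n → ℝ, u = (1 / r) • e := ⟨_, rfl⟩
  obtain ⟨Z, hZapp⟩ : ∃ Z : (Fin n → ℝ) →ₗ[ℝ] (Fin n → ℝ), ∀ x, Z x = x + (-(f x)) • u :=
    ⟨LinearMap.id + (-f).smulRight u, fun x => rfl⟩
  have hdec : ∀ x, x = f x • u + Z x := by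
    intro x
    rw [hZapp]
    module
  have hEu : tri T a e u = r := by
    rw [hu, tri_smul_right, ← hrr]
    field_simp
  have hfe : f e = r := by
    rw [hfapp, ← hrr]
    field_simp
  have hZrad : ∀ x y : Fin n → ℝ, tri T a (Z x) y = 0 := by
    intro x
    apply hrad
    rw [hZapp, tri_add_right, tri_smul_right, hEu, hfapp]
    field_simp
    ring
  have hZcube : ∀ x : Fin n → ℝ, tri T (Z x) (Z x) (Z x) = 0 := fun x =>
    node_rad_cube T h12 h23 e a ha hpe hroots hQ (Z x) (hZrad x)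
  have hZquad : ∀ x : Fin n → ℝ, tri T u (Z x) (Z x) ≤ 0 := by
    intro x
    have h := node_rad_quad T h12 h23 e a ha hpe hroots hQ (Z x) (hZrad x)
    rw [hu, tri_smul_left]
    have h1 : 0 < 1 / r := by positivity
    nlinarith
  set β : (Fin n → ℝ) →ₗ[ℝ] (Fin n → ℝ) →ₗ[ℝ] ℝ := LinearMap.mk₂ ℝ
    (fun x y => -(3 * tri T u (Z x) (Z y)))
    (by intro x x' y
        simp only [map_add, tri_add_mid]
        ring)
    (by intro c x y
        simp only [map_smul, tri_smul_mid, smul_eq_mul]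
        ring)
    (by intro x y y'
        simp only [map_add, tri_add_right]
        ring)
    (by intro c x y
        simp only [map_smul, tri_smul_right, smul_eq_mul]
        ring) with hβ
  have hβapp : ∀ x, β x x = -(3 * tri T u (Z x) (Z x)) := by
    intro x
    rw [hβ, LinearMap.mk₂_apply]
  have hβnn : ∀ x, 0 ≤ β x x := by
    intro x
    rw [hβapp]
    have := hZquad x
    linarith
  obtain ⟨m, hm⟩ := sos_of_nonneg β hβnn
  obtain ⟨ℓ, hℓapp⟩ : ∃ ℓ : (Fin n → ℝ) →ₗ[ℝ] ℝ,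
      ∀ x, ℓ x = tri T u u u * f x + 3 * tri T u u (Z x) :=
    ⟨(tri T u u u) • f + (3 : ℝ) • (triL T u u ∘ₗ Z), fun x => rfl⟩
  refine cert_spectrahedron_diag (cubPoly T) e ℓ f f m
    (fun _ : Fin 0 => (0 : (Fin n → ℝ) →ₗ[ℝ] ℝ)) ?_ (by rw [hfe]; exact hrpos)
    (by rw [hfe]; exact hrpos) hyp.2.1
  intro x
  have key := tri_cube2 h12 h23 u (Z x) (f x)
  rw [← hdec x, hZcube x] at key
  rw [eval_cubPoly, key, ← hm x, hβapp, hℓapp]
  simp only [Finset.univ_eq_empty, Finset.sum_empty, mul_zero, sub_zero]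
  ring

end Vale.Agent.H69
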