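import Vale.Agent.H69.CertSpec
import Vale.Agent.H69.NodeNec
import Vale.Agent.H69.Frame12

/-!
# Tools for singular points of Hessian rank one and two

Sums of squares for nonnegative quadratic forms, the diagonal form of the certificate theorem,
and expansions of a cubic form along a decomposition of the variable.
-/

namespace Vale.Agent.H69

open MvPolynomial Matrix

open scoped MatrixOrder in
/-- A nonnegative quadratic form on `ℝ^n` is a sum of `n` squares of linear forms. -/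
theorem sos_of_nonneg {n : ℕ} (β : (Fin n → ℝ) →ₗ[ℝ] (Fin n → ℝ) →ₗ[ℝ] ℝ)
    (h : ∀ x, 0 ≤ β x x) :
    ∃ m : Fin n → (Fin n → ℝ) →ₗ[ℝ] ℝ, ∀ x, β x x = ∑ i, (m i x) ^ 2 := by
  classical
  set M : Matrix (Fin n) (Fin n) ℝ := LinearMap.toMatrix₂' ℝ β with hMdef
  have hM : ∀ x y, β x y = x ⬝ᵥ M *ᵥ y := by
    intro x y
    rw [← Matrix.toLinearMap₂'_apply', hMdef, Matrix.toLinearMap₂'_toMatrix']
  set S : Matrix (Fin n) (Fin n) ℝ := (1 / 2 : ℝ) • (M + Mᵀ) with hSdef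
  have hSx : ∀ x, x ⬝ᵥ S *ᵥ x = β x x := by
    intro x
    have h1 : x ⬝ᵥ Mᵀ *ᵥ x = x ⬝ᵥ M *ᵥ x := by
      rw [Matrix.dotProduct_mulVec, Matrix.vecMul_transpose, dotProduct_comm]
    rw [hSdef, Matrix.smul_mulVec, dotProduct_smul, Matrix.add_mulVec, dotProduct_add, h1,
      ← hM, smul_eq_mul]
    ring
  have hSsymm : S.IsHermitian := by
    rw [Matrix.IsHermitian, Matrix.conjTranspose_eq_transpose_of_trivial, hSdef,
      Matrix.transpose_smul, Matrix.transpose_add, Matrix.transpose_transpose, add_comm]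
  have hSpsd : S.PosSemidef := by
    refine PosSemidef.of_dotProduct_mulVec_nonneg hSsymm ?_
    intro x
    rw [star_trivial, hSx]
    exact h x
  obtain ⟨Bm, hBm⟩ := CStarAlgebra.nonneg_iff_eq_star_mul_self.mp hSpsd.nonneg
  refine ⟨fun i => (LinearMap.proj i) ∘ₗ Bm.mulVecLin, fun x => ?_⟩
  rw [← hSx, hBm]
  have h2 : x ⬝ᵥ (star Bm * Bm) *ᵥ x = (Bm *ᵥ x) ⬝ᵥ (Bm *ᵥ x) := by
    rw [← Matrix.mulVec_mulVec, Matrix.dotProduct_mulVec, Matrix.star_eq_conjTranspose,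
      Matrix.conjTranspose_eq_transpose_of_trivial, Matrix.vecMul_transpose]
  rw [h2]
  simp [dotProduct, pow_two]

/-- **Certificate theorem, diagonal form.**  A cubic of the form
`ℓ * l1 * l2 - l1 * ∑ i, a_i^2 - l2 * ∑ j, b_j^2` has a spectrahedral hyperbolicity cone in every
direction `e` with `l1 e > 0`, `l2 e > 0`, `p e > 0`. -/
theorem cert_spectrahedron_diag {n : ℕ} (p : MvPolynomial (Fin n) ℝ) (e : Fin n → ℝ)
    (ℓ l1 l2 : (Fin n → ℝ) →ₗ[ℝ] ℝ) {ι1 ι2 : Type} [Fintype ι1] [Fintype ι2]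
    (m1 : ι1 → (Fin n → ℝ) →ₗ[ℝ] ℝ) (m2 : ι2 → (Fin n → ℝ) →ₗ[ℝ] ℝ)
    (hp : ∀ x : Fin n → ℝ, eval x p = ℓ x * l1 x * l2 x
      - l1 x * ∑ i, (m1 i x) ^ 2 - l2 x * ∑ j, (m2 j x) ^ 2)
    (he1 : 0 < l1 e) (he2 : 0 < l2 e) (hpe : 0 < eval e p) :
    IsSpectrahedron (hypCone p e) := by
  refine cert_spectrahedron p e ℓ 0 l1 l2
    (Sum.elim m1 (fun _ => 0) : ι1 ⊕ ι2 → (Fin n → ℝ) →ₗ[ℝ] ℝ)
    (Sum.elim (fun _ => 0) m2 : ι1 ⊕ ι2 → (Fin n → ℝ) →ₗ[ℝ] ℝ) ?_ he1 ?_ hpe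
  · intro x
    rw [hp x, Fintype.sum_sum_type]
    simp only [Sum.elim_inl, Sum.elim_inr, LinearMap.zero_apply]
    rw [Finset.mul_sum, Finset.mul_sum]
    have e1 : ∑ i, (l1 x * (m1 i x) ^ 2 + 2 * 0 * (m1 i x) * 0 + l2 x * (0 : ℝ) ^ 2)
        = ∑ i, l1 x * (m1 i x) ^ 2 :=
      Finset.sum_congr rfl fun i _ => by ring
    have e2 : ∑ j, (l1 x * (0 : ℝ) ^ 2 + 2 * 0 * 0 * (m2 j x) + l2 x * (m2 j x) ^ 2)
        = ∑ j, l2 x * (m2 j x) ^ 2 :=
      Finset.sum_congr rfl fun j _ => by ring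
    rw [e1, e2]
    ring
  · simp only [LinearMap.zero_apply]
    have := mul_pos he1 he2
    nlinarith

variable {n : ℕ}

/-- The linear functional `x ↦ tri T u v x`. -/
def triL (T : Fin n → Fin n → Fin n → ℝ) (u v : Fin n → ℝ) : (Fin n → ℝ) →ₗ[ℝ] ℝ where
  toFun x := tri T u v x
  map_add' x y := tri_add_right T u v x y
  map_smul' c x := by
    rw [tri_smul_right]
    rfl

theorem triL_apply (T : Fin n → Fin n → Fin n → ℝ) (u v x : Fin n → ℝ) :
    triL T u v x = tri T u v x := rfl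

/-- Expansion of the cubic form along `α u + z`. -/
theorem tri_cube2 {T : Fin n → Fin n → Fin n → ℝ} (h12 : ∀ i j l, T i j l = T j i l)
    (h23 : ∀ i j l, T i j l = T i l j) (u z : Fin n → ℝ) (α : ℝ) :
    tri T (α • u + z) (α • u + z) (α • u + z)
      = α ^ 3 * tri T u u u + 3 * α ^ 2 * tri T u u z + 3 * α * tri T u z z + tri T z z z := by
  rw [tri_add_cube h12 h23, tri_smul_cube, tri_smul_left, tri_smul_mid, tri_smul_left]
  ring

/-- Expansion of the cubic form along `α u1 + β u2 + z`. -/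
theorem tri_cube3 {T : Fin n → Fin n → Fin n → ℝ} (h12 : ∀ i j l, T i j l = T j i l)
    (h23 : ∀ i j l, T i j l = T i l j) (u1 u2 z : Fin n → ℝ) (α β : ℝ) :
    tri T (α • u1 + (β • u2 + z)) (α • u1 + (β • u2 + z)) (α • u1 + (β • u2 + z))
      = α * β * (3 * α * tri T u1 u1 u2 + 3 * β * tri T u1 u2 u2 + 6 * tri T u1 u2 z)
        + α * (α ^ 2 * tri T u1 u1 u1 + 3 * α * tri T u1 u1 z + 3 * tri T u1 z z)
        + β * (β ^ 2 * tri T u2 u2 u2 + 3 * β * tri T u2 u2 z + 3 * tri T u2 z z)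
        + tri T z z z := by
  rw [tri_cube2 h12 h23 u1 (β • u2 + z) α, tri_cube2 h12 h23 u2 z β]
  simp only [tri_add_mid, tri_add_right, tri_smul_mid, tri_smul_right]
  rw [tri_swap23 h23 u1 z u2]
  ring

end Vale.Agent.H69
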