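import Vale.Agent.H69.Rank12a

/-!
# Hyperbolic cubics with a singular point whose Hessian has rank two

At such a point the tangent cone is a wedge `{l1 ≥ 0, l2 ≥ 0}`.  Hyperbolicity forces the cubic
to have the form `ℓ * l1 * l2 - l1 * N1 - l2 * N2` with nonnegative quadratic forms `N1`, `N2`,
and the certificate theorem shows that the hyperbolicity cone is a spectrahedron.
-/

namespace Vale.Agent.H69

open MvPolynomial Matrix

variable {n : ℕ}

/-- On a face of the tangent cone the cubic is `α` times a nonpositive quadratic form. -/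
theorem node_face (T : Fin n → Fin n → Fin n → ℝ)
    (h12 : ∀ i j l, T i j l = T j i l) (h23 : ∀ i j l, T i j l = T i l j) (e a : Fin n → ℝ)
    (ha : ∀ v : Fin n → ℝ, tri T a a v = 0) (hpe : 0 < tri T e e e)
    (hroots : ∀ x : Fin n → ℝ, ∀ z : ℂ,
      tri (fun i j l => (T i j l : ℂ)) (fun i => (e i : ℂ) * z - (x i : ℂ))
        (fun i => (e i : ℂ) * z - (x i : ℂ)) (fun i => (e i : ℂ) * z - (x i : ℂ)) = 0 → z.im = 0)
    (hQ : 0 < tri T a e e) (u z : Fin n → ℝ) (hBuu : tri T a u u = 0) (hBeu : 0 ≤ tri T a e u)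
    (hz : ∀ y : Fin n → ℝ, tri T a z y = 0) (α : ℝ) :
    α ^ 2 * tri T u u u + 3 * α * tri T u u z + 3 * tri T u z z ≤ 0 := by
  have hpos : ∀ z' : Fin n → ℝ, (∀ y : Fin n → ℝ, tri T a z' y = 0) → ∀ t : ℝ, 0 < t →
      t ^ 2 * tri T u u u + 3 * t * tri T u u z' + 3 * tri T u z' z' ≤ 0 := by
    intro z' hz' t ht
    have hy0 : tri T a (t • u + z') (t • u + z') = 0 := by
      simp only [tri_add_mid, tri_add_right, tri_smul_mid, tri_smul_right]
      rw [hBuu, tri_swap23 h23 a u z', hz' u, hz' z']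
      ring
    have hy1 : 0 ≤ tri T a e (t • u + z') := by
      rw [tri_add_right, tri_smul_right, tri_swap23 h23 a e z', hz' e]
      have := mul_nonneg ht.le hBeu
      linarith
    have h := node_nec T h12 h23 e a ha hpe hroots hQ (t • u + z') hy0 hy1
    rw [tri_cube2 h12 h23, node_rad_cube T h12 h23 e a ha hpe hroots hQ z' hz'] at h
    have e1 : t * (t ^ 2 * tri T u u u + 3 * t * tri T u u z' + 3 * tri T u z' z')
        = t ^ 3 * tri T u u u + 3 * t ^ 2 * tri T u u z' + 3 * t * tri T u z' z' + 0 := by ring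
    by_contra hc
    push Not at hc
    have := mul_pos ht hc
    rw [e1] at this
    linarith
  rcases lt_trichotomy α 0 with hα | hα | hα
  · have hneg : -z = (-1 : ℝ) • z := by simp
    have hz' : ∀ y : Fin n → ℝ, tri T a (-z) y = 0 := by
      intro y
      rw [hneg, tri_smul_mid, hz y, mul_zero]
    have h := hpos (-z) hz' (-α) (by linarith)
    rw [hneg, tri_smul_right, tri_smul_mid, tri_smul_right] at h
    linarith
  · rw [hα]
    have h := nonneg_of_quad_pos (-(tri T u u u)) (-(3 * tri T u u z)) (-(3 * tri T u z z))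
      (fun s hs => by
        have := hpos z hz s hs
        linarith)
    linarith
  · exact hpos z hz α hα

/-- **Rank two.**  A hyperbolic cubic with a singular point `a` at which the Hessian form has
rank two (normalised so that the form is positive at `e`) has a spectrahedral hyperbolicity
cone. -/
theorem node_rank2_spectrahedron (T : Fin n → Fin n → Fin n → ℝ)
    (h12 : ∀ i j l, T i j l = T j i l) (h23 : ∀ i j l, T i j l = T i l j)
    (e a : Fin n → ℝ) (hyp : IsHyperbolic (cubPoly T) e)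
    (ha : ∀ v : Fin n → ℝ, tri T a a v = 0) (hrank : (hessM T a).rank = 2)
    (hQ : 0 < tri T a e e)
    (hloc : ∀ v : Fin n → ℝ, tri T a e e * tri T a v v ≤ 2 * (tri T a e v) ^ 2) :
    IsSpectrahedron (hypCone (cubPoly T) e) := by
  have hpe : 0 < tri T e e e := by
    have h := hyp.2.1
    rwa [eval_cubPoly] at h
  have hroots : ∀ x : Fin n → ℝ, ∀ z : ℂ,
      tri (fun i j l => (T i j l : ℂ)) (fun i => (e i : ℂ) * z - (x i : ℂ))
        (fun i => (e i : ℂ) * z - (x i : ℂ)) (fun i => (e i : ℂ) * z - (x i : ℂ)) = 0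
        → z.im = 0 := by
    intro x z hz
    apply hyp.2.2 x z
    rw [lineRestrict_aeval, aeval_cubPoly]
    exact hz
  have hneg : ∀ v : Fin n → ℝ, tri T a e v = 0 → tri T a v v ≤ 0 := by
    intro v hv
    have h1 := hloc v
    rw [hv] at h1
    by_contra hcon
    push Not at hcon
    have := mul_pos hQ hcon
    nlinarith
  obtain ⟨g, heg, hgg, hrad⟩ := tri_frame2 T h12 h23 a e hrank hQ hneg
  have hsym : ∀ u v : Fin n → ℝ, tri T a u v = tri T a v u := fun u v => tri_swap23 h23 a u v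
  have hge : tri T a g e = 0 := by rw [hsym]; exact heg
  obtain ⟨r, hrpos, hrr⟩ : ∃ r : ℝ, 0 < r ∧ r * r = tri T a e e :=
    ⟨Real.sqrt (tri T a e e), Real.sqrt_pos.mpr hQ, Real.mul_self_sqrt hQ.le⟩
  have hrne : r ≠ 0 := hrpos.ne'
  -- functionals and vectors
  obtain ⟨l1, hl1app⟩ : ∃ l1 : (Fin n → ℝ) →ₗ[ℝ] ℝ,
      ∀ x, l1 x = (1 / r) * tri T a e x - tri T a g x :=
    ⟨(1 / r) • triL T a e - triL T a g, fun x => rfl⟩
  obtain ⟨l2, hl2app⟩ : ∃ l2 : (Fin n → ℝ) →ₗ[ℝ] ℝ,
      ∀ x, l2 x = (1 / r) * tri T a e x + tri T a g x :=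
    ⟨(1 / r) • triL T a e + triL T a g, fun x => rfl⟩
  obtain ⟨u1, hu1⟩ : ∃ u1 : Fin n → ℝ, u1 = (1 / (2 * r)) • e + (1 / 2 : ℝ) • g := ⟨_, rfl⟩
  obtain ⟨u2, hu2⟩ : ∃ u2 : Fin n → ℝ, u2 = (1 / (2 * r)) • e + (-(1 / 2) : ℝ) • g := ⟨_, rfl⟩
  obtain ⟨Z, hZapp⟩ : ∃ Z : (Fin n → ℝ) →ₗ[ℝ] (Fin n → ℝ),
      ∀ x, Z x = x + (-(l1 x)) • u1 + (-(l2 x)) • u2 :=
    ⟨LinearMap.id + (-l1).smulRight u1 + (-l2).smulRight u2, fun x => rfl⟩
  have hdec : ∀ x, x = l1 x • u1 + (l2 x • u2 + Z x) := by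
    intro x
    rw [hZapp]
    module
  -- pairings
  have hEu1 : tri T a e u1 = r / 2 := by
    rw [hu1, tri_add_right, tri_smul_right, tri_smul_right, heg, ← hrr]
    field_simp
    ring
  have hEu2 : tri T a e u2 = r / 2 := by
    rw [hu2, tri_add_right, tri_smul_right, tri_smul_right, heg, ← hrr]
    field_simp
    ring
  have hGu1 : tri T a g u1 = -(1 / 2) := by
    rw [hu1, tri_add_right, tri_smul_right, tri_smul_right, hge, hgg]
    ring
  have hGu2 : tri T a g u2 = 1 / 2 := by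
    rw [hu2, tri_add_right, tri_smul_right, tri_smul_right, hge, hgg]
    ring
  have hwu1 : ∀ w : Fin n → ℝ,
      tri T a w u1 = 1 / (2 * r) * tri T a w e + 1 / 2 * tri T a w g := by
    intro w
    rw [hu1, tri_add_right, tri_smul_right, tri_smul_right]
  have hwu2 : ∀ w : Fin n → ℝ,
      tri T a w u2 = 1 / (2 * r) * tri T a w e + -(1 / 2) * tri T a w g := by
    intro w
    rw [hu2, tri_add_right, tri_smul_right, tri_smul_right]
  have hB11 : tri T a u1 u1 = 0 := by
    rw [hwu1 u1, hsym u1 e, hsym u1 g, hEu1, hGu1]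
    field_simp
    ring
  have hB22 : tri T a u2 u2 = 0 := by
    rw [hwu2 u2, hsym u2 e, hsym u2 g, hEu2, hGu2]
    field_simp
    ring
  have hl1e : l1 e = r := by
    rw [hl1app, hge, ← hrr]
    field_simp
    ring
  have hl2e : l2 e = r := by
    rw [hl2app, hge, ← hrr]
    field_simp
    ring
  -- the remainder lies in the radical
  have hZrad : ∀ x y : Fin n → ℝ, tri T a (Z x) y = 0 := by
    intro x
    apply hrad
    · rw [hZapp, tri_add_right, tri_add_right, tri_smul_right, tri_smul_right, hEu1, hEu2,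
        hl1app, hl2app]
      field_simp
      ring
    · rw [hZapp, tri_add_right, tri_add_right, tri_smul_right, tri_smul_right, hGu1, hGu2,
        hl1app, hl2app]
      ring
  have hZcube : ∀ x : Fin n → ℝ, tri T (Z x) (Z x) (Z x) = 0 := fun x =>
    node_rad_cube T h12 h23 e a ha hpe hroots hQ (Z x) (hZrad x)
  -- the two quadratic forms
  set β1 : (Fin n → ℝ) →ₗ[ℝ] (Fin n → ℝ) →ₗ[ℝ] ℝ := LinearMap.mk₂ ℝ
    (fun x y => -(tri T u1 u1 u1 * l1 x * l1 y + 3 * l1 x * tri T u1 u1 (Z y)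
      + 3 * tri T u1 (Z x) (Z y)))
    (by intro x x' y
        simp only [map_add, tri_add_mid]
        ring)
    (by intro c x y
        simp only [map_smul, tri_smul_mid, smul_eq_mul]
        ring)
    (by intro x y y'
        simp only [map_add, tri_add_right]
        ring)
    (by intro c x y
        simp only [map_smul, tri_smul_right, smul_eq_mul]
        ring) with hβ1
  set β2 : (Fin n → ℝ) →ₗ[ℝ] (Fin n → ℝ) →ₗ[ℝ] ℝ := LinearMap.mk₂ ℝ
    (fun x y => -(tri T u2 u2 u2 * l2 x * l2 y + 3 * l2 x * tri T u2 u2 (Z y)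
      + 3 * tri T u2 (Z x) (Z y)))
    (by intro x x' y
        simp only [map_add, tri_add_mid]
        ring)
    (by intro c x y
        simp only [map_smul, tri_smul_mid, smul_eq_mul]
        ring)
    (by intro x y y'
        simp only [map_add, tri_add_right]
        ring)
    (by intro c x y
        simp only [map_smul, tri_smul_right, smul_eq_mul]
        ring) with hβ2
  have hβ1app : ∀ x, β1 x x = -(l1 x ^ 2 * tri T u1 u1 u1 + 3 * l1 x * tri T u1 u1 (Z x)
      + 3 * tri T u1 (Z x) (Z x)) := by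
    intro x
    rw [hβ1, LinearMap.mk₂_apply]
    ring
  have hβ2app : ∀ x, β2 x x = -(l2 x ^ 2 * tri T u2 u2 u2 + 3 * l2 x * tri T u2 u2 (Z x)
      + 3 * tri T u2 (Z x) (Z x)) := by
    intro x
    rw [hβ2, LinearMap.mk₂_apply]
    ring
  have hβ1nn : ∀ x, 0 ≤ β1 x x := by
    intro x
    rw [hβ1app]
    have := node_face T h12 h23 e a ha hpe hroots hQ u1 (Z x) hB11 (by rw [hEu1]; linarith)
      (hZrad x) (l1 x)
    linarith
  have hβ2nn : ∀ x, 0 ≤ β2 x x := by
    intro x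
    rw [hβ2app]
    have := node_face T h12 h23 e a ha hpe hroots hQ u2 (Z x) hB22 (by rw [hEu2]; linarith)
      (hZrad x) (l2 x)
    linarith
  obtain ⟨m1, hm1⟩ := sos_of_nonneg β1 hβ1nn
  obtain ⟨m2, hm2⟩ := sos_of_nonneg β2 hβ2nn
  -- the linear factor
  obtain ⟨ℓ, hℓapp⟩ : ∃ ℓ : (Fin n → ℝ) →ₗ[ℝ] ℝ, ∀ x, ℓ x = 3 * tri T u1 u1 u2 * l1 x
      + 3 * tri T u1 u2 u2 * l2 x + 6 * tri T u1 u2 (Z x) :=
    ⟨(3 * tri T u1 u1 u2) • l1 + (3 * tri T u1 u2 u2) • l2 + (6 : ℝ) • (triL T u1 u2 ∘ₗ Z),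
      fun x => rfl⟩
  refine cert_spectrahedron_diag (cubPoly T) e ℓ l1 l2 m1 m2 ?_ (by rw [hl1e]; exact hrpos)
    (by rw [hl2e]; exact hrpos) hyp.2.1
  intro x
  have key := tri_cube3 h12 h23 u1 u2 (Z x) (l1 x) (l2 x)
  rw [← hdec x, hZcube x] at key
  rw [eval_cubPoly, key, ← hm1 x, ← hm2 x, hβ1app, hβ2app, hℓapp]
  ring

end Vale.Agent.H69
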