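import Vale.Agent.H69.IntrinsicSpec
import Vale.Agent.H69.Rank1
import Vale.Agent.H69.Rank2

/-!
# Hyperbolic cubics with a singular point whose Hessian has rank at most three

Combining the three cases (Hessian rank one, two, three at a singular point), the closed
hyperbolicity cone of such a cubic is a spectrahedron.
-/

namespace Vale.Agent.H69

open MvPolynomial Matrix

/-- The cases of Hessian rank one and two, in terms of the symmetric coefficient tensor. -/
theorem cubic_node_spectrahedron_le2 (n : ℕ) (p : MvPolynomial (Fin n) ℝ)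
    (hp3 : p.IsHomogeneous 3) (e a : Fin n → ℝ) (hyp : IsHyperbolic p e)
    (hgrad : ∀ i, eval a (pderiv i p) = 0)
    (hH : (Matrix.of fun i j => eval a (pderiv i (pderiv j p))).rank = 1
      ∨ (Matrix.of fun i j => eval a (pderiv i (pderiv j p))).rank = 2) :
    IsSpectrahedron (hypCone p e) := by
  obtain ⟨T, h12, h23, rfl⟩ := exists_symm_tensor p hp3
  have hyp' : IsHyperbolic (cubPoly T) e := hyp
  change IsSpectrahedron (hypCone (cubPoly T) e)
  have hgrad' : ∀ i, ∑ l, ∑ m, T i l m * a l * a m = 0 := by
    intro i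
    have h := hgrad i
    rw [pderiv_cubic_eval T h12 h23 a i] at h
    linarith
  have hHess : (Matrix.of fun i j => eval a (pderiv i (pderiv j (∑ i, ∑ j, ∑ l,
      C (T i j l) * X i * X j * X l)))) = (6 : ℝ) • hessM T a := by
    ext i j
    rw [Matrix.of_apply, pderiv_pderiv_cubic_eval T h12 h23 a i j]
    simp [hessM]
  have hrank : (hessM T a).rank = 1 ∨ (hessM T a).rank = 2 := by
    rw [hHess, Matrix.rank_smul_of_mem_nonZeroDivisors _
      (mem_nonZeroDivisors_of_ne_zero (by norm_num : (6 : ℝ) ≠ 0))] at hH
    exact hH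
  have hrank0 : (hessM T a).rank ≠ 0 := by
    rcases hrank with h | h <;> omega
  have ha2 : ∀ v : Fin n → ℝ, tri T v a a = 0 := by
    intro v
    rw [tri_eq_sum_left]
    simp [hgrad']
  have ha : ∀ v : Fin n → ℝ, tri T a a v = 0 := by
    intro v
    rw [tri_swap23 h23 a a v, tri_swap12 h12 a v a]
    exact ha2 v
  have hpe : 0 < tri T e e e := by
    have h := hyp'.2.1
    rwa [eval_cubPoly] at h
  have hroots : ∀ x : Fin n → ℝ, ∀ z : ℂ,
      tri (fun i j l => (T i j l : ℂ)) (fun i => (e i : ℂ) * z - (x i : ℂ))
        (fun i => (e i : ℂ) * z - (x i : ℂ)) (fun i => (e i : ℂ) * z - (x i : ℂ)) = 0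
        → z.im = 0 := by
    intro x z hz
    apply hyp'.2.2 x z
    rw [lineRestrict_aeval, aeval_cubPoly]
    exact hz
  have hw : ∃ w : Fin n → ℝ, tri T a w w ≠ 0 := by
    by_contra hcon
    push Not at hcon
    have hxy : ∀ x y : Fin n → ℝ, tri T a x y = 0 := by
      intro x y
      have h1 := hcon (x + y)
      rw [tri_add_mid, tri_add_right, tri_add_right, hcon x, hcon y,
        tri_swap23 h23 a y x] at h1
      linarith
    have h0 : hessM T a = 0 := by
      ext i j
      have h1 := dot_hessM T a (Pi.single i 1) (Pi.single j 1)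
      rw [tri_swap23 h23, tri_swap12 h12, hxy] at h1
      simpa using h1
    rw [h0, Matrix.rank_zero] at hrank0
    exact hrank0 rfl
  obtain ⟨hQ0, hloc⟩ := node_localization T h12 h23 e a hpe hroots ha hw
  have hneg : -a = (-1 : ℝ) • a := by simp
  have hrankneg : (hessM T (-a)).rank = (hessM T a).rank := by
    rw [hneg, hessM_smul, Matrix.rank_smul_of_mem_nonZeroDivisors _
      (mem_nonZeroDivisors_of_ne_zero (by norm_num : (-1 : ℝ) ≠ 0))]
  have haneg : ∀ v : Fin n → ℝ, tri T (-a) (-a) v = 0 := by
    intro v
    rw [hneg, tri_smul_left, tri_smul_mid, ha]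
    ring
  have hlocneg : ∀ v : Fin n → ℝ,
      tri T (-a) e e * tri T (-a) v v ≤ 2 * (tri T (-a) e v) ^ 2 := by
    intro v
    rw [hneg]
    simp only [tri_smul_left]
    have h1 := hloc v
    have e1 : -1 * tri T a e e * (-1 * tri T a v v) = tri T a e e * tri T a v v := by ring
    have e2 : 2 * (-1 * tri T a e v) ^ 2 = 2 * (tri T a e v) ^ 2 := by ring
    rw [e1, e2]
    exact h1
  rcases lt_or_gt_of_ne hQ0 with hQ | hQ
  · have hQneg : 0 < tri T (-a) e e := by
      rw [hneg, tri_smul_left]
      linarith
    rcases hrank with h1 | h2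
    · exact node_rank1_spectrahedron T h12 h23 e (-a) hyp' haneg (hrankneg.trans h1) hQneg
    · exact node_rank2_spectrahedron T h12 h23 e (-a) hyp' haneg (hrankneg.trans h2) hQneg
        hlocneg
  · rcases hrank with h1 | h2
    · exact node_rank1_spectrahedron T h12 h23 e a hyp' ha h1 hQ
    · exact node_rank2_spectrahedron T h12 h23 e a hyp' ha h2 hQ hloc

/-- **Hyperbolic cubics with a singular point of Hessian rank one, two or three.**  Let `p` be a
cubic form in `n` variables that is hyperbolic with respect to `e`.  If `p` has a singular point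
`a` (all first partial derivatives vanish at `a`) at which the Hessian matrix of `p` is nonzero
and has rank at most three, then the closed hyperbolicity cone of `p` is a spectrahedron. -/
theorem cubic_node_spectrahedron_le3 (n : ℕ) (p : MvPolynomial (Fin n) ℝ)
    (hp3 : p.IsHomogeneous 3) (e a : Fin n → ℝ) (hyp : IsHyperbolic p e)
    (hgrad : ∀ i, eval a (pderiv i p) = 0)
    (hH1 : 1 ≤ (Matrix.of fun i j => eval a (pderiv i (pderiv j p))).rank)
    (hH3 : (Matrix.of fun i j => eval a (pderiv i (pderiv j p))).rank ≤ 3) :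
    IsSpectrahedron (hypCone p e) := by
  have hcases : (Matrix.of fun i j => eval a (pderiv i (pderiv j p))).rank = 1
      ∨ (Matrix.of fun i j => eval a (pderiv i (pderiv j p))).rank = 2
      ∨ (Matrix.of fun i j => eval a (pderiv i (pderiv j p))).rank = 3 := by
    omega
  rcases hcases with h | h | h
  · exact cubic_node_spectrahedron_le2 n p hp3 e a hyp hgrad (Or.inl h)
  · exact cubic_node_spectrahedron_le2 n p hp3 e a hyp hgrad (Or.inr h)
  · exact cubic_node_spectrahedron n p hp3 e a hyp hgrad h

end Vale.Agent.H69
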