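import Vale.Agent.H69.LMI
import Vale.Agent.H69.Family

/-!
# Spectrahedra

A spectrahedron in `ℝ^n` is a set `{x | A0 + ∑ x_i A_i ⪰ 0}` with real symmetric matrices of one
finite size.  Sets cut out by one homogeneous linear matrix inequality are spectrahedra, and
spectrahedra pull back under linear maps.
-/

namespace Vale.Agent.H69

open Matrix

/-- A spectrahedron in `ℝ^n`: a set of the form `{x | A0 + ∑ x_i A_i ⪰ 0}` with real symmetric
matrices `A0, A_1, ..., A_n` of one finite size. -/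
def IsSpectrahedron {n : ℕ} (S : Set (Fin n → ℝ)) : Prop :=
  ∃ (k : ℕ) (A0 : Matrix (Fin k) (Fin k) ℝ) (A : Fin n → Matrix (Fin k) (Fin k) ℝ),
    A0.IsSymm ∧ (∀ i, (A i).IsSymm) ∧ S = {x | (A0 + ∑ i, x i • A i).PosSemidef}

/-- A spectrahedron is a spectrahedral shadow (with no lifting variables). -/
theorem IsSpectrahedron.shadow {n : ℕ} {S : Set (Fin n → ℝ)} (hS : IsSpectrahedron S) :
    IsSpectrahedralShadow S := by
  obtain ⟨k, A0, A, hA0, hA, rfl⟩ := hS
  refine ⟨k, 0, A0, A, fun j => Fin.elim0 j, hA0, hA, fun j => Fin.elim0 j, ?_⟩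
  ext x
  simp

/-- A set cut out by one homogeneous linear matrix inequality is a spectrahedron. -/
theorem IsLMISet.spectrahedron {n : ℕ} {T : Set (Fin n → ℝ)} (hT : IsLMISet T) :
    IsSpectrahedron T := by
  classical
  obtain ⟨K, _, _, G, hs, rfl⟩ := hT
  let eK : K ≃ Fin (Fintype.card K) := Fintype.equivFin K
  let G' : (Fin n → ℝ) →ₗ[ℝ] Matrix (Fin (Fintype.card K)) (Fin (Fintype.card K)) ℝ :=
    (Matrix.reindexLinearEquiv ℝ ℝ eK eK).toLinearMap ∘ₗ G
  have hG' : ∀ v, G' v = (G v).submatrix eK.symm eK.symm := fun v => rfl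
  have hpsd : ∀ v, (G' v).PosSemidef ↔ (G v).PosSemidef := by
    intro v
    rw [hG', Matrix.posSemidef_submatrix_equiv]
  have hsymm : ∀ v, (G' v).IsSymm := by
    intro v
    rw [hG']
    exact (hs v).submatrix _
  have hexp : ∀ x : Fin n → ℝ,
      G' x = ∑ i, x i • G' (fun j => if i = j then 1 else 0) := by
    intro x
    exact LinearMap.pi_apply_eq_sum_univ G' x
  refine ⟨Fintype.card K, 0, fun i => G' (fun j => if i = j then 1 else 0), ?_, ?_, ?_⟩
  · simp
  · intro i
    exact hsymm _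
  · ext x
    simp only [Set.mem_ofPred_eq]
    rw [zero_add, ← hexp x, hpsd]

/-- Spectrahedra pull back under linear maps. -/
theorem IsSpectrahedron.preimage_lf {m n : ℕ} {S : Set (Fin m → ℝ)}
    (hS : IsSpectrahedron S) (L : Fin m → Fin n → ℝ) :
    IsSpectrahedron {x : Fin n → ℝ | (fun i => lf (L i) x) ∈ S} := by
  obtain ⟨K, A0, A, hA0, hA, rfl⟩ := hS
  refine ⟨K, A0, fun j => ∑ i, L i j • A i, hA0, ?_, ?_⟩
  · intro j
    unfold Matrix.IsSymm
    rw [Matrix.transpose_sum]
    refine Finset.sum_congr rfl fun i _ => ?_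
    rw [Matrix.transpose_smul, (hA i).eq]
  · ext x
    simp only [Set.mem_ofPred_eq]
    have h : ∑ i, lf (L i) x • A i = ∑ j, x j • ∑ i, L i j • A i := by
      simp only [lf, Finset.sum_smul, Finset.smul_sum, smul_smul]
      rw [Finset.sum_comm]
      refine Finset.sum_congr rfl fun j _ => Finset.sum_congr rfl fun i _ => ?_
      rw [mul_comm]
    rw [h]

end Vale.Agent.H69
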