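import Vale.Agent.H69.Spec
import Vale.Agent.H69.Lift3Main

/-!
# The hyperbolicity cone of a rank-three node cubic is a spectrahedron

With the certificate `c = ∑ w^T U w + λ q` of `Certificate.lean`, the hyperbolicity cone of
`x0 * q - c` is cut out by the single linear matrix inequality
`[[x0 - λ, w^T], [w, I ⊗ adj U]] ⪰ 0` (together with `U ⪰ 0`), with no lifting variables.
-/

namespace Vale.Agent.H69

open Matrix MvPolynomial

section Bordered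

variable {ι : Type} [Fintype ι] [DecidableEq ι]

/-- Entries of the bordered matrix `[[τ, a^T, b^T], [a, y2 I, -y0 I], [b, -y0 I, y1 I]]`. -/
def bordEntry (τ : ℝ) (a b : ι → ℝ) (y0 y1 y2 : ℝ) : Unit ⊕ (ι ⊕ ι) → Unit ⊕ (ι ⊕ ι) → ℝ
  | Sum.inl _, Sum.inl _ => τ
  | Sum.inl _, Sum.inr (Sum.inl j) => a j
  | Sum.inl _, Sum.inr (Sum.inr j) => b j
  | Sum.inr (Sum.inl i), Sum.inl _ => a i
  | Sum.inr (Sum.inr i), Sum.inl _ => b i
  | Sum.inr (Sum.inl i), Sum.inr (Sum.inl j) => if i = j then y2 else 0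
  | Sum.inr (Sum.inl i), Sum.inr (Sum.inr j) => if i = j then -y0 else 0
  | Sum.inr (Sum.inr i), Sum.inr (Sum.inl j) => if i = j then -y0 else 0
  | Sum.inr (Sum.inr i), Sum.inr (Sum.inr j) => if i = j then y1 else 0

omit [Fintype ι] in
theorem bordEntry_symm (τ : ℝ) (a b : ι → ℝ) (y0 y1 y2 : ℝ) (p q : Unit ⊕ (ι ⊕ ι)) :
    bordEntry τ a b y0 y1 y2 p q = bordEntry τ a b y0 y1 y2 q p := by
  rcases p with _ | i | i <;> rcases q with _ | j | j <;> simp only [bordEntry] <;>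
    (by_cases h : i = j
     · subst h
       simp
     · have h' : ¬ j = i := fun h' => h h'.symm
       simp [h, h'])

theorem bord_quadratic (τ : ℝ) (a b : ι → ℝ) (y0 y1 y2 : ℝ) (z : Unit ⊕ (ι ⊕ ι) → ℝ) :
    star z ⬝ᵥ ((Matrix.of (bordEntry τ a b y0 y1 y2)) *ᵥ z)
      = τ * z (Sum.inl ()) ^ 2 + ∑ i, (2 * z (Sum.inl ()) * (a i * z (Sum.inr (Sum.inl i))
          + b i * z (Sum.inr (Sum.inr i))) + y2 * z (Sum.inr (Sum.inl i)) ^ 2
          - 2 * y0 * z (Sum.inr (Sum.inl i)) * z (Sum.inr (Sum.inr i))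
          + y1 * z (Sum.inr (Sum.inr i)) ^ 2) := by
  simp only [dotProduct, mulVec, star_trivial, Matrix.of_apply, Fintype.sum_sum_type,
    Finset.univ_unique, Finset.sum_singleton, bordEntry, ite_mul, zero_mul, Finset.sum_ite_eq,
    Finset.mem_univ, if_true]
  simp only [PUnit.default_eq_unit]
  set c := z (Sum.inl ()) with hc
  have e1 : c * (τ * c + (∑ x, a x * z (Sum.inr (Sum.inl x))
        + ∑ x, b x * z (Sum.inr (Sum.inr x))))
      = τ * c ^ 2 + ∑ x, (c * (a x * z (Sum.inr (Sum.inl x)))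
        + c * (b x * z (Sum.inr (Sum.inr x)))) := by
    rw [Finset.sum_add_distrib, ← Finset.mul_sum, ← Finset.mul_sum]
    ring
  rw [e1, add_assoc, ← Finset.sum_add_distrib, ← Finset.sum_add_distrib]
  congr 1
  exact Finset.sum_congr rfl fun i _ => by ring

variable {V : Type} [AddCommGroup V] [Module ℝ V]

/-- The bordered matrix as a linear map of the parameters. -/
def bordLin (τ : V →ₗ[ℝ] ℝ) (a b : ι → V →ₗ[ℝ] ℝ) (y0 y1 y2 : V →ₗ[ℝ] ℝ) :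
    V →ₗ[ℝ] Matrix (Unit ⊕ (ι ⊕ ι)) (Unit ⊕ (ι ⊕ ι)) ℝ where
  toFun v := Matrix.of (bordEntry (τ v) (fun i => a i v) (fun i => b i v) (y0 v) (y1 v) (y2 v))
  map_add' v w := by
    ext p q
    rcases p with _ | i | i <;> rcases q with _ | j | j <;>
      simp only [bordEntry, Matrix.of_apply, Matrix.add_apply, map_add] <;>
      by_cases h : i = j <;> simp [h] <;> ring
  map_smul' c v := by
    ext p q
    rcases p with _ | i | i <;> rcases q with _ | j | j <;>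
      simp only [bordEntry, Matrix.of_apply, Matrix.smul_apply, map_smul, smul_eq_mul,
        RingHom.id_apply] <;>
      by_cases h : i = j <;> simp [h]

omit [Fintype ι] in
theorem bordLin_apply (τ : V →ₗ[ℝ] ℝ) (a b : ι → V →ₗ[ℝ] ℝ) (y0 y1 y2 : V →ₗ[ℝ] ℝ) (v : V) :
    bordLin τ a b y0 y1 y2 v
      = Matrix.of (bordEntry (τ v) (fun i => a i v) (fun i => b i v) (y0 v) (y1 v) (y2 v)) :=
  rfl

/-- The positive semidefiniteness of the bordered matrix as an LMI set. -/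
theorem IsLMISet.bordered (τ : V →ₗ[ℝ] ℝ) (a b : ι → V →ₗ[ℝ] ℝ) (y0 y1 y2 : V →ₗ[ℝ] ℝ) :
    IsLMISet {v | ∀ (c : ℝ) (d1 d2 : ι → ℝ), 0 ≤ τ v * c ^ 2
      + ∑ i, (2 * c * (a i v * d1 i + b i v * d2 i) + y2 v * d1 i ^ 2
        - 2 * y0 v * d1 i * d2 i + y1 v * d2 i ^ 2)} := by
  have hsymm : ∀ v, (bordLin τ a b y0 y1 y2 v).IsSymm := by
    intro v
    ext p q
    rw [Matrix.transpose_apply, bordLin_apply, Matrix.of_apply, Matrix.of_apply]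
    exact bordEntry_symm _ _ _ _ _ _ q p
  refine ⟨Unit ⊕ (ι ⊕ ι), inferInstance, inferInstance, bordLin τ a b y0 y1 y2, hsymm, ?_⟩
  ext v
  simp only [Set.mem_ofPred_eq]
  constructor
  · intro h
    refine PosSemidef.of_dotProduct_mulVec_nonneg ?_ ?_
    · have := hsymm v
      rw [Matrix.IsHermitian, Matrix.conjTranspose_eq_transpose_of_trivial]
      exact this
    · intro z
      rw [bordLin_apply, bord_quadratic]
      exact h _ _ _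
  · intro h c d1 d2
    have h1 := h.dotProduct_mulVec_nonneg
      (Sum.elim (fun _ => c) (Sum.elim d1 d2) : Unit ⊕ (ι ⊕ ι) → ℝ)
    rw [bordLin_apply, bord_quadratic] at h1
    simpa using h1

end Bordered

/-- Summed Schur complement. -/
theorem schur_sum_le {ι : Type} [Fintype ι] (τ : ℝ) (a b : ι → ℝ) (y0 y1 y2 : ℝ)
    (hq : 0 < y1 * y2 - y0 ^ 2)
    (h : ∀ (c : ℝ) (d1 d2 : ι → ℝ), 0 ≤ τ * c ^ 2
      + ∑ i, (2 * c * (a i * d1 i + b i * d2 i) + y2 * d1 i ^ 2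
        - 2 * y0 * d1 i * d2 i + y1 * d2 i ^ 2)) :
    ∑ i, (y1 * a i ^ 2 + 2 * y0 * a i * b i + y2 * b i ^ 2) ≤ τ * (y1 * y2 - y0 ^ 2) := by
  have h1 := h (y1 * y2 - y0 ^ 2) (fun i => -(y1 * a i + y0 * b i))
    (fun i => -(y0 * a i + y2 * b i))
  have e : ∀ i : ι, 2 * (y1 * y2 - y0 ^ 2) * (a i * -(y1 * a i + y0 * b i)
        + b i * -(y0 * a i + y2 * b i))
      + y2 * (-(y1 * a i + y0 * b i)) ^ 2
      - 2 * y0 * -(y1 * a i + y0 * b i) * -(y0 * a i + y2 * b i)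
      + y1 * (-(y0 * a i + y2 * b i)) ^ 2
      = -((y1 * y2 - y0 ^ 2) * (y1 * a i ^ 2 + 2 * y0 * a i * b i + y2 * b i ^ 2)) := by
    intro i
    ring
  rw [Finset.sum_congr rfl (fun i _ => e i), Finset.sum_neg_distrib, ← Finset.mul_sum] at h1
  have h2 : 0 ≤ (y1 * y2 - y0 ^ 2) * (τ * (y1 * y2 - y0 ^ 2)
      - ∑ i, (y1 * a i ^ 2 + 2 * y0 * a i * b i + y2 * b i ^ 2)) := by
    nlinarith [h1]
  have h3 := (mul_nonneg_iff_of_pos_left hq).mp h2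
  linarith

variable {k : ℕ}

/-- `x ↦ Fin.tail x` as a linear map. -/
def tailL (k : ℕ) : (Fin (k + 4) → ℝ) →ₗ[ℝ] (Fin (k + 3) → ℝ) :=
  LinearMap.funLeft ℝ ℝ Fin.succ

theorem tailL_apply (x : Fin (k + 4) → ℝ) : tailL k x = Fin.tail x := rfl

/-- The spectrahedron: the closed Lorentz cone in `y` intersected with the bordered linear matrix
inequality. -/
def spec3 {ι : Type} [Fintype ι] (w1 w2 : ι → (Fin (k + 3) → ℝ) →ₗ[ℝ] ℝ)
    (lam : (Fin (k + 3) → ℝ) →ₗ[ℝ] ℝ) : Set (Fin (k + 4) → ℝ) :=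
  {v | 0 ≤ ((LinearMap.proj 1) ∘ₗ tailL k) v ∧ 0 ≤ ((LinearMap.proj 2) ∘ₗ tailL k) v ∧
      (((LinearMap.proj 0) ∘ₗ tailL k) v) ^ 2
        ≤ ((LinearMap.proj 1) ∘ₗ tailL k) v * ((LinearMap.proj 2) ∘ₗ tailL k) v}
  ∩ {v | ∀ (c : ℝ) (d1 d2 : ι → ℝ),
      0 ≤ ((LinearMap.proj 0 : (Fin (k + 4) → ℝ) →ₗ[ℝ] ℝ) - lam ∘ₗ tailL k) v * c ^ 2
      + ∑ i, (2 * c * ((w1 i ∘ₗ tailL k) v * d1 i + (w2 i ∘ₗ tailL k) v * d2 i)
        + ((LinearMap.proj 2) ∘ₗ tailL k) v * d1 i ^ 2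
        - 2 * ((LinearMap.proj 0) ∘ₗ tailL k) v * d1 i * d2 i
        + ((LinearMap.proj 1) ∘ₗ tailL k) v * d2 i ^ 2)}

theorem isLMISet_spec3 {ι : Type} [Fintype ι] (w1 w2 : ι → (Fin (k + 3) → ℝ) →ₗ[ℝ] ℝ)
    (lam : (Fin (k + 3) → ℝ) →ₗ[ℝ] ℝ) : IsLMISet (spec3 w1 w2 lam) := by
  classical
  apply IsLMISet.inter
  · exact IsLMISet.psd_two _ _ _
  · exact IsLMISet.bordered _ _ _ _ _ _

theorem mem_spec3_iff {ι : Type} [Fintype ι] (w1 w2 : ι → (Fin (k + 3) → ℝ) →ₗ[ℝ] ℝ)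
    (lam : (Fin (k + 3) → ℝ) →ₗ[ℝ] ℝ) (x : Fin (k + 4) → ℝ) :
    x ∈ spec3 w1 w2 lam ↔
      (0 ≤ Fin.tail x 1 ∧ 0 ≤ Fin.tail x 2 ∧ (Fin.tail x 0) ^ 2 ≤ Fin.tail x 1 * Fin.tail x 2)
      ∧ ∀ (c : ℝ) (d1 d2 : ι → ℝ), 0 ≤ (x 0 - lam (Fin.tail x)) * c ^ 2
          + ∑ i, (2 * c * (w1 i (Fin.tail x) * d1 i + w2 i (Fin.tail x) * d2 i)
            + Fin.tail x 2 * d1 i ^ 2 - 2 * Fin.tail x 0 * d1 i * d2 i
            + Fin.tail x 1 * d2 i ^ 2) := by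
  simp only [spec3, Set.mem_inter_iff, Set.mem_ofPred_eq, LinearMap.comp_apply, tailL_apply,
    LinearMap.proj_apply, LinearMap.sub_apply]

end Vale.Agent.H69
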