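import Vale.Agent.H69.Spec3
import Vale.Agent.H69.Pullback3

/-!
# The hyperbolicity cone of a rank-three node cubic equals an explicit spectrahedron
-/

namespace Vale.Agent.H69

open MvPolynomial

variable {k : ℕ}

/-- The quadratic form of the bordered linear matrix inequality with data `(τ, y)`. -/
def bordForm {ι : Type} [Fintype ι] (w1 w2 : ι → (Fin (k + 3) → ℝ) →ₗ[ℝ] ℝ) (τ : ℝ)
    (y : Fin (k + 3) → ℝ) (c : ℝ) (d1 d2 : ι → ℝ) : ℝ :=
  τ * c ^ 2 + ∑ i, (2 * c * (w1 i y * d1 i + w2 i y * d2 i) + y 2 * d1 i ^ 2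
    - 2 * y 0 * d1 i * d2 i + y 1 * d2 i ^ 2)

theorem bordForm_add_smul {ι : Type} [Fintype ι] (w1 w2 : ι → (Fin (k + 3) → ℝ) →ₗ[ℝ] ℝ)
    (τ τ' : ℝ) (y y' : Fin (k + 3) → ℝ) (σ : ℝ) (c : ℝ) (d1 d2 : ι → ℝ) :
    bordForm w1 w2 (τ + σ * τ') (y + σ • y') c d1 d2
      = bordForm w1 w2 τ y c d1 d2 + σ * bordForm w1 w2 τ' y' c d1 d2 := by
  unfold bordForm
  rw [mul_add, Finset.mul_sum, add_add_add_comm, ← Finset.sum_add_distrib]
  congr 1
  · ring
  · refine Finset.sum_congr rfl fun i _ => ?_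
    simp only [map_add, map_smul, Pi.add_apply, Pi.smul_apply, smul_eq_mul]
    ring

/-- Summing the Schur complements of the blocks. -/
theorem bordForm_ge {ι : Type} [Fintype ι] (w1 w2 : ι → (Fin (k + 3) → ℝ) →ₗ[ℝ] ℝ)
    (τ : ℝ) (y : Fin (k + 3) → ℝ) (hy1 : 0 < y 1) (hq : 0 < y 1 * y 2 - y 0 ^ 2)
    (c : ℝ) (d1 d2 : ι → ℝ) :
    (τ - ∑ i, term3 (w1 i) (w2 i) y / qf3 y) * c ^ 2 ≤ bordForm w1 w2 τ y c d1 d2 := by
  have hq' : 0 < qf3 y := hq
  have hi : ∀ i, 0 ≤ term3 (w1 i) (w2 i) y / qf3 y * c ^ 2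
      + 2 * c * (w1 i y * d1 i + w2 i y * d2 i) + y 2 * d1 i ^ 2
      - 2 * y 0 * d1 i * d2 i + y 1 * d2 i ^ 2 := fun i =>
    schur3_ge (term3 (w1 i) (w2 i) y / qf3 y) (w1 i y) (w2 i y) (y 0) (y 1) (y 2) hy1 hq
      (div_mul_cancel₀ _ hq'.ne').symm.le c (d1 i) (d2 i)
  have hsum := Finset.sum_nonneg (fun i (_ : i ∈ Finset.univ) => hi i)
  have e3 : ∑ i, (term3 (w1 i) (w2 i) y / qf3 y * c ^ 2
      + 2 * c * (w1 i y * d1 i + w2 i y * d2 i) + y 2 * d1 i ^ 2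
      - 2 * y 0 * d1 i * d2 i + y 1 * d2 i ^ 2)
      = (∑ i, term3 (w1 i) (w2 i) y / qf3 y) * c ^ 2
        + ∑ i, (2 * c * (w1 i y * d1 i + w2 i y * d2 i) + y 2 * d1 i ^ 2
          - 2 * y 0 * d1 i * d2 i + y 1 * d2 i ^ 2) := by
    rw [Finset.sum_mul, ← Finset.sum_add_distrib]
    exact Finset.sum_congr rfl fun i _ => by ring
  rw [e3] at hsum
  unfold bordForm
  linarith

/-- The hyperbolicity cone equals the spectrahedron `spec3`. -/
theorem hypCone_nodeCubic_eq_spec3 (T : Fin (k + 3) → Fin (k + 3) → Fin (k + 3) → ℝ)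
    (h12 : ∀ i j l, T i j l = T j i l) (h23 : ∀ i j l, T i j l = T i l j)
    (e : Fin (k + 4) → ℝ) (he1 : 0 < Fin.tail e 1)
    (he : Fin.tail e 0 ^ 2 < Fin.tail e 1 * Fin.tail e 2)
    (hpe : 0 < eval e (nodeCubic (cubPoly T)))
    (hpos : ∀ y : Fin (k + 3) → ℝ, 0 ≤ y 1 → 0 ≤ y 2 → qf3 y = 0 → 0 ≤ tri T y y y)
    {ι : Type} [Fintype ι] (w1 w2 : ι → (Fin (k + 3) → ℝ) →ₗ[ℝ] ℝ)
    (lam : (Fin (k + 3) → ℝ) →ₗ[ℝ] ℝ)
    (hcert : ∀ y : Fin (k + 3) → ℝ, 0 < y 1 → 0 < y 2 →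
      tri T y y y = certW w1 w2 y + lam y * qf3 y) :
    hypCone (nodeCubic (cubPoly T)) e = spec3 w1 w2 lam := by
  ext x
  rw [mem_hypCone_nodeCubic_iff T h12 h23 e hpe, mem_spec3_iff]
  set y : Fin (k + 3) → ℝ := Fin.tail x with hy
  set e' : Fin (k + 3) → ℝ := Fin.tail e with he'
  have he2 : 0 < e' 2 := lorentz_pos_right _ _ _ he1 he
  have hqe : 0 < qf3 e' := by unfold qf3; linarith
  have hqe' : 0 < e' 1 * e' 2 - e' 0 ^ 2 := hqe
  have hcert_e := hcert e' he1 he2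
  have hpe2 := hpe
  rw [eval_nodeCubic] at hpe2
  have hpe' : certW w1 w2 e' < (e 0 - lam e') * qf3 e' := by
    rw [hcert_e] at hpe2
    have : (e 0 - lam e') * qf3 e' = e 0 * qf3 e' - lam e' * qf3 e' := by ring
    linarith
  have hTe_sum : ∑ i, term3 (w1 i) (w2 i) e' / qf3 e' < e 0 - lam e' := by
    rw [← Finset.sum_div, ← certW_eq_sum, div_lt_iff₀ hqe]
    exact hpe'
  set δ : ℝ := e 0 - lam e' - ∑ i, term3 (w1 i) (w2 i) e' / qf3 e' with hδ
  have hδpos : 0 < δ := by rw [hδ]; linarith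
  have hE : ∀ (c : ℝ) (d1 d2 : ι → ℝ), δ * c ^ 2 ≤ bordForm w1 w2 (e 0 - lam e') e' c d1 d2 :=
    fun c d1 d2 => bordForm_ge w1 w2 (e 0 - lam e') e' he1 hqe' c d1 d2
  have hlin : ∀ (σ c : ℝ) (d1 d2 : ι → ℝ),
      bordForm w1 w2 (x 0 + σ * e 0 - lam y - σ * lam e') (y + σ • e') c d1 d2
        = bordForm w1 w2 (x 0 - lam y) y c d1 d2
          + σ * bordForm w1 w2 (e 0 - lam e') e' c d1 d2 := by
    intro σ c d1 d2
    rw [← bordForm_add_smul]
    congr 1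
    ring
  constructor
  · intro hf
    obtain ⟨hy1, hy2, hyq⟩ := tail_mem_cone T e x he1 he hpos hf
    refine ⟨⟨hy1, hy2, hyq⟩, fun c d1 d2 => ?_⟩
    change 0 ≤ bordForm w1 w2 (x 0 - lam y) y c d1 d2
    apply nonneg_of_quad_pos 0 (bordForm w1 w2 (e 0 - lam e') e' c d1 d2)
    intro σ hσ
    obtain ⟨hs1, hs2, hsq⟩ := shift_interior y e' he1 he hy1 hy2 hyq σ hσ
    have hsq' : 0 < (y + σ • e') 1 * (y + σ • e') 2 - (y + σ • e') 0 ^ 2 := hsq
    have h := hf σ hσ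
    rw [shiftVal_cert T e x w1 w2 lam hcert σ hs1 hs2] at h
    have hsumlt : ∑ i, term3 (w1 i) (w2 i) (y + σ • e') / qf3 (y + σ • e')
        < x 0 + σ * e 0 - lam y - σ * lam e' := by
      rw [← Finset.sum_div, ← certW_eq_sum, div_lt_iff₀ hsq]
      linarith [mul_comm (qf3 (y + σ • e')) (x 0 + σ * e 0 - lam y - σ * lam e')]
    have hge := bordForm_ge w1 w2 (x 0 + σ * e 0 - lam y - σ * lam e') (y + σ • e') hs1 hsq'
      c d1 d2
    rw [hlin] at hge
    have hc2 : 0 ≤ (x 0 + σ * e 0 - lam y - σ * lam e'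
        - ∑ i, term3 (w1 i) (w2 i) (y + σ • e') / qf3 (y + σ • e')) * c ^ 2 :=
      mul_nonneg (by linarith) (sq_nonneg c)
    linarith
  · rintro ⟨⟨hy1, hy2, hyq⟩, hM⟩ σ hσ
    obtain ⟨hs1, hs2, hsq⟩ := shift_interior y e' he1 he hy1 hy2 hyq σ hσ
    have hsq' : 0 < (y + σ • e') 1 * (y + σ • e') 2 - (y + σ • e') 0 ^ 2 := hsq
    rw [shiftVal_cert T e x w1 w2 lam hcert σ hs1 hs2]
    have hS : certW w1 w2 (y + σ • e')
        ≤ (x 0 + σ * e 0 - lam y - σ * lam e' - σ * δ) * qf3 (y + σ • e') := by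
      refine schur_sum_le (x 0 + σ * e 0 - lam y - σ * lam e' - σ * δ)
        (fun i => w1 i (y + σ • e')) (fun i => w2 i (y + σ • e')) ((y + σ • e') 0)
        ((y + σ • e') 1) ((y + σ • e') 2) hsq' ?_
      intro c d1 d2
      have h1 : 0 ≤ bordForm w1 w2 (x 0 - lam y) y c d1 d2 := hM c d1 d2
      have h2 := hE c d1 d2
      have h3 := hlin σ c d1 d2
      have h4 : (x 0 + σ * e 0 - lam y - σ * lam e' - σ * δ) * c ^ 2
          + ∑ i, (2 * c * (w1 i (y + σ • e') * d1 i + w2 i (y + σ • e') * d2 i)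
            + (y + σ • e') 2 * d1 i ^ 2 - 2 * (y + σ • e') 0 * d1 i * d2 i
            + (y + σ • e') 1 * d2 i ^ 2)
          = bordForm w1 w2 (x 0 + σ * e 0 - lam y - σ * lam e') (y + σ • e') c d1 d2
            - σ * (δ * c ^ 2) := by
        unfold bordForm
        ring
      show 0 ≤ (x 0 + σ * e 0 - lam y - σ * lam e' - σ * δ) * c ^ 2
          + ∑ i, (2 * c * (w1 i (y + σ • e') * d1 i + w2 i (y + σ • e') * d2 i)
            + (y + σ • e') 2 * d1 i ^ 2 - 2 * (y + σ • e') 0 * d1 i * d2 i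
            + (y + σ • e') 1 * d2 i ^ 2)
      rw [h4, h3]
      have h5 := mul_le_mul_of_nonneg_left h2 hσ.le
      linarith
    have hpos' : 0 < σ * δ * qf3 (y + σ • e') := mul_pos (mul_pos hσ hδpos) hsq
    nlinarith

/-- The rank-three node theorem in tensor form: the cone is a spectrahedron. -/
theorem nodeCubic_spectrahedron_tensor (T : Fin (k + 3) → Fin (k + 3) → Fin (k + 3) → ℝ)
    (h12 : ∀ i j l, T i j l = T j i l) (h23 : ∀ i j l, T i j l = T i l j)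
    (e : Fin (k + 4) → ℝ) (he1 : 0 < e 2) (he : e 1 ^ 2 < e 2 * e 3)
    (hyp : IsHyperbolic (nodeCubic (cubPoly T)) e) :
    IsSpectrahedron (hypCone (nodeCubic (cubPoly T)) e) := by
  obtain ⟨_, hpe, hroots⟩ := hyp
  have he1' : 0 < Fin.tail e 1 := he1
  have he' : Fin.tail e 0 ^ 2 < Fin.tail e 1 * Fin.tail e 2 := he
  have hqe : 0 < qf3 (Fin.tail e) := by unfold qf3; linarith
  have hpos : ∀ y : Fin (k + 3) → ℝ, 0 ≤ y 1 → 0 ≤ y 2 → qf3 y = 0 → 0 ≤ tri T y y y := by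
    intro y h1 h2 h0
    exact cub_nonneg_of_hyperbolic T h12 h23 e hqe hpe hroots y
      (lorentz_pair_nonneg _ _ _ _ _ _ he1' he' h1 h2 (by unfold qf3 at h0; linarith)) h0
  obtain ⟨ι, hι, w1, w2, lam, hcert⟩ := exists_certificate T h12 h23 hpos
  rw [hypCone_nodeCubic_eq_spec3 T h12 h23 e he1' he' hpe hpos w1 w2 lam hcert]
  exact (isLMISet_spec3 w1 w2 lam).spectrahedron

/-- The rank-three node theorem: for every cubic form `c` in `k + 3` variables, if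
`x0 * (x2 * x3 - x1^2) - c(x1, ..., x_{k+3})` is hyperbolic with respect to `e`, with `e` in the
forward Lorentz cone of the quadratic part, then its hyperbolicity cone is a spectrahedron. -/
theorem nodeCubic_spectrahedron (c : MvPolynomial (Fin (k + 3)) ℝ) (hc : c.IsHomogeneous 3)
    (e : Fin (k + 4) → ℝ) (he1 : 0 < e 2) (he : e 1 ^ 2 < e 2 * e 3)
    (hyp : IsHyperbolic (nodeCubic c) e) :
    IsSpectrahedron (hypCone (nodeCubic c) e) := by
  obtain ⟨T, h12, h23, rfl⟩ := exists_symm_tensor c hc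
  exact nodeCubic_spectrahedron_tensor T h12 h23 e he1 he hyp

/-- The rank-three node theorem after a surjective linear change of variables. -/
theorem nodeCubic_pullback_spectrahedron {n k : ℕ} (c : MvPolynomial (Fin (k + 3)) ℝ)
    (hc : c.IsHomogeneous 3) (L : Fin (k + 4) → Fin n → ℝ)
    (hsurj : ∀ v : Fin (k + 4) → ℝ, ∃ x : Fin n → ℝ, ∀ i, lf (L i) x = v i)
    (p : MvPolynomial (Fin n) ℝ)
    (hp : ∀ x : Fin n → ℝ, eval x p
      = lf (L 0) x * (lf (L 2) x * lf (L 3) x - lf (L 1) x ^ 2)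
        - eval (fun i : Fin (k + 3) => lf (L i.succ) x) c)
    (e : Fin n → ℝ) (he2 : 0 < lf (L 2) e) (he : lf (L 1) e ^ 2 < lf (L 2) e * lf (L 3) e)
    (hyp : IsHyperbolic p e) : IsSpectrahedron (hypCone p e) := by
  have hp' : ∀ x : Fin n → ℝ, eval x p = eval (fun i => lf (L i) x) (nodeCubic c) := by
    intro x
    rw [hp x, eval_nodeCubic']
    rfl
  have hline := lineRestrict_pullback (nodeCubic c) p L hp' e
  obtain ⟨_, hpe, hroots⟩ := hyp
  have hypP : IsHyperbolic (nodeCubic c) (fun i => lf (L i) e) := by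
    refine ⟨⟨3, nodeCubic_isHomogeneous c hc⟩, ?_, ?_⟩
    · rw [← hp' e]
      exact hpe
    · intro v z hz
      obtain ⟨x, hx⟩ := hsurj v
      have hv : v = fun i => lf (L i) x := funext fun i => (hx i).symm
      rw [hv, ← hline x] at hz
      exact hroots x z hz
  have hspec := nodeCubic_spectrahedron c hc (fun i => lf (L i) e) he2 he hypP
  have hset : hypCone p e
      = {x : Fin n → ℝ | (fun i => lf (L i) x) ∈ hypCone (nodeCubic c) (fun i => lf (L i) e)} := by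
    ext x
    simp only [hypCone, Set.mem_ofPred_eq, hline x]
  rw [hset]
  exact hspec.preimage_lf L

end Vale.Agent.H69
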