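import Vale.Agent.H69.Basic

/-!
# Cubic forms as symmetric 3-tensors
-/

namespace Vale.Agent.H69

open Finset

section tri

variable {R : Type} [CommRing R] {ι : Type} [Fintype ι]

/-- The trilinear form of a 3-tensor. -/
def tri (T : ι → ι → ι → R) (a b c : ι → R) : R := ∑ i, ∑ j, ∑ l, T i j l * a i * b j * c l

theorem tri_add_left (T : ι → ι → ι → R) (a a' b c : ι → R) :
    tri T (a + a') b c = tri T a b c + tri T a' b c := by
  simp only [tri, Pi.add_apply, mul_add, add_mul, Finset.sum_add_distrib]

theorem tri_add_mid (T : ι → ι → ι → R) (a b b' c : ι → R) :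
    tri T a (b + b') c = tri T a b c + tri T a b' c := by
  simp only [tri, Pi.add_apply, mul_add, add_mul, Finset.sum_add_distrib]

theorem tri_add_right (T : ι → ι → ι → R) (a b c c' : ι → R) :
    tri T a b (c + c') = tri T a b c + tri T a b c' := by
  simp only [tri, Pi.add_apply, mul_add, Finset.sum_add_distrib]

theorem tri_smul_left (T : ι → ι → ι → R) (s : R) (a b c : ι → R) :
    tri T (s • a) b c = s * tri T a b c := by
  simp only [tri, Pi.smul_apply, smul_eq_mul, Finset.mul_sum]
  refine Finset.sum_congr rfl fun i _ => Finset.sum_congr rfl fun j _ =>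
    Finset.sum_congr rfl fun l _ => ?_
  ring

theorem tri_smul_mid (T : ι → ι → ι → R) (s : R) (a b c : ι → R) :
    tri T a (s • b) c = s * tri T a b c := by
  simp only [tri, Pi.smul_apply, smul_eq_mul, Finset.mul_sum]
  refine Finset.sum_congr rfl fun i _ => Finset.sum_congr rfl fun j _ =>
    Finset.sum_congr rfl fun l _ => ?_
  ring

theorem tri_smul_right (T : ι → ι → ι → R) (s : R) (a b c : ι → R) :
    tri T a b (s • c) = s * tri T a b c := by
  simp only [tri, Pi.smul_apply, smul_eq_mul, Finset.mul_sum]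
  refine Finset.sum_congr rfl fun i _ => Finset.sum_congr rfl fun j _ =>
    Finset.sum_congr rfl fun l _ => ?_
  ring

theorem tri_swap12 {T : ι → ι → ι → R} (hT : ∀ i j l, T i j l = T j i l) (a b c : ι → R) :
    tri T a b c = tri T b a c := by
  unfold tri
  rw [Finset.sum_comm]
  refine Finset.sum_congr rfl fun i _ => Finset.sum_congr rfl fun j _ =>
    Finset.sum_congr rfl fun l _ => ?_
  rw [hT j i l]
  ring

theorem tri_swap23 {T : ι → ι → ι → R} (hT : ∀ i j l, T i j l = T i l j) (a b c : ι → R) :
    tri T a b c = tri T a c b := by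
  unfold tri
  refine Finset.sum_congr rfl fun i _ => ?_
  rw [Finset.sum_comm]
  refine Finset.sum_congr rfl fun j _ => Finset.sum_congr rfl fun l _ => ?_
  rw [hT i l j]
  ring

/-- Binomial expansion of the cubic form of a symmetric tensor. -/
theorem tri_add_cube {T : ι → ι → ι → R} (h12 : ∀ i j l, T i j l = T j i l)
    (h23 : ∀ i j l, T i j l = T i l j) (a b : ι → R) :
    tri T (a + b) (a + b) (a + b)
      = tri T a a a + 3 * tri T a a b + 3 * tri T a b b + tri T b b b := by
  simp only [tri_add_left, tri_add_mid, tri_add_right]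
  have e1 : tri T a b a = tri T a a b := tri_swap23 h23 a b a
  have e2 : tri T b a a = tri T a a b := by rw [tri_swap12 h12 b a a, e1]
  have e3 : tri T b a b = tri T a b b := tri_swap12 h12 b a b
  have e4 : tri T b b a = tri T a b b := by rw [tri_swap23 h23 b b a, e3]
  rw [e1, e2, e3, e4]
  ring

theorem tri_smul_cube (T : ι → ι → ι → R) (s : R) (a : ι → R) :
    tri T (s • a) (s • a) (s • a) = s ^ 3 * tri T a a a := by
  rw [tri_smul_left, tri_smul_mid, tri_smul_right]
  ring

theorem tri_neg_cube (T : ι → ι → ι → R) (a : ι → R) :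
    tri T (-a) (-a) (-a) = - tri T a a a := by
  have h : -a = (-1 : R) • a := by simp
  rw [h, tri_smul_cube]
  ring

end tri

/-- Casting the trilinear form from `ℝ` to `ℂ`. -/
theorem tri_ofReal {ι : Type} [Fintype ι] (T : ι → ι → ι → ℝ) (a b c : ι → ℝ) :
    ((tri T a b c : ℝ) : ℂ)
      = tri (fun i j l => (T i j l : ℂ)) (fun i => (a i : ℂ)) (fun i => (b i : ℂ))
          (fun i => (c i : ℂ)) := by
  simp only [tri]
  push_cast
  rfl

open MvPolynomial in
/-- The cubic form of the tensor `T` as a polynomial. -/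
noncomputable def cubPoly {N : ℕ} (T : Fin N → Fin N → Fin N → ℝ) : MvPolynomial (Fin N) ℝ :=
  ∑ i, ∑ j, ∑ l, C (T i j l) * X i * X j * X l

theorem eval_cubPoly {N : ℕ} (T : Fin N → Fin N → Fin N → ℝ) (y : Fin N → ℝ) :
    MvPolynomial.eval y (cubPoly T) = tri T y y y := by
  simp [cubPoly, tri]

theorem aeval_cubPoly {N : ℕ} (T : Fin N → Fin N → Fin N → ℝ) (ξ : Fin N → ℂ) :
    MvPolynomial.aeval ξ (cubPoly T) = tri (fun i j l => (T i j l : ℂ)) ξ ξ ξ := by
  simp [cubPoly, tri]

theorem tri_sum_mid {R : Type} [CommRing R] {ι : Type} [Fintype ι] {κ : Type}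
    (T : ι → ι → ι → R) (a c : ι → R) (s : Finset κ) (f : κ → ι → R) :
    tri T a (∑ j ∈ s, f j) c = ∑ j ∈ s, tri T a (f j) c := by
  classical
  induction s using Finset.induction_on with
  | empty => simp [tri]
  | insert j s h ih => rw [Finset.sum_insert h, tri_add_mid, ih, Finset.sum_insert h]

theorem tri_sum_right {R : Type} [CommRing R] {ι : Type} [Fintype ι] {κ : Type}
    (T : ι → ι → ι → R) (a b : ι → R) (s : Finset κ) (f : κ → ι → R) :
    tri T a b (∑ j ∈ s, f j) = ∑ j ∈ s, tri T a b (f j) := by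
  classical
  induction s using Finset.induction_on with
  | empty => simp [tri]
  | insert j s h ih => rw [Finset.sum_insert h, tri_add_right, ih, Finset.sum_insert h]

/-- A quadratic form in the last two slots, evaluated on a linear combination of columns. -/
theorem tri_bilin_sum {R : Type} [CommRing R] {ι : Type} [Fintype ι] {n : ℕ}
    (T : ι → ι → ι → R) (u : ι → R) (col : Fin n → ι → R) (v : Fin n → R) :
    ∑ a, ∑ b, v a * tri T u (col a) (col b) * v b
      = tri T u (∑ a, v a • col a) (∑ b, v b • col b) := by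
  rw [tri_sum_mid]
  refine Finset.sum_congr rfl fun a _ => ?_
  rw [tri_smul_mid, tri_sum_right, Finset.mul_sum]
  refine Finset.sum_congr rfl fun b _ => ?_
  rw [tri_smul_right]
  ring

open Polynomial in
theorem eval_tri {ι : Type} [Fintype ι] (T : ι → ι → ι → ℝ) (A B D : ι → ℝ[X]) (x : ℝ) :
    (tri (fun i j l => C (T i j l)) A B D).eval x
      = tri T (fun i => (A i).eval x) (fun i => (B i).eval x) (fun i => (D i).eval x) := by
  simp [tri, Polynomial.eval_finsetSum]

open Polynomial in
theorem natDegree_tri_le {ι : Type} [Fintype ι] (T : ι → ι → ι → ℝ) (A B D : ι → ℝ[X])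
    (dA dB dD : ℕ) (hA : ∀ i, (A i).natDegree ≤ dA) (hB : ∀ i, (B i).natDegree ≤ dB)
    (hD : ∀ i, (D i).natDegree ≤ dD) :
    (tri (fun i j l => C (T i j l)) A B D).natDegree ≤ dA + dB + dD := by
  unfold tri
  refine Polynomial.natDegree_sum_le_of_forall_le _ _ fun i _ => ?_
  refine Polynomial.natDegree_sum_le_of_forall_le _ _ fun j _ => ?_
  refine Polynomial.natDegree_sum_le_of_forall_le _ _ fun l _ => ?_
  have h1 : (C (T i j l) * A i).natDegree ≤ dA :=
    (Polynomial.natDegree_C_mul_le _ _).trans (hA i)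
  have h2 : (C (T i j l) * A i * B j).natDegree ≤ dA + dB :=
    Polynomial.natDegree_mul_le_of_le h1 (hB j)
  exact Polynomial.natDegree_mul_le_of_le h2 (hD l)

end Vale.Agent.H69
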